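import Vale.Agent.P125.Dich.ApiB

set_option linter.unusedSectionVars false
set_option linter.unusedVariables false

/-!
# P125, (BV): assembly, abstract form

From the potential bound, the single edge bound and the pointwise deficit inequality we get the
inequality (BV) for a marked reversible chain.
-/

namespace Vale.Agent.P125.BV

open scoped BigOperators
open Vale.Agent.P125.Dich

variable {S M : Type} [Fintype S] [Fintype M] (C : MChain S M)

/-- stationarity: the expectation of an additive functional of the path -/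
lemma E_sum_map (b : ℕ) (φ : M → ℝ) :
    C.E b (fun l => (l.map φ).sum) = b * C.E 1 (fun l => (l.map φ).sum) := by
  induction b with
  | zero =>
    have h : C.E 0 (fun l => (l.map φ).sum) = C.E 0 (fun _ => 0) :=
      E_congr C 0 _ _ (fun l hl => by
        have h0 : l = [] := List.length_eq_zero_iff.1 hl
        subst h0
        simp)
    rw [h, E_const]
    simp
  | succ b ih =>
    have h1 : C.E (1 + b) (fun l => (l.map φ).sum)
        = C.E (1 + b) (fun l => ((l.take 1).map φ).sum + ((l.drop 1).map φ).sum) := by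
      apply E_congr
      intro l _
      conv_lhs => rw [← List.take_append_drop 1 l]
      rw [List.map_append, List.sum_append]
    rw [Nat.add_comm b 1, h1, E_add, E_take C 1 b (fun l => (l.map φ).sum),
      E_drop C 1 b (fun l => (l.map φ).sum), ih]
    push_cast
    ring

/-- a bound on single marks gives a bound on `E 1` -/
lemma E_one_le (Φ : List M → ℝ) (φ : M → ℝ) (h : ∀ m, Φ [m] ≤ φ m) :
    C.E 1 Φ ≤ C.E 1 (fun l => (l.map φ).sum) := by
  apply E_mono
  intro l hl
  obtain ⟨m, rfl⟩ := List.length_eq_one_iff.1 hl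
  simpa using h m

/-- **(BV), abstract assembly.** -/
theorem bv_assemble (Nn V : M → ℝ) (T mu : List M → ℝ) (cc : List M → ℕ) (L : ℕ)
    (H1 : ((L : ℝ) + 1) * C.E (2 ^ L) (fun l => mu l ^ 2) ≤
      4 * C.E 1 (fun l => mu l ^ 2 * cc l) + C.E 1 (fun l => mu l ^ 2))
    (H2a : ∀ m, mu [m] ^ 2 ≤ Nn m ^ 2)
    (H2b : ∀ m, mu [m] ^ 2 * cc [m] ≤ Nn m ^ 2 + Nn m * V m)
    (H3 : ∀ l : List M, l.length = 2 ^ L →
      (1 / 16) * ((l.map (fun m => Nn m ^ 2)).sum - 4 * (l.length : ℝ) * mu l ^ 2)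
        ≤ (l.length : ℝ) * (l.map (fun m => Nn m ^ 2)).sum - T l ^ 2) :
    C.E (2 ^ L) (fun l => T l ^ 2) ≤
      ((2 : ℝ) ^ L) ^ 2 * C.E 1 (fun l => (l.map (fun m => Nn m ^ 2)).sum)
        - ((2 : ℝ) ^ L / 16) * (C.E 1 (fun l => (l.map (fun m => Nn m ^ 2)).sum)
          - 4 * (5 * C.E 1 (fun l => (l.map (fun m => Nn m ^ 2)).sum)
            + 4 * C.E 1 (fun l => (l.map (fun m => Nn m * V m)).sum)) / ((L : ℝ) + 1)) := by
  set Mr : ℝ := (2 : ℝ) ^ L with hMr
  set EN2 : ℝ := C.E 1 (fun l => (l.map (fun m => Nn m ^ 2)).sum) with hEN2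
  set ENV : ℝ := C.E 1 (fun l => (l.map (fun m => Nn m * V m)).sum) with hENV
  set Q : ℝ := C.E (2 ^ L) (fun l => mu l ^ 2) with hQ
  have hMr0 : 0 < Mr := by rw [hMr]; positivity
  have hL0 : (0 : ℝ) < (L : ℝ) + 1 := by positivity
  -- step A
  have hA : C.E (2 ^ L) (fun l => T l ^ 2) ≤
      C.E (2 ^ L) (fun l => (Mr - 1 / 16) * (l.map (fun m => Nn m ^ 2)).sum
        + (Mr / 4) * mu l ^ 2) := by
    apply E_mono
    intro l hl
    have h3 := H3 l hl
    have hc : (l.length : ℝ) = Mr := by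
      rw [hl, hMr]
      push_cast
      ring
    rw [hc] at h3
    linarith
  rw [E_add, E_const_mul, E_const_mul, E_sum_map] at hA
  have hcast : (((2 ^ L : ℕ)) : ℝ) = Mr := by
    rw [hMr]
    push_cast
    ring
  rw [hcast, ← hEN2, ← hQ] at hA
  -- step B
  have hB1 : C.E 1 (fun l => mu l ^ 2) ≤ EN2 := E_one_le C _ _ H2a
  have hB2 : C.E 1 (fun l => mu l ^ 2 * cc l) ≤ EN2 + ENV := by
    have h := E_one_le C (fun l => mu l ^ 2 * cc l) (fun m => Nn m ^ 2 + Nn m * V m) H2b
    have h' : C.E 1 (fun l => (l.map (fun m => Nn m ^ 2 + Nn m * V m)).sum)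
        = EN2 + ENV := by
      rw [hEN2, hENV, ← E_add]
      apply E_congr
      intro l _
      rw [List.sum_map_add]
    rw [h'] at h
    exact h
  have hB : Q ≤ (5 * EN2 + 4 * ENV) / ((L : ℝ) + 1) := by
    rw [le_div_iff₀ hL0]
    linarith
  have hfin : (Mr / 4) * Q ≤ (Mr / 4) * ((5 * EN2 + 4 * ENV) / ((L : ℝ) + 1)) :=
    mul_le_mul_of_nonneg_left hB (by positivity)
  have e : Mr ^ 2 * EN2 - Mr / 16 * (EN2 - 4 * (5 * EN2 + 4 * ENV) / ((L : ℝ) + 1))
      = (Mr - 1 / 16) * (Mr * EN2) + (Mr / 4) * ((5 * EN2 + 4 * ENV) / ((L : ℝ) + 1)) := by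
    ring
  rw [e]
  linarith

end Vale.Agent.P125.BV
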