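import Vale.Agent.P125.BV.Potential

set_option linter.unusedSectionVars false
set_option linter.unusedVariables false

/-!
# P125, (BV): the potential recursion, abstract form, nonempty windows only

Same as `Pot`, but the monotonicity and rigidity hypotheses are only required for the
concatenation of two NONEMPTY windows (for the empty window they cannot hold).
-/

namespace Vale.Agent.P125.BV

open scoped BigOperators
open Vale.Agent.P125.Dich

variable {S M : Type} [Fintype S] [Fintype M]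

/-- hypotheses on the window functionals (nonempty windows) -/
structure PotNE (C : MChain S M) (mu sg : List M → ℝ) (cc : List M → ℕ) : Prop where
  mu_nonneg : ∀ l, 0 ≤ mu l
  mu_rev : ∀ l, mu ((l.map C.inv).reverse) = mu l
  sg_pm : ∀ l, sg l = 1 ∨ sg l = -1
  sg_rev : ∀ l, mu l ≠ 0 → sg ((l.map C.inv).reverse) = - sg l
  mu_left : ∀ l1 l2, l1 ≠ [] → l2 ≠ [] → mu (l1 ++ l2) ≤ mu l1
  mu_right : ∀ l1 l2, l1 ≠ [] → l2 ≠ [] → mu (l1 ++ l2) ≤ mu l2
  cc_left : ∀ l1 l2, l1 ≠ [] → l2 ≠ [] → mu (l1 ++ l2) ≠ 0 → cc (l1 ++ l2) ≤ cc l1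
  cc_right : ∀ l1 l2, l1 ≠ [] → l2 ≠ [] → mu (l1 ++ l2) ≠ 0 → cc (l1 ++ l2) ≤ cc l2
  sg_left : ∀ l1 l2, l1 ≠ [] → l2 ≠ [] → mu (l1 ++ l2) ≠ 0 → cc (l1 ++ l2) = cc l1 →
    sg (l1 ++ l2) = sg l1
  sg_right : ∀ l1 l2, l1 ≠ [] → l2 ≠ [] → mu (l1 ++ l2) ≠ 0 → cc (l1 ++ l2) = cc l2 →
    sg (l1 ++ l2) = sg l2

variable {C : MChain S M} {mu sg : List M → ℝ} {cc : List M → ℕ}

lemma take_ne_nil {m : ℕ} (hm : 1 ≤ m) {l : List M} (hl : l.length = m + m) : l.take m ≠ [] := by
  intro h
  have h1 : (l.take m).length = 0 := by rw [h]; rfl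
  rw [List.length_take, hl] at h1
  omega

lemma drop_ne_nil {m : ℕ} (hm : 1 ≤ m) {l : List M} (hl : l.length = m + m) : l.drop m ≠ [] := by
  intro h
  have h1 : (l.drop m).length = 0 := by rw [h]; rfl
  rw [List.length_drop, hl] at h1
  omega

/-- `Q` decreases under doubling -/
lemma PotNE.Q_anti (P : PotNE C mu sg cc) (m : ℕ) (hm : 1 ≤ m) :
    C.E (m + m) (fun l => mu l ^ 2) ≤ C.E m (fun l => mu l ^ 2) := by
  rw [← E_take C m m (fun l => mu l ^ 2)]
  apply E_mono
  intro l hl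
  have h1 := P.mu_left (l.take m) (l.drop m) (take_ne_nil hm hl) (drop_ne_nil hm hl)
  rw [List.take_append_drop] at h1
  have h0 := P.mu_nonneg l
  nlinarith

/-- the recursion `Φ (2 m) ≤ Φ m - Q (2 m) / 2 + Q m / 4` -/
lemma PotNE.rec_step (P : PotNE C mu sg cc) (m : ℕ) (hm : 1 ≤ m) :
    C.E (m + m) (fun l => mu l ^ 2 * cc l) ≤
      C.E m (fun l => mu l ^ 2 * cc l) - C.E (m + m) (fun l => mu l ^ 2) / 2
        + C.E m (fun l => mu l ^ 2) / 4 := by
  have hpt : ∀ l : List M, l.length = m + m → mu l ^ 2 * cc l + (1 / 2) * mu l ^ 2 ≤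
      ((1 / 2) * (mu (l.take m) ^ 2 * cc (l.take m)) +
        (1 / 2) * (mu (l.drop m) ^ 2 * cc (l.drop m))) +
        (1 / 2) * (mu (l.take m) * mu (l.drop m) *
          (if sg (l.take m) = sg (l.drop m) then 1 else 0)) := by
    intro l hl
    have n1 := take_ne_nil hm hl
    have n2 := drop_ne_nil hm hl
    have e : l.take m ++ l.drop m = l := List.take_append_drop m l
    have h1 := P.mu_left (l.take m) (l.drop m) n1 n2
    have h2 := P.mu_right (l.take m) (l.drop m) n1 n2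
    have h3 := P.cc_left (l.take m) (l.drop m) n1 n2
    have h4 := P.cc_right (l.take m) (l.drop m) n1 n2
    have h5 := P.sg_left (l.take m) (l.drop m) n1 n2
    have h6 := P.sg_right (l.take m) (l.drop m) n1 n2
    rw [e] at h1 h2 h3 h4 h5 h6
    have key := pointwise_step (mu l) (mu (l.take m)) (mu (l.drop m)) (cc l) (cc (l.take m))
      (cc (l.drop m)) (if sg (l.take m) = sg (l.drop m) then 1 else 0) (P.mu_nonneg l) h1 h2
      (by split_ifs <;> norm_num) h3 h4 (by
        intro hne hc1 hc2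
        rw [if_pos]
        rw [← h5 hne hc1, ← h6 hne hc2])
    linarith
  have hE := E_mono C (m + m) _ _ (fun l hl => hpt l hl)
  rw [E_add, E_add, E_add, E_const_mul, E_const_mul, E_const_mul, E_const_mul,
    E_take C m m (fun l => mu l ^ 2 * cc l), E_drop C m m (fun l => mu l ^ 2 * cc l)] at hE
  have hi := iid_step_w C m mu sg P.mu_nonneg P.mu_rev P.sg_pm P.sg_rev
  linarith

/-- telescoping over the dyadic scales -/
lemma PotNE.potential (P : PotNE C mu sg cc) (L : ℕ) :
    ((L : ℝ) + 1) * C.E (2 ^ L) (fun l => mu l ^ 2) ≤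
      4 * C.E 1 (fun l => mu l ^ 2 * cc l) + C.E 1 (fun l => mu l ^ 2) := by
  have hPhi : ∀ m, 0 ≤ C.E m (fun l => mu l ^ 2 * cc l) := by
    intro m
    apply E_nonneg
    intro l _
    positivity
  -- stronger statement carrying the potential
  have key : ∀ L : ℕ, ((L : ℝ) + 1) * C.E (2 ^ L) (fun l => mu l ^ 2) +
      4 * C.E (2 ^ L) (fun l => mu l ^ 2 * cc l) ≤
      4 * C.E 1 (fun l => mu l ^ 2 * cc l) + C.E 1 (fun l => mu l ^ 2) := by
    intro L
    induction L with
    | zero =>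
      simp only [pow_zero, Nat.cast_zero, zero_add, one_mul]
      linarith
    | succ L ih =>
      have e : 2 ^ (L + 1) = 2 ^ L + 2 ^ L := by ring
      have hp : 1 ≤ 2 ^ L := Nat.one_le_two_pow
      have h1 := P.rec_step (2 ^ L) hp
      have h2 := P.Q_anti (2 ^ L) hp
      rw [← e] at h1 h2
      have hL : (0 : ℝ) ≤ (L : ℝ) := Nat.cast_nonneg L
      push_cast
      nlinarith
  have := key L
  have := hPhi (2 ^ L)
  linarith

end Vale.Agent.P125.BV
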