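import Vale.Agent.P125.BV.Glue67

set_option linter.unusedSectionVars false
set_option linter.unusedVariables false

/-!
# P125: (alpha) for all large times

From `G67.alpha` (one time `s` for every `ε`) we get the estimate for **all** `t ≥ t0 (ε)`.
-/

namespace Vale.Agent.P125.BV.G67

open scoped BigOperators
open Vale.Agent.P125.Dich Vale.Agent.P125.Char Vale.Agent.P125.TS Vale.Agent.P125.BV

section Split

variable {S M : Type} [Fintype S] [Fintype M]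

lemma E_split2 {X : Type*} [NormedAddCommGroup X] (C : MChain S M) (ω : M → X) (a b : ℕ) :
    C.E (a + b) (fun l => ‖sm ω l‖ ^ 2) ≤
      2 * C.E a (fun l => ‖sm ω l‖ ^ 2) + 2 * C.E b (fun l => ‖sm ω l‖ ^ 2) := by
  have h1 : C.E (a + b) (fun l => ‖sm ω l‖ ^ 2) ≤
      C.E (a + b) (fun l => 2 * ‖sm ω (l.take a)‖ ^ 2 + 2 * ‖sm ω (l.drop a)‖ ^ 2) := by
    apply E_mono
    intro l _
    have e : sm ω l = sm ω (l.take a) + sm ω (l.drop a) := by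
      rw [← sm_append, List.take_append_drop]
    have h := norm_add_le (sm ω (l.take a)) (sm ω (l.drop a))
    rw [← e] at h
    have h0 := norm_nonneg (sm ω l)
    nlinarith [sq_nonneg (‖sm ω (l.take a)‖ - ‖sm ω (l.drop a)‖)]
  rw [E_add, E_const_mul, E_const_mul, E_take C a b (fun l => ‖sm ω l‖ ^ 2),
    E_drop C a b (fun l => ‖sm ω l‖ ^ 2)] at h1
  exact h1

lemma fun_split2 {X : Type*} [NormedAddCommGroup X] [DecidableEq S] (μ : S → ℝ)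
    (P : Matrix S S ℝ) (hc : IsChain μ P) (F : S → X) (a b : ℕ) :
    ∑ i, ∑ j, μ i * (P ^ (a + b)) i j * ‖F j - F i‖ ^ 2 ≤
      2 * ∑ i, ∑ j, μ i * (P ^ a) i j * ‖F j - F i‖ ^ 2
        + 2 * ∑ i, ∑ j, μ i * (P ^ b) i j * ‖F j - F i‖ ^ 2 := by
  obtain ⟨h0, h1, h2, h3, h4⟩ := hc
  have key := E_split2 (backChain μ P h0 h1 h2 h3 h4) (fun m : S × S => F m.2 - F m.1) a b
  rw [back_E μ P h0 h1 h2 h3 h4 F (a + b) (fun u => ‖u‖ ^ 2),
    back_E μ P h0 h1 h2 h3 h4 F a (fun u => ‖u‖ ^ 2),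
    back_E μ P h0 h1 h2 h3 h4 F b (fun u => ‖u‖ ^ 2)] at key
  exact key

end Split

/-- the profile of `v` as a vector of the sup normed space `Fin (n+1) → ℝ` -/
def prof {n : ℕ} (v : Fin n → ℝ) : Fin (n + 1) → ℝ := fun k => pre v k.val

lemma prof_sub {n : ℕ} (u v : Fin n → ℝ) : prof u - prof v = prof (u - v) := by
  funext k
  have h : pre (u - v) = pre u - pre v := by
    rw [sub_eq_add_neg, pre_add, pre_neg, ← sub_eq_add_neg]
  simp only [prof, Pi.sub_apply, h]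

lemma norm_prof {n : ℕ} (v : Fin n → ℝ) : ‖prof v‖ = supJ n (pre v) := by
  apply le_antisymm
  · rw [pi_norm_le_iff_of_nonneg (supJ_nonneg _ _)]
    intro k
    rw [Real.norm_eq_abs]
    exact Finset.le_sup' (fun k => |pre v k|) (Finset.mem_range.2 k.isLt)
  · unfold supJ
    apply Finset.sup'_le
    intro k hk
    have h := norm_le_pi_norm (prof v) ⟨k, Finset.mem_range.1 hk⟩
    rwa [Real.norm_eq_abs] at h

/-- **(alpha) for all large times** -/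
theorem alpha_all : ∀ ε : ℝ, 0 < ε → ∃ t0 : ℕ, ∀ t : ℕ, t0 ≤ t → RFun t ε := by
  intro ε hε
  obtain ⟨s, hs, hR⟩ := alpha (ε / 4) (by positivity)
  obtain ⟨N, hN⟩ := exists_nat_ge (4 / ε)
  refine ⟨s * (N + 1), ?_⟩
  intro t ht n S _ _ μ P hc f
  set U := ∑ i, ∑ j, μ i * P i j * n1 (f j - f i) ^ 2 with hU
  have hU0 : 0 ≤ U := U_nonneg μ P hc f
  set q := t / s with hq
  set r := t % s with hr
  have hts : s * q + r = t := Nat.div_add_mod t s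
  have hrs : r < s := Nat.mod_lt t (by omega)
  -- rewriting in the sup normed space
  have eN : ∀ (b : ℕ), ∑ i, ∑ j, μ i * (P ^ b) i j * ‖prof (f j) - prof (f i)‖ ^ 2
      = ∑ i, ∑ j, μ i * (P ^ b) i j * supJ n (pre (f j - f i)) ^ 2 := by
    intro b
    refine Finset.sum_congr rfl fun i _ => Finset.sum_congr rfl fun j _ => ?_
    rw [prof_sub, norm_prof]
  have k1 := fun_split2 μ P hc (fun x => prof (f x)) (s * q) r
  rw [eN, eN, eN, hts] at k1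
  have k2 := hFun_triv (Fin (n + 1) → ℝ) q S μ (P ^ s) (isChain_pow hc s) (fun x => prof (f x))
  have eP : (P ^ s) ^ q = P ^ (s * q) := (pow_mul P s q).symm
  rw [eP, eN, eN] at k2
  have k3 := hR n S μ P hc f
  rw [← hU] at k3
  have k4 : ∑ i, ∑ j, μ i * (P ^ r) i j * supJ n (pre (f j - f i)) ^ 2 ≤ (r : ℝ) ^ 2 * U := by
    refine le_trans ?_ (n1_triv r μ P hc f)
    have hcr := isChain_pow hc r
    refine Finset.sum_le_sum fun i _ => Finset.sum_le_sum fun j _ => ?_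
    refine mul_le_mul_of_nonneg_left ?_ (mul_nonneg (hcr.1 i) (hcr.2.2.1 i j))
    exact pow_le_pow_left₀ (supJ_nonneg _ _) (supJ_pre_le _) 2
  -- the arithmetic
  have hsR : (1 : ℝ) ≤ (s : ℝ) := by exact_mod_cast hs
  have htR : (s : ℝ) * (q : ℝ) + (r : ℝ) = (t : ℝ) := by exact_mod_cast hts
  have hrR : (r : ℝ) ≤ (s : ℝ) := by exact_mod_cast hrs.le
  have hr0 : (0 : ℝ) ≤ (r : ℝ) := Nat.cast_nonneg r
  have hq0 : (0 : ℝ) ≤ (q : ℝ) := Nat.cast_nonneg q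
  have htN : (s : ℝ) * ((N : ℝ) + 1) ≤ (t : ℝ) := by exact_mod_cast ht
  have hN0 : (0 : ℝ) ≤ (N : ℝ) := Nat.cast_nonneg N
  have a1 : ((s : ℝ) * (q : ℝ)) ^ 2 ≤ (t : ℝ) ^ 2 := by
    apply pow_le_pow_left₀ (by positivity)
    linarith
  have a2 : 4 * (s : ℝ) ^ 2 ≤ ε * (t : ℝ) ^ 2 := by
    have b1 : ((s : ℝ) * ((N : ℝ) + 1)) ^ 2 ≤ (t : ℝ) ^ 2 :=
      pow_le_pow_left₀ (by positivity) htN 2
    have b2 : 4 ≤ ε * ((N : ℝ) + 1) := by
      have : 4 / ε * ε = 4 := by field_simp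
      nlinarith
    have b3 : 4 ≤ ε * ((N : ℝ) + 1) ^ 2 := by nlinarith
    have b4 : 4 * (s : ℝ) ^ 2 ≤ ε * ((N : ℝ) + 1) ^ 2 * (s : ℝ) ^ 2 :=
      mul_le_mul_of_nonneg_right b3 (sq_nonneg _)
    have b5 : ε * ((s : ℝ) * ((N : ℝ) + 1)) ^ 2 ≤ ε * (t : ℝ) ^ 2 :=
      mul_le_mul_of_nonneg_left b1 hε.le
    nlinarith
  have a3 : (r : ℝ) ^ 2 ≤ (s : ℝ) ^ 2 := pow_le_pow_left₀ hr0 hrR 2
  have c1 : (q : ℝ) ^ 2 * (ε / 4 * (s : ℝ) ^ 2 * U) ≤ ε / 4 * (t : ℝ) ^ 2 * U := by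
    have : (q : ℝ) ^ 2 * (ε / 4 * (s : ℝ) ^ 2 * U) = ε / 4 * U * ((s : ℝ) * (q : ℝ)) ^ 2 := by ring
    rw [this]
    have := mul_le_mul_of_nonneg_left a1 (by positivity : 0 ≤ ε / 4 * U)
    linarith
  have c2 : (r : ℝ) ^ 2 * U ≤ ε / 4 * (t : ℝ) ^ 2 * U := by
    have h1 : (r : ℝ) ^ 2 ≤ ε / 4 * (t : ℝ) ^ 2 := by linarith
    exact mul_le_mul_of_nonneg_right h1 hU0
  have c3 : (q : ℝ) ^ 2 * ∑ i, ∑ j, μ i * (P ^ s) i j * supJ n (pre (f j - f i)) ^ 2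
      ≤ (q : ℝ) ^ 2 * (ε / 4 * (s : ℝ) ^ 2 * U) :=
    mul_le_mul_of_nonneg_left k3 (sq_nonneg _)
  linarith

lemma supJ_eq_iSup (n : ℕ) (h : ℕ → ℝ) : supJ n h = ⨆ k : Fin (n + 1), |h k.val| := by
  apply le_antisymm
  · unfold supJ
    apply Finset.sup'_le
    intro k hk
    exact le_ciSup (f := fun k : Fin (n + 1) => |h k.val|) (Set.finite_range _).bddAbove
      ⟨k, Finset.mem_range.1 hk⟩
  · apply ciSup_le
    intro k
    exact Finset.le_sup' (fun k => |h k|) (Finset.mem_range.2 k.isLt)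

/-- **(alpha) for all large times**, with every definition written out -/
theorem alpha_all_explicit : ∀ ε : ℝ, 0 < ε → ∃ t0 : ℕ, ∀ t : ℕ, t0 ≤ t →
    ∀ (n : ℕ) (S : Type) [Fintype S] [DecidableEq S] (μ : S → ℝ) (P : Matrix S S ℝ),
      (∀ i, 0 ≤ μ i) → ∑ i, μ i = 1 → (∀ i j, 0 ≤ P i j) → (∀ i, ∑ j, P i j = 1) →
      (∀ i j, μ i * P i j = μ j * P j i) → ∀ f : S → Fin n → ℝ,
        ∑ i, ∑ j, μ i * (P ^ t) i j *
            (⨆ k : Fin (n + 1), |∑ l : Fin n, if l.val < k.val then f j l - f i l else 0|) ^ 2 ≤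
          ε * (t : ℝ) ^ 2 * ∑ i, ∑ j, μ i * P i j * (∑ l : Fin n, |f j l - f i l|) ^ 2 := by
  intro ε hε
  obtain ⟨t0, h⟩ := alpha_all ε hε
  refine ⟨t0, fun t ht n S _ _ μ P h0 h1 h2 h3 h4 f => ?_⟩
  have key := h t ht n S μ P ⟨h0, h1, h2, h3, h4⟩ f
  simp only [supJ_eq_iSup] at key
  exact key

end Vale.Agent.P125.BV.G67
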