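import Vale.Agent.P125.BV.Conc81
import Vale.Agent.P125.Alpha.Top

set_option linter.unusedSectionVars false
set_option linter.unusedVariables false

/-!
# P125, (alpha) for all large times

From `alpha_fun` (one time `t0` for every `ε`) we get the `o(t)` form: for every `ε > 0` there is
`T` such that the bound holds at every time `t ≥ T`.
-/

namespace Vale.Agent.P125.BV

open scoped BigOperators
open Vale.Agent.P125.Dich Vale.Agent.P125.Char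

/-- the output gauge -/
noncomputable def gJ (n : ℕ) (v : Fin n → ℝ) : ℝ := supJ n (pre v)

lemma gJ_zero (n : ℕ) : gJ n 0 = 0 := by
  unfold gJ supJ
  rw [pre_zero]
  apply le_antisymm
  · exact Finset.sup'_le _ _ fun k _ => by simp
  · exact le_trans (by simp) (Finset.le_sup' (fun k => |(0 : ℕ → ℝ) k|) (b := 0) (by simp))

lemma gJ_nonneg (n : ℕ) (v : Fin n → ℝ) : 0 ≤ gJ n v := supJ_nonneg _ _

lemma gJ_add (n : ℕ) (v w : Fin n → ℝ) : gJ n (v + w) ≤ gJ n v + gJ n w := by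
  unfold gJ supJ
  rw [pre_add]
  refine Finset.sup'_le _ _ fun k hk => ?_
  rw [Pi.add_apply]
  exact (abs_add_le _ _).trans (add_le_add (Finset.le_sup' (fun k => |pre v k|) hk)
    (Finset.le_sup' (fun k => |pre w k|) hk))

/-- splitting a path of length `a + b` -/
lemma E_split_le {S M : Type} [Fintype S] [Fintype M] (C : MChain S M) {n : ℕ}
    (ω : M → Fin n → ℝ) (a b : ℕ) :
    C.E (a + b) (fun l => gJ n (sm ω l) ^ 2) ≤
      2 * C.E a (fun l => gJ n (sm ω l) ^ 2) + 2 * C.E b (fun l => gJ n (sm ω l) ^ 2) := by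
  have h1 : C.E (a + b) (fun l => gJ n (sm ω l) ^ 2) ≤
      C.E (a + b) (fun l => 2 * gJ n (sm ω (l.take a)) ^ 2 + 2 * gJ n (sm ω (l.drop a)) ^ 2) := by
    apply E_mono
    intro l _
    have e : sm ω l = sm ω (l.take a) + sm ω (l.drop a) := by
      rw [← sm_append, List.take_append_drop]
    have h2 := gJ_add n (sm ω (l.take a)) (sm ω (l.drop a))
    rw [← e] at h2
    have h3 := gJ_nonneg n (sm ω l)
    have h4 : gJ n (sm ω l) ^ 2 ≤ (gJ n (sm ω (l.take a)) + gJ n (sm ω (l.drop a))) ^ 2 :=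
      pow_le_pow_left₀ h3 h2 2
    nlinarith [sq_nonneg (gJ n (sm ω (l.take a)) - gJ n (sm ω (l.drop a)))]
  rw [E_add, E_const_mul, E_const_mul, E_take C a b (fun l => gJ n (sm ω l) ^ 2),
    E_drop C a b (fun l => gJ n (sm ω l) ^ 2)] at h1
  exact h1

/-- the same in function form -/
lemma fun_split_le {S : Type} [Fintype S] [DecidableEq S] (μ : S → ℝ) (P : Matrix S S ℝ)
    (hc : IsChain μ P) {n : ℕ} (f : S → Fin n → ℝ) (a b : ℕ) :
    ∑ i, ∑ j, μ i * (P ^ (a + b)) i j * gJ n (f j - f i) ^ 2 ≤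
      2 * ∑ i, ∑ j, μ i * (P ^ a) i j * gJ n (f j - f i) ^ 2 +
        2 * ∑ i, ∑ j, μ i * (P ^ b) i j * gJ n (f j - f i) ^ 2 := by
  obtain ⟨h0, h1, h2, h3, h4⟩ := hc
  have key := E_split_le (backChain μ P h0 h1 h2 h3 h4) (fun m : S × S => f m.2 - f m.1) a b
  rw [back_E μ P h0 h1 h2 h3 h4 f (a + b) (fun u => gJ n u ^ 2),
    back_E μ P h0 h1 h2 h3 h4 f a (fun u => gJ n u ^ 2),
    back_E μ P h0 h1 h2 h3 h4 f b (fun u => gJ n u ^ 2)] at key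
  exact key

/-- (alpha) at all large times -/
theorem alpha_all : ∀ ε : ℝ, 0 < ε → ∃ T : ℕ, ∀ t : ℕ, T ≤ t → RFun t ε := by
  intro ε hε
  obtain ⟨t0, ht0, h0⟩ := alpha_fun (ε / 4) (by positivity)
  obtain ⟨T, hT⟩ := exists_nat_ge (4 * (t0 : ℝ) ^ 2 / ε + 1)
  refine ⟨T, fun t ht => ?_⟩
  intro n S _ _ μ P hc f
  set U := ∑ i, ∑ j, μ i * P i j * n1 (f j - f i) ^ 2 with hU
  have hU0 : 0 ≤ U := U_nonneg μ P hc f
  have htT : (T : ℝ) ≤ (t : ℝ) := by exact_mod_cast ht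
  have ht1 : (1 : ℝ) ≤ (t : ℝ) := by
    have : 0 ≤ 4 * (t0 : ℝ) ^ 2 / ε := by positivity
    linarith
  have hbig : 4 * (t0 : ℝ) ^ 2 ≤ ε * (t : ℝ) ^ 2 := by
    have h1 : 4 * (t0 : ℝ) ^ 2 / ε ≤ (t : ℝ) := by linarith
    have h2 : 4 * (t0 : ℝ) ^ 2 ≤ (t : ℝ) * ε := (div_le_iff₀ hε).1 h1
    nlinarith
  set q := t / t0 with hq
  set r := t % t0 with hr
  have hdec : t = t0 * q + r := (Nat.div_add_mod t t0).symm
  have hrlt : r < t0 := Nat.mod_lt _ (by omega)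
  -- the three bounds
  have b0 := fun_split_le μ P hc f (t0 * q) r
  have b1 := Vale.Agent.P125.Alpha.fun_sub_sq_le (gJ n) (gJ_zero n) (gJ_nonneg n) (gJ_add n)
    μ (P ^ t0) (isChain_pow hc t0) f q
  rw [← pow_mul] at b1
  have b2 : ∑ i, ∑ j, μ i * (P ^ t0) i j * gJ n (f j - f i) ^ 2 ≤ ε / 4 * (t0 : ℝ) ^ 2 * U :=
    h0 n S μ P hc f
  have b3 := Vale.Agent.P125.Alpha.fun_sub_sq_le (gJ n) (gJ_zero n) (gJ_nonneg n) (gJ_add n)
    μ P hc f r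
  have b4 : ∑ i, ∑ j, μ i * P i j * gJ n (f j - f i) ^ 2 ≤ U := by
    have := RFun_one n S μ P hc f
    simp only [pow_one, Nat.cast_one, one_pow, mul_one, one_mul] at this
    exact this
  have goal : ∑ i, ∑ j, μ i * (P ^ t) i j * gJ n (f j - f i) ^ 2 ≤ ε * (t : ℝ) ^ 2 * U := by
    rw [← hdec] at b0
    have c1 : (q : ℝ) ^ 2 * ∑ i, ∑ j, μ i * (P ^ t0) i j * gJ n (f j - f i) ^ 2
        ≤ (q : ℝ) ^ 2 * (ε / 4 * (t0 : ℝ) ^ 2 * U) :=
      mul_le_mul_of_nonneg_left b2 (sq_nonneg _)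
    have c2 : (r : ℝ) ^ 2 * ∑ i, ∑ j, μ i * P i j * gJ n (f j - f i) ^ 2 ≤ (r : ℝ) ^ 2 * U :=
      mul_le_mul_of_nonneg_left b4 (sq_nonneg _)
    have hr' : (r : ℝ) ≤ (t0 : ℝ) := by exact_mod_cast hrlt.le
    have hr0 : (0 : ℝ) ≤ (r : ℝ) := Nat.cast_nonneg _
    have hqt : (t0 : ℝ) * (q : ℝ) ≤ (t : ℝ) := by
      have : t0 * q ≤ t := by omega
      exact_mod_cast this
    have hqt0 : (0 : ℝ) ≤ (t0 : ℝ) * (q : ℝ) := by positivity
    have d1 : ((t0 : ℝ) * (q : ℝ)) ^ 2 ≤ (t : ℝ) ^ 2 := pow_le_pow_left₀ hqt0 hqt 2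
    have d2 : (r : ℝ) ^ 2 ≤ (t0 : ℝ) ^ 2 := pow_le_pow_left₀ hr0 hr' 2
    have d3 : (q : ℝ) ^ 2 * (ε / 4 * (t0 : ℝ) ^ 2 * U) ≤ ε / 4 * (t : ℝ) ^ 2 * U := by
      have : (q : ℝ) ^ 2 * (ε / 4 * (t0 : ℝ) ^ 2 * U) = ε / 4 * U * ((t0 : ℝ) * (q : ℝ)) ^ 2 := by
        ring
      rw [this]
      have h5 : 0 ≤ ε / 4 * U := by positivity
      nlinarith [mul_le_mul_of_nonneg_left d1 h5]
    have d4 : (r : ℝ) ^ 2 * U ≤ ε / 4 * (t : ℝ) ^ 2 * U := by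
      have h6 : (r : ℝ) ^ 2 ≤ ε / 4 * (t : ℝ) ^ 2 := by linarith
      exact mul_le_mul_of_nonneg_right h6 hU0
    linarith
  exact goal

end Vale.Agent.P125.BV
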