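import Vale.Agent.P125.BV.Top
import Vale.Agent.P125.Alpha.AllT

set_option linter.unusedSectionVars false
set_option linter.unusedVariables false

/-! # P125 (alpha) : from some time to ALL large times, in the vocabulary of `BV/Top` -/

namespace Vale.Agent.P125.BV

open Vale.Agent.P125.Dich
open scoped BigOperators

lemma supJ_add_le (n : ℕ) (h k : ℕ → ℝ) : supJ n (h + k) ≤ supJ n h + supJ n k := by
  unfold supJ
  refine Finset.sup'_le _ _ fun x hx => ?_
  have h1 : |h x| ≤ (Finset.range (n + 1)).sup' ⟨0, by simp⟩ (fun y => |h y|) :=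
    Finset.le_sup' (fun y => |h y|) hx
  have h2 : |k x| ≤ (Finset.range (n + 1)).sup' ⟨0, by simp⟩ (fun y => |k y|) :=
    Finset.le_sup' (fun y => |k y|) hx
  calc |(h + k) x| = |h x + k x| := rfl
    _ ≤ |h x| + |k x| := abs_add_le _ _
    _ ≤ _ := add_le_add h1 h2

/-- if the constant can be made arbitrarily small at SOME time, it is arbitrarily small at ALL
large times -/
theorem all_times_of_alpha (h : ∀ ε : ℝ, 0 < ε → ∃ t : ℕ, 1 ≤ t ∧ RFun t ε) :
    ∀ ε : ℝ, 0 < ε → ∃ t0 : ℕ, ∀ t : ℕ, t0 ≤ t → RFun t ε := by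
  intro ε hε
  obtain ⟨t1, ht1, h1⟩ := h (ε / 4) (by positivity)
  set κ : ℝ := Real.sqrt ε / 2 with hκ
  have hκ0 : 0 < κ := by
    have := Real.sqrt_pos.2 hε
    positivity
  have hκ2 : κ ^ 2 = ε / 4 := by
    rw [hκ, div_pow, Real.sq_sqrt hε.le]
    norm_num
  obtain ⟨t2, ht2⟩ := exists_nat_ge ((t1 : ℝ) / κ)
  refine ⟨max t1 t2, ?_⟩
  intro T hT n S _ _ μ P hP f
  have hT1 : t1 ≤ T := le_trans (le_max_left _ _) hT
  have hT2 : (t2 : ℝ) ≤ T := by exact_mod_cast le_trans (le_max_right _ _) hT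
  have hT3 : (t1 : ℝ) ≤ κ * T := by
    have := (div_le_iff₀ hκ0).1 (ht2.trans hT2)
    linarith
  have h2 := h1 n S μ P hP f
  have h3 := Vale.Agent.P125.Alpha.AllT.all_large hP (fun v : Fin n → ℝ => supJ n (pre v))
    (n1 (n := n)) (fun v => supJ_nonneg n _)
    (fun v w => by
      show supJ n (pre (v + w)) ≤ supJ n (pre v) + supJ n (pre w)
      rw [pre_add]
      exact supJ_add_le n _ _)
    (fun v => supJ_pre_le v) f t1 ht1 κ hκ0
    (by
      unfold Vale.Agent.P125.Alpha.AllT.En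
      rw [mul_pow, hκ2, pow_one]
      exact h2) T hT1 hT3
  unfold Vale.Agent.P125.Alpha.AllT.En at h3
  rw [pow_one] at h3
  have e : (2 * κ * (T : ℝ)) ^ 2 = ε * (T : ℝ) ^ 2 := by
    have : (2 * κ * (T : ℝ)) ^ 2 = 4 * κ ^ 2 * (T : ℝ) ^ 2 := by ring
    rw [this, hκ2]
    ring
  rw [e] at h3
  exact h3

end Vale.Agent.P125.BV
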