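import Mathlib

/-!
Alternation count of two finite sets of positions, and the letter of the leftmost position.
Combinatorial input of the BV estimate (facts (d), (e) of the pen proof).
-/

namespace Vale.Agent.P125.BV

open Finset

/-- `IsAlt A B l`: the list `l` is strictly increasing and its entries lie alternately in
`A, B, A, ...` (the first one in `A`). -/
def IsAlt : Finset ℕ → Finset ℕ → List ℕ → Prop
  | _, _, [] => True
  | A, _, [a] => a ∈ A
  | A, B, a :: b :: l => a ∈ A ∧ a < b ∧ IsAlt B A (b :: l)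

theorem IsAlt.head_mem {A B : Finset ℕ} {a : ℕ} {l : List ℕ} (h : IsAlt A B (a :: l)) :
    a ∈ A := by
  cases l with
  | nil => exact h
  | cons b l => exact h.1

theorem IsAlt.mono {A A' B B' : Finset ℕ} (hA : A' ⊆ A) (hB : B' ⊆ B) {l : List ℕ}
    (h : IsAlt A' B' l) : IsAlt A B l := by
  induction l generalizing A A' B B' with
  | nil => trivial
  | cons a l ih =>
    cases l with
    | nil => exact hA h
    | cons b l => exact ⟨hA h.1, h.2.1, ih hB hA h.2.2⟩

theorem IsAlt.head_lt {A B : Finset ℕ} {a : ℕ} {l : List ℕ} (h : IsAlt A B (a :: l)) :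
    ∀ x ∈ l, a < x := by
  induction l generalizing A B a with
  | nil => intro x hx; simp at hx
  | cons b l ih =>
    intro x hx
    rcases List.mem_cons.1 hx with rfl | hx
    · exact h.2.1
    · exact lt_trans h.2.1 (ih h.2.2 x hx)

theorem IsAlt.tail {A B : Finset ℕ} {a : ℕ} {l : List ℕ} (h : IsAlt A B (a :: l)) :
    IsAlt B A l := by
  cases l with
  | nil => trivial
  | cons b l => exact h.2.2

theorem IsAlt.nodup {A B : Finset ℕ} {l : List ℕ} (h : IsAlt A B l) : l.Nodup := by
  induction l generalizing A B with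
  | nil => exact List.nodup_nil
  | cons a l ih =>
    refine List.nodup_cons.2 ⟨fun ha => ?_, ih h.tail⟩
    exact lt_irrefl _ (h.head_lt a ha)

theorem IsAlt.mem_union {A B : Finset ℕ} {l : List ℕ} (h : IsAlt A B l) :
    ∀ x ∈ l, x ∈ A ∪ B := by
  induction l generalizing A B with
  | nil => intro x hx; simp at hx
  | cons a l ih =>
    intro x hx
    rcases List.mem_cons.1 hx with rfl | hx
    · exact Finset.mem_union_left _ h.head_mem
    · have := ih h.tail x hx
      rwa [Finset.union_comm] at this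

theorem IsAlt.length_le {A B : Finset ℕ} {l : List ℕ} (h : IsAlt A B l) :
    l.length ≤ (A ∪ B).card := by
  rw [← List.toFinset_card_of_nodup h.nodup]
  apply Finset.card_le_card
  intro x hx
  exact h.mem_union x (List.mem_toFinset.1 hx)

/-- some alternating chain (either first letter) has length `m`. -/
def HasAlt (A B : Finset ℕ) (m : ℕ) : Prop :=
  ∃ l : List ℕ, l.length = m ∧ (IsAlt A B l ∨ IsAlt B A l)

open Classical in
/-- the maximal length of an alternating chain. -/
noncomputable def altc (A B : Finset ℕ) : ℕ :=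
  Nat.findGreatest (HasAlt A B) (A ∪ B).card

theorem hasAlt_zero (A B : Finset ℕ) : HasAlt A B 0 := ⟨[], rfl, Or.inl trivial⟩

theorem hasAlt_altc (A B : Finset ℕ) : HasAlt A B (altc A B) := by
  classical
  exact Nat.findGreatest_spec (P := HasAlt A B) (Nat.zero_le _) (hasAlt_zero A B)

theorem HasAlt.le_card {A B : Finset ℕ} {m : ℕ} (h : HasAlt A B m) : m ≤ (A ∪ B).card := by
  obtain ⟨l, rfl, h | h⟩ := h
  · exact h.length_le
  · have := h.length_le
    rwa [Finset.union_comm] at this

theorem HasAlt.le_altc {A B : Finset ℕ} {m : ℕ} (h : HasAlt A B m) : m ≤ altc A B := by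
  classical
  exact Nat.le_findGreatest h.le_card h

theorem altc_mono {A A' B B' : Finset ℕ} (hA : A' ⊆ A) (hB : B' ⊆ B) :
    altc A' B' ≤ altc A B := by
  obtain ⟨l, hl, h | h⟩ := hasAlt_altc A' B'
  · exact HasAlt.le_altc ⟨l, hl, Or.inl (h.mono hA hB)⟩
  · exact HasAlt.le_altc ⟨l, hl, Or.inr (h.mono hB hA)⟩

theorem altc_swap (A B : Finset ℕ) : altc B A = altc A B := by
  apply le_antisymm
  · obtain ⟨l, hl, h⟩ := hasAlt_altc B A
    exact HasAlt.le_altc ⟨l, hl, h.symm⟩
  · obtain ⟨l, hl, h⟩ := hasAlt_altc A B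
    exact HasAlt.le_altc ⟨l, hl, h.symm⟩

theorem one_le_altc {A B : Finset ℕ} (h : (A ∪ B).Nonempty) : 1 ≤ altc A B := by
  obtain ⟨x, hx⟩ := h
  rcases Finset.mem_union.1 hx with hx | hx
  · exact HasAlt.le_altc ⟨[x], rfl, Or.inl hx⟩
  · exact HasAlt.le_altc ⟨[x], rfl, Or.inr hx⟩

/-- the leftmost point of `A ∪ B` lies in `A`. -/
def FirstA (A B : Finset ℕ) : Prop := ∃ a ∈ A, ∀ x ∈ A ∪ B, a ≤ x

theorem firstA_or {A B : Finset ℕ} (h : (A ∪ B).Nonempty) : FirstA A B ∨ FirstA B A := by
  have hm := Finset.min'_mem _ h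
  rcases Finset.mem_union.1 hm with hA | hB
  · exact Or.inl ⟨_, hA, fun x hx => Finset.min'_le _ x hx⟩
  · refine Or.inr ⟨_, hB, fun x hx => Finset.min'_le _ x ?_⟩
    rwa [Finset.union_comm]

theorem FirstA.not_swap {A B : Finset ℕ} (hd : Disjoint A B) (h : FirstA A B) :
    ¬ FirstA B A := by
  rintro ⟨b, hb, hb'⟩
  obtain ⟨a, ha, ha'⟩ := h
  have h1 : a ≤ b := ha' b (Finset.mem_union_right _ hb)
  have h2 : b ≤ a := hb' a (Finset.mem_union_right _ ha)
  have : a = b := le_antisymm h1 h2
  subst this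
  exact (Finset.disjoint_left.1 hd ha) hb

open Classical in
/-- the letter of the leftmost point: `1` if it lies in `A`, else `-1`. -/
noncomputable def sg (A B : Finset ℕ) : ℝ := if FirstA A B then 1 else -1

theorem sg_sq (A B : Finset ℕ) : sg A B * sg A B = 1 := by
  unfold sg; split_ifs <;> norm_num

theorem sg_eq_or (A B : Finset ℕ) : sg A B = 1 ∨ sg A B = -1 := by
  unfold sg; split_ifs <;> simp

theorem sg_swap {A B : Finset ℕ} (hd : Disjoint A B) (h : (A ∪ B).Nonempty) :
    sg B A = - sg A B := by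
  unfold sg
  rcases firstA_or h with h1 | h1
  · rw [if_pos h1, if_neg (h1.not_swap hd)]
  · rw [if_pos h1, if_neg (h1.not_swap hd.symm)]; norm_num

/-- a longest chain starts with the letter of the leftmost point. -/
theorem IsAlt.firstA {A B : Finset ℕ} (hd : Disjoint A B) {l : List ℕ} (h : IsAlt A B l)
    (hne : l ≠ []) (hlen : l.length = altc A B) : FirstA A B := by
  cases l with
  | nil => exact absurd rfl hne
  | cons a l =>
    have haA : a ∈ A := h.head_mem
    have hnon : (A ∪ B).Nonempty := ⟨a, Finset.mem_union_left _ haA⟩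
    rcases firstA_or hnon with h1 | ⟨b, hb, hb'⟩
    · exact h1
    · exfalso
      have h1 : b ≤ a := hb' a (Finset.mem_union_right _ haA)
      have h2 : b ≠ a := by
        rintro rfl
        exact (Finset.disjoint_left.1 hd haA) hb
      have h3 : b < a := lt_of_le_of_ne h1 h2
      have h4 : IsAlt B A (b :: a :: l) := ⟨hb, h3, h⟩
      have h5 : (b :: a :: l).length ≤ altc A B := HasAlt.le_altc ⟨_, rfl, Or.inr h4⟩
      simp only [List.length_cons] at h5 hlen
      omega

/-- fact (d): smaller sets with the same alternation count have the same first letter. -/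
theorem sg_eq_of_altc_eq {A A' B B' : Finset ℕ} (hA : A' ⊆ A) (hB : B' ⊆ B)
    (hd : Disjoint A B) (hne : (A' ∪ B').Nonempty) (hc : altc A' B' = altc A B) :
    sg A' B' = sg A B := by
  have hd' : Disjoint A' B' := Finset.disjoint_of_subset_left hA
    (Finset.disjoint_of_subset_right hB hd)
  obtain ⟨l, hl, h | h⟩ := hasAlt_altc A' B'
  · have hl0 : l ≠ [] := by
      rintro rfl
      have := one_le_altc hne
      simp at hl
      omega
    have h1 : FirstA A' B' := h.firstA hd' hl0 hl
    have h2 : FirstA A B := (h.mono hA hB).firstA hd hl0 (hl.trans hc)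
    unfold sg
    rw [if_pos h1, if_pos h2]
  · have hl0 : l ≠ [] := by
      rintro rfl
      have := one_le_altc hne
      simp at hl
      omega
    have h1 : FirstA B' A' := h.firstA hd'.symm hl0 (hl.trans (altc_swap _ _).symm)
    have h2 : FirstA B A :=
      (h.mono hB hA).firstA hd.symm hl0 ((hl.trans hc).trans (altc_swap _ _).symm)
    unfold sg
    rw [if_neg (h1.not_swap hd'.symm), if_neg (h2.not_swap hd.symm)]

/-- telescoping bound. -/
theorem abs_sub_le_sum_Ico (g : ℕ → ℝ) {x y : ℕ} (h : x ≤ y) :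
    |g x - g y| ≤ ∑ j ∈ Finset.Ico x y, |g (j + 1) - g j| := by
  induction y, h using Nat.le_induction with
  | base => simp
  | succ y hxy ih =>
    rw [Finset.sum_Ico_succ_top hxy]
    calc |g x - g (y + 1)| = |(g x - g y) + -(g (y + 1) - g y)| := by ring_nf
      _ ≤ |g x - g y| + |-(g (y + 1) - g y)| := abs_add_le _ _
      _ = |g x - g y| + |g (y + 1) - g y| := by rw [abs_neg]
      _ ≤ _ := by linarith

theorem IsAlt.var_le (g : ℕ → ℝ) (a : ℝ) (n : ℕ) {A B : Finset ℕ}
    (hAB : ∀ x ∈ A, ∀ y ∈ B, 2 * a ≤ |g x - g y|) (hn : ∀ x ∈ A ∪ B, x ≤ n)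
    {x : ℕ} {l : List ℕ} (h : IsAlt A B (x :: l)) :
    (l.length : ℝ) * (2 * a) ≤ ∑ j ∈ Finset.Ico x n, |g (j + 1) - g j| := by
  induction l generalizing A B x with
  | nil =>
    simp only [List.length_nil, Nat.cast_zero, zero_mul]
    exact Finset.sum_nonneg fun _ _ => abs_nonneg _
  | cons y l ih =>
    have hx : x ∈ A := h.head_mem
    have hxy : x < y := h.2.1
    have ht : IsAlt B A (y :: l) := h.2.2
    have hy : y ∈ B := ht.head_mem
    have hyn : y ≤ n := hn y (Finset.mem_union_right _ hy)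
    have ih' := ih (A := B) (B := A) (x := y)
      (fun u hu v hv => by rw [abs_sub_comm]; exact hAB v hv u hu)
      (fun u hu => hn u (by rwa [Finset.union_comm])) ht
    have h1 := abs_sub_le_sum_Ico g hxy.le
    have h2 := hAB x hx y hy
    rw [← Finset.sum_Ico_consecutive _ hxy.le hyn]
    simp only [List.length_cons, Nat.cast_add, Nat.cast_one]
    nlinarith

/-- fact (e): every alternation costs `2 a` of variation. -/
theorem altc_var (g : ℕ → ℝ) (a : ℝ) (ha : 0 ≤ a) (n : ℕ) {A B : Finset ℕ}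
    (hA : ∀ x ∈ A, x ≤ n ∧ a ≤ g x) (hB : ∀ x ∈ B, x ≤ n ∧ g x ≤ -a) :
    ((altc A B : ℝ) - 1) * (2 * a) ≤ ∑ j ∈ Finset.range n, |g (j + 1) - g j| := by
  have hnn : 0 ≤ ∑ j ∈ Finset.range n, |g (j + 1) - g j| :=
    Finset.sum_nonneg fun _ _ => abs_nonneg _
  have hAB : ∀ x ∈ A, ∀ y ∈ B, 2 * a ≤ |g x - g y| := by
    intro x hx y hy
    have h1 := (hA x hx).2
    have h2 := (hB y hy).2
    exact le_trans (by linarith) (le_abs_self _)
  have hn : ∀ x ∈ A ∪ B, x ≤ n := by
    intro x hx
    rcases Finset.mem_union.1 hx with hx | hx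
    · exact (hA x hx).1
    · exact (hB x hx).1
  have key : ∀ (x : ℕ) (l : List ℕ), (IsAlt A B (x :: l) ∨ IsAlt B A (x :: l)) →
      (l.length : ℝ) * (2 * a) ≤ ∑ j ∈ Finset.range n, |g (j + 1) - g j| := by
    intro x l h
    have hsub : ∑ j ∈ Finset.Ico x n, |g (j + 1) - g j|
        ≤ ∑ j ∈ Finset.range n, |g (j + 1) - g j| := by
      apply Finset.sum_le_sum_of_subset_of_nonneg
      · intro j hj
        exact Finset.mem_range.2 (Finset.mem_Ico.1 hj).2
      · intro _ _ _; exact abs_nonneg _
    rcases h with h | h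
    · exact le_trans (h.var_le g a n hAB hn) hsub
    · exact le_trans (h.var_le g a n
        (fun u hu v hv => by rw [abs_sub_comm]; exact hAB v hv u hu)
        (fun u hu => hn u (by rwa [Finset.union_comm]))) hsub
  obtain ⟨l, hl, h⟩ := hasAlt_altc A B
  cases l with
  | nil =>
    simp only [List.length_nil] at hl
    rw [← hl]
    simp only [Nat.cast_zero]
    nlinarith
  | cons x l =>
    have := key x l h
    simp only [List.length_cons] at hl
    rw [← hl]
    push_cast
    linarith

end Vale.Agent.P125.BV
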