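import Vale.Agent.P125.Alpha.Deficit
import Vale.Agent.P125.Char.Conv_A
import Vale.Agent.P125.Dich.ApiB

set_option linter.unusedSectionVars false
set_option linter.unusedVariables false

/-!
# P125, (BV): the assembly, abstract form

From the pointwise deficit inequality, stationarity and the bound on the potential one gets the
inequality (BV) for a marked reversible chain.  All window functionals are abstract here.
-/

namespace Vale.Agent.P125.BV

open scoped BigOperators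
open Vale.Agent.P125.Dich Vale.Agent.P125.Alpha Vale.Agent.P125.Char

variable {S M : Type} [Fintype S] [Fintype M] (C : MChain S M)

/-- comparison of two functionals of a single mark -/
lemma E_one_mono (Φ Ψ : List M → ℝ) (h : ∀ m, Φ [m] ≤ Ψ [m]) : C.E 1 Φ ≤ C.E 1 Ψ := by
  apply E_mono
  intro l hl
  obtain ⟨m, rfl⟩ := List.length_eq_one_iff.mp hl
  exact h m

open Classical in
theorem assembly_abs (N V : M → ℝ) (T mn mx mu : List M → ℝ) (cc : List M → ℕ) (L : ℕ)
    (hT : ∀ l, |T l| ≤ (l.map N).sum)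
    (hmn : ∀ l, l ≠ [] → mn l ∈ l.map N) (hmx : ∀ l, l ≠ [] → mx l ∈ l.map N)
    (hlo : ∀ l, ∀ x ∈ l.map N, mn l ≤ x) (hhi : ∀ l, ∀ x ∈ l.map N, x ≤ mx l)
    (hN : ∀ m, 0 ≤ N m)
    (hmu : ∀ l, l ≠ [] → 0 < mn l → mx l ≤ 2 * mn l → (l.map N).sum - |T l| ≤ mn l / 4 →
      mu l = mn l)
    (hpot : ((L : ℝ) + 1) * C.E (2 ^ L) (fun l => mu l ^ 2) ≤
      4 * C.E 1 (fun l => mu l ^ 2 * cc l) + C.E 1 (fun l => mu l ^ 2))
    (h1 : ∀ m, mu [m] ^ 2 * cc [m] ≤ N m ^ 2 + N m * V m) (h1' : ∀ m, mu [m] ^ 2 ≤ N m ^ 2) :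
    C.E (2 ^ L) (fun l => T l ^ 2) ≤
      ((2 : ℝ) ^ L) ^ 2 * C.E 1 (fun l => (l.map (fun m => N m ^ 2)).sum) -
        ((2 : ℝ) ^ L / 16) * (C.E 1 (fun l => (l.map (fun m => N m ^ 2)).sum) -
          4 * (5 * C.E 1 (fun l => (l.map (fun m => N m ^ 2)).sum) +
            4 * C.E 1 (fun l => (l.map (fun m => N m * V m)).sum)) / ((L : ℝ) + 1)) := by
  set EN := C.E 1 (fun l => (l.map (fun m => N m ^ 2)).sum) with hEN
  set ENV := C.E 1 (fun l => (l.map (fun m => N m * V m)).sum) with hENV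
  set Q := C.E (2 ^ L) (fun l => mu l ^ 2) with hQ
  have hLpos : (0 : ℝ) < (L : ℝ) + 1 := by positivity
  have hMpos : (0 : ℝ) < (2 : ℝ) ^ L := by positivity
  -- the one step quantities
  have hP1 : C.E 1 (fun l => mu l ^ 2 * cc l) ≤ EN + ENV := by
    rw [hEN, hENV, ← E_add]
    apply E_one_mono
    intro m
    simpa using h1 m
  have hQ1 : C.E 1 (fun l => mu l ^ 2) ≤ EN := by
    rw [hEN]
    apply E_one_mono
    intro m
    simpa using h1' m
  have hQb : Q ≤ (5 * EN + 4 * ENV) / ((L : ℝ) + 1) := by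
    rw [le_div_iff₀ hLpos]
    linarith
  -- the pointwise inequality
  have hpt : ∀ l : List M, l.length = 2 ^ L → T l ^ 2 ≤
      ((2 : ℝ) ^ L - 1 / 16) * (l.map (fun m => N m ^ 2)).sum + ((2 : ℝ) ^ L / 4) * mu l ^ 2 := by
    intro l hl
    have hne : l ≠ [] := by
      intro h
      rw [h] at hl
      simp at hl
      exact absurd hl.symm (by positivity)
    have h0 : 0 ≤ mn l := by
      obtain ⟨m, _, hm⟩ := List.mem_map.mp (hmn l hne)
      rw [← hm]
      exact hN m
    have key := deficit_combined (l.map N) (mn l) (mx l) (T l)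
      (if (0 < mn l ∧ mx l ≤ 2 * mn l ∧ (l.map N).sum - |T l| ≤ mn l / 4) then 1 else 0)
      (hmn l hne) (hmx l hne) (hlo l) (hhi l) h0 (hT l) (by split_ifs <;> norm_num)
      (by
        intro a b c
        rw [if_pos ⟨a, b, c⟩])
    have hlen : ((l.map N).length : ℝ) = (2 : ℝ) ^ L := by
      rw [List.length_map, hl]
      push_cast
      ring
    have hsq : sq2 (l.map N) = (l.map (fun m => N m ^ 2)).sum := by
      unfold sq2
      rw [List.map_map]
      rfl
    rw [hlen, hsq] at key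
    have hle : mn l ^ 2 * (if (0 < mn l ∧ mx l ≤ 2 * mn l ∧ (l.map N).sum - |T l| ≤ mn l / 4)
        then (1 : ℝ) else 0) ≤ mu l ^ 2 := by
      split_ifs with hc
      · rw [hmu l hne hc.1 hc.2.1 hc.2.2]
        linarith
      · have := sq_nonneg (mu l)
        linarith
    have hle2 := mul_le_mul_of_nonneg_left hle hMpos.le
    nlinarith
  have hE := E_mono C (2 ^ L) _ _ hpt
  rw [E_add, E_const_mul, E_const_mul, E_sum_marks] at hE
  rw [← hEN, ← hQ] at hE
  push_cast at hE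
  have h5 : ((2 : ℝ) ^ L / 4) * Q ≤ ((2 : ℝ) ^ L / 4) * ((5 * EN + 4 * ENV) / ((L : ℝ) + 1)) :=
    mul_le_mul_of_nonneg_left hQb (by positivity)
  have h6 : 4 * (5 * EN + 4 * ENV) / ((L : ℝ) + 1) = 4 * ((5 * EN + 4 * ENV) / ((L : ℝ) + 1)) := by
    ring
  rw [h6]
  nlinarith

end Vale.Agent.P125.BV
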