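import Vale.Agent.P125.Alpha.Final53
import Vale.Agent.P125.Alpha.Window
import Vale.Agent.P125.Alpha.AltVar
import Vale.Agent.P125.Alpha.Scalar
import Vale.Agent.P125.BV.Iid
import Vale.Agent.P125.BV.AsmAbs

set_option linter.unusedSectionVars false
set_option linter.unusedVariables false

/-!
# P125, (BV): the assembly

The potential recursion for the concrete windows, the facts on the summing norm, and the
inequality (BV) for marked reversible chains.
-/

namespace Vale.Agent.P125.BV

open scoped BigOperators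
open Vale.Agent.P125.Dich Vale.Agent.P125.Alpha Vale.Agent.P125.Char

section pot

variable {S M : Type} [Fintype S] [Fintype M] (C : MChain S M)
variable {κ : Type} [Fintype κ] [LinearOrder κ] (g : M → κ → ℝ) (N : M → ℝ)

lemma take_ne_nil11 (m : ℕ) (hm : 1 ≤ m) (l : List M) (hl : l.length = m + m) :
    l.take m ≠ [] := by
  intro h
  have h2 : (l.take m).length = 0 := by rw [h]; rfl
  rw [List.length_take, hl] at h2
  omega

lemma drop_ne_nil11 (m : ℕ) (hm : 1 ≤ m) (l : List M) (hl : l.length = m + m) :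
    l.drop m ≠ [] := by
  intro h
  have h2 : (l.drop m).length = 0 := by rw [h]; rfl
  rw [List.length_drop, hl] at h2
  omega

lemma Q_anti11 (hg : ∀ e k, |g e k| ≤ N e) (m : ℕ) (hm : 1 ≤ m) :
    C.E (m + m) (fun l => wt g N l ^ 2) ≤ C.E m (fun l => wt g N l ^ 2) := by
  rw [← E_take C m m (fun l => wt g N l ^ 2)]
  apply E_mono
  intro l hl
  have h := wt_append_le_left hg (l.take m) (l.drop m) (take_ne_nil11 m hm l hl)
  rw [List.take_append_drop] at h
  have h0 := wt_nonneg (g := g) (N := N) l
  nlinarith [wt_nonneg (g := g) (N := N) (l.take m)]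

lemma rec_step11 (hg : ∀ e k, |g e k| ≤ N e) (hNi : ∀ e, N (C.inv e) = N e)
    (hgi : ∀ e k, g (C.inv e) k = - g e k) (m : ℕ) (hm : 1 ≤ m) :
    C.E (m + m) (fun l => wt g N l ^ 2 * (cW g N l : ℝ)) ≤
      C.E m (fun l => wt g N l ^ 2 * (cW g N l : ℝ)) - C.E (m + m) (fun l => wt g N l ^ 2) / 2
        + C.E m (fun l => wt g N l ^ 2) / 4 := by
  have hpt : ∀ l : List M, l.length = m + m →
      wt g N l ^ 2 * (cW g N l : ℝ) + (1 / 2) * wt g N l ^ 2 ≤
      ((1 / 2) * (wt g N (l.take m) ^ 2 * (cW g N (l.take m) : ℝ)) +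
        (1 / 2) * (wt g N (l.drop m) ^ 2 * (cW g N (l.drop m) : ℝ))) +
      ((1 / 4) * (wt g N (l.take m) * wt g N (l.drop m)) +
        (1 / 4) * ((wt g N (l.take m) * sgW g N (l.take m)) *
          (wt g N (l.drop m) * sgW g N (l.drop m)))) := by
    intro l hl
    have h := window_ineq hg (l.take m) (l.drop m) (take_ne_nil11 m hm l hl)
      (drop_ne_nil11 m hm l hl)
    rw [List.take_append_drop] at h
    linarith
  have hE := E_mono C (m + m) _ _ hpt
  rw [E_add, E_add, E_add, E_add, E_const_mul, E_const_mul, E_const_mul, E_const_mul,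
    E_const_mul, E_take C m m (fun l => wt g N l ^ 2 * (cW g N l : ℝ)),
    E_drop C m m (fun l => wt g N l ^ 2 * (cW g N l : ℝ))] at hE
  have ha := E_anti_le C m (fun l => wt g N l * sgW g N l)
    (fun l => wt_mul_sgW_rev C.inv hg hNi hgi l)
  have hp := E_prod_le C m (fun l => wt g N l)
  linarith

lemma potential11 (hg : ∀ e k, |g e k| ≤ N e) (hNi : ∀ e, N (C.inv e) = N e)
    (hgi : ∀ e k, g (C.inv e) k = - g e k) (L : ℕ) :
    ((L : ℝ) + 1) * C.E (2 ^ L) (fun l => wt g N l ^ 2) ≤
      4 * C.E 1 (fun l => wt g N l ^ 2 * (cW g N l : ℝ)) + C.E 1 (fun l => wt g N l ^ 2) := by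
  have h := telescope (fun j => C.E (2 ^ j) (fun l => wt g N l ^ 2 * (cW g N l : ℝ)))
    (fun j => C.E (2 ^ j) (fun l => wt g N l ^ 2)) L
    (by
      intro j
      apply E_nonneg
      intro l _
      positivity)
    (by
      intro j _
      have e : 2 ^ (j + 1) = 2 ^ j + 2 ^ j := by ring
      show C.E (2 ^ (j + 1)) _ ≤ C.E (2 ^ j) _
      rw [e]
      exact Q_anti11 C g N hg (2 ^ j) Nat.one_le_two_pow)
    (by
      intro j _
      have e : 2 ^ (j + 1) = 2 ^ j + 2 ^ j := by ring
      show C.E (2 ^ (j + 1)) _ ≤ C.E (2 ^ j) _ - C.E (2 ^ (j + 1)) _ / 2 + C.E (2 ^ j) _ / 4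
      rw [e]
      exact rec_step11 C g N hg hNi hgi (2 ^ j) Nat.one_le_two_pow)
  simpa using h

end pot

section conc

variable {n : ℕ} {M : Type}

lemma pre_neg11 (v : Fin n → ℝ) (k : ℕ) : pre (-v) k = - pre v k := by
  unfold pre
  rw [← Finset.sum_neg_distrib]
  apply Finset.sum_congr rfl
  intro i _
  split_ifs <;> simp

lemma pre_add11 (u v : Fin n → ℝ) (k : ℕ) : pre (u + v) k = pre u k + pre v k := by
  unfold pre
  rw [← Finset.sum_add_distrib]
  apply Finset.sum_congr rfl
  intro i _
  split_ifs <;> simp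

lemma pre_sm11 (w : M → Fin n → ℝ) (l : List M) (k : ℕ) :
    pre (sm w l) k = (l.map (fun m => pre (w m) k)).sum := by
  induction l with
  | nil => simp [sm, pre]
  | cons a l ih =>
    have e : sm w (a :: l) = w a + sm w l := by simp [sm]
    rw [e, pre_add11, ih]
    simp

lemma abs_pre_le_nJ11 (v : Fin n → ℝ) (k : ℕ) (hk : k ≤ n) : |pre v k| ≤ nJ v :=
  Finset.le_sup' (fun k => |pre v k|) (Finset.mem_range.mpr (Nat.lt_succ_of_le hk))

lemma nJ_neg11 (v : Fin n → ℝ) : nJ (-v) = nJ v := by
  unfold nJ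
  simp only [pre_neg11, abs_neg]

lemma exists_nJ11 (v : Fin n → ℝ) : ∃ k, k ≤ n ∧ nJ v = |pre v k| := by
  obtain ⟨k, hk, h⟩ := Finset.exists_mem_eq_sup' (⟨0, by simp⟩ : (Finset.range (n + 1)).Nonempty)
    (fun k => |pre v k|)
  exact ⟨k, Nat.lt_succ_iff.mp (Finset.mem_range.mp hk), h⟩

lemma pre_succ_sub11 (v : Fin n → ℝ) (i : Fin n) : pre v (i.val + 1) - pre v i.val = v i := by
  unfold pre
  rw [← Finset.sum_sub_distrib]
  rw [Finset.sum_eq_single i]
  · simp
  · intro j _ hj
    have hne : j.val ≠ i.val := fun h => hj (Fin.ext h)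
    by_cases h1 : j.val < i.val
    · have h2 : j.val < i.val + 1 := by omega
      simp [h1, h2]
    · have h2 : ¬ j.val < i.val + 1 := by omega
      simp [h1, h2]
  · simp

lemma var_pre11 (v : Fin n → ℝ) :
    ∑ i ∈ Finset.range n, |pre v (i + 1) - pre v i| = n1 v := by
  unfold n1
  rw [← Fin.sum_univ_eq_sum_range (fun i => |pre v (i + 1) - pre v i|) n]
  apply Finset.sum_congr rfl
  intro i _
  rw [pre_succ_sub11]

lemma nJ_sm_le11 (w : M → Fin n → ℝ) (l : List M) :
    nJ (sm w l) ≤ (l.map (fun m => nJ (w m))).sum := by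
  apply Finset.sup'_le
  intro k hk
  rw [pre_sm11]
  have hk' : k ≤ n := Nat.lt_succ_iff.mp (Finset.mem_range.mp hk)
  induction l with
  | nil => simp
  | cons a l ih =>
    simp only [List.map_cons, List.sum_cons]
    exact (abs_add_le _ _).trans (add_le_add (abs_pre_le_nJ11 _ _ hk') ih)

lemma dA_eq11 {κ : Type} [Fintype κ] [LinearOrder κ] (g : M → κ → ℝ) (N : M → ℝ) (l : List M)
    (k : κ) : dA g N l k = (l.map N).sum - (l.map (fun e => g e k)).sum := by
  unfold dA
  induction l with
  | nil => simp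
  | cons a l ih =>
    simp only [List.map_cons, List.sum_cons, ih]
    ring

lemma dB_eq11 {κ : Type} [Fintype κ] [LinearOrder κ] (g : M → κ → ℝ) (N : M → ℝ) (l : List M)
    (k : κ) : dB g N l k = (l.map N).sum + (l.map (fun e => g e k)).sum := by
  unfold dB
  induction l with
  | nil => simp
  | cons a l ih =>
    simp only [List.map_cons, List.sum_cons, ih]
    ring

end conc

/-- (BV) for marked reversible chains -/
theorem bvm : BVm := by
  intro n S M _ _ C w hw L
  set g : M → Fin (n + 1) → ℝ := fun m k => pre (w m) k.val with hg_def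
  set N : M → ℝ := fun m => nJ (w m) with hN_def
  have hg : ∀ e k, |g e k| ≤ N e := fun e k =>
    abs_pre_le_nJ11 (w e) k.val (Nat.lt_succ_iff.mp k.isLt)
  have hNi : ∀ e, N (C.inv e) = N e := by
    intro e
    simp only [hN_def, hw, nJ_neg11]
  have hgi : ∀ e k, g (C.inv e) k = - g e k := by
    intro e k
    simp only [hg_def, hw, pre_neg11]
  have hN0 : ∀ m, 0 ≤ N m := fun m => nJ_nonneg _
  have hpot := potential11 C g N hg hNi hgi L
  have hT : ∀ l : List M, |nJ (sm w l)| ≤ (l.map N).sum := by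
    intro l
    rw [abs_of_nonneg (nJ_nonneg _)]
    exact nJ_sm_le11 w l
  have hmapne : ∀ l : List M, l ≠ [] → l.map N ≠ [] := by
    intro l hl h
    exact hl (List.map_eq_nil_iff.mp h)
  have hmu : ∀ l : List M, l ≠ [] → 0 < mnW N l → mxW N l ≤ 2 * mnW N l →
      (l.map N).sum - |nJ (sm w l)| ≤ mnW N l / 4 → wt g N l = mnW N l := by
    intro l hl h0 h2 h3
    have hne : (Aset g N l ∪ Bset g N l).Nonempty := by
      obtain ⟨k, hk, hkeq⟩ := exists_nJ11 (sm w l)
      rw [abs_of_nonneg (nJ_nonneg _), hkeq] at h3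
      have hsum : (l.map (fun e => g e ⟨k, Nat.lt_succ_of_le hk⟩)).sum = pre (sm w l) k := by
        rw [pre_sm11]
      refine ⟨⟨k, Nat.lt_succ_of_le hk⟩, ?_⟩
      rcases le_total 0 (pre (sm w l) k) with hs | hs
      · rw [abs_of_nonneg hs] at h3
        apply Finset.mem_union_left
        unfold Aset
        rw [Finset.mem_filter]
        refine ⟨Finset.mem_univ _, ?_⟩
        rw [dA_eq11, hsum]
        exact h3
      · rw [abs_of_nonpos hs] at h3
        apply Finset.mem_union_right
        unfold Bset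
        rw [Finset.mem_filter]
        refine ⟨Finset.mem_univ _, ?_⟩
        rw [dB_eq11, hsum]
        linarith
    unfold wt
    rw [if_pos ⟨h0, h2, hne⟩]
  have hmn1 : ∀ m, mnW N [m] = N m := fun m => rfl
  have hwt1 : ∀ m, wt g N [m] = N m ∨ wt g N [m] = 0 := by
    intro m
    unfold wt
    split_ifs
    · left
      exact hmn1 m
    · right
      rfl
  have h1' : ∀ m, wt g N [m] ^ 2 ≤ N m ^ 2 := by
    intro m
    rcases hwt1 m with h | h
    · rw [h]
    · rw [h]
      nlinarith [sq_nonneg (N m)]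
  have h1 : ∀ m, wt g N [m] ^ 2 * (cW g N [m] : ℝ) ≤ N m ^ 2 + N m * n1 (w m) := by
    intro m
    have hV : 0 ≤ n1 (w m) := n1_nonneg _
    have hNm := hN0 m
    by_cases hok : okW g N [m]
    · have hwt : wt g N [m] = N m := by
        unfold wt
        rw [if_pos hok]
        exact hmn1 m
      rw [hwt]
      have hvar := altLen_var (Aset g N [m]) (Bset g N [m]) (fun x : Fin (n + 1) => x.val)
        (fun a b h => h) n (fun x _ => Nat.lt_succ_iff.mp x.isLt) (pre (w m)) (3 / 4 * N m)
        (by
          intro x hx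
          unfold Aset at hx
          rw [Finset.mem_filter] at hx
          have h2 := hx.2
          rw [dA_eq11, hmn1] at h2
          simp only [List.map_cons, List.map_nil, List.sum_cons, List.sum_nil, add_zero] at h2
          have : g m x = pre (w m) x.val := rfl
          linarith)
        (by
          intro x hx
          unfold Bset at hx
          rw [Finset.mem_filter] at hx
          have h2 := hx.2
          rw [dB_eq11, hmn1] at h2
          simp only [List.map_cons, List.map_nil, List.sum_cons, List.sum_nil, add_zero] at h2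
          have : g m x = pre (w m) x.val := rfl
          linarith)
        hok.2.2
      rw [var_pre11] at hvar
      have hc : cW g N [m] = altLen (Aset g N [m]) (Bset g N [m]) := rfl
      rw [hc]
      have h5 := mul_le_mul_of_nonneg_left hvar hNm
      have h6 : 0 ≤ N m * n1 (w m) := mul_nonneg hNm hV
      nlinarith
    · have hwt : wt g N [m] = 0 := by
        unfold wt
        rw [if_neg hok]
      rw [hwt]
      have h6 : 0 ≤ N m * n1 (w m) := mul_nonneg hNm hV
      have h7 := sq_nonneg (N m)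
      simp only [ne_eq, OfNat.ofNat_ne_zero, not_false_eq_true, zero_pow, zero_mul]
      linarith
  have key := assembly_abs C N (fun m => n1 (w m)) (fun l => nJ (sm w l)) (mnW N) (mxW N)
    (wt g N) (cW g N) L hT (fun l hl => mnL_mem _ (hmapne l hl))
    (fun l hl => mxL_mem _ (hmapne l hl)) (fun l x hx => mnL_le _ x hx)
    (fun l x hx => le_mxL _ x hx) hN0 hmu hpot h1 h1'
  have e1 : C.E 1 (fun l => (l.map (fun m => N m ^ 2)).sum) = C.E 1 (fun l => nJ (sm w l) ^ 2) := by
    apply E_congr
    intro l hl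
    obtain ⟨m, rfl⟩ := List.length_eq_one_iff.mp hl
    simp [sm, hN_def]
  have e2 : C.E 1 (fun l => (l.map (fun m => N m * n1 (w m))).sum) =
      C.E 1 (fun l => nJ (sm w l) * n1 (sm w l)) := by
    apply E_congr
    intro l hl
    obtain ⟨m, rfl⟩ := List.length_eq_one_iff.mp hl
    simp [sm, hN_def]
  rw [e1, e2] at key
  exact key

end Vale.Agent.P125.BV
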