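import Vale.Agent.P125.BV.Abs27
import Vale.Agent.P125.Alpha.Window
import Vale.Agent.P125.Alpha.AltVar
import Vale.Agent.P125.Alpha.Final53

set_option linter.unusedSectionVars false
set_option linter.unusedVariables false

/-!
# P125, theorem (BV), concrete form

`bv_abstract` (file `Abs27`) is applied to the windows of helper93 (`Alpha/Window`), for the
summing norm `nJ` and the `l_1` norm `n1` of helper53 (`Alpha/Final53`).
-/

namespace Vale.Agent.P125.BV27

open scoped BigOperators
open Vale.Agent.P125.Dich Vale.Agent.P125.Alpha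

variable {n : ℕ}

lemma pre_zero' (k : ℕ) : pre (0 : Fin n → ℝ) k = 0 := by
  unfold pre
  simp

lemma pre_add' (u v : Fin n → ℝ) (k : ℕ) : pre (u + v) k = pre u k + pre v k := by
  unfold pre
  rw [← Finset.sum_add_distrib]
  refine Finset.sum_congr rfl fun i _ => ?_
  split_ifs <;> simp

lemma pre_neg' (v : Fin n → ℝ) (k : ℕ) : pre (-v) k = - pre v k := by
  unfold pre
  rw [← Finset.sum_neg_distrib]
  refine Finset.sum_congr rfl fun i _ => ?_
  split_ifs <;> simp

lemma nJ_neg' (v : Fin n → ℝ) : nJ (-v) = nJ v := by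
  unfold nJ
  congr 1
  funext k
  rw [pre_neg', abs_neg]

lemma abs_pre_le_nJ (v : Fin n → ℝ) (k : ℕ) (hk : k ≤ n) : |pre v k| ≤ nJ v :=
  Finset.le_sup' (fun k => |pre v k|) (Finset.mem_range.2 (Nat.lt_succ_of_le hk))

lemma exists_pre_eq_nJ (v : Fin n → ℝ) : ∃ k, k ≤ n ∧ |pre v k| = nJ v := by
  obtain ⟨k, hk, h⟩ := Finset.exists_mem_eq_sup' (s := Finset.range (n + 1)) ⟨0, by simp⟩
    (fun k => |pre v k|)
  exact ⟨k, Nat.lt_succ_iff.1 (Finset.mem_range.1 hk), h.symm⟩

lemma pre_succ_sub (v : Fin n → ℝ) (i : Fin n) : pre v (i.val + 1) - pre v i.val = v i := by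
  unfold pre
  rw [← Finset.sum_sub_distrib]
  rw [Finset.sum_eq_single i]
  · simp
  · intro j _ hj
    have hj' : j.val ≠ i.val := fun h => hj (Fin.ext h)
    by_cases h1 : j.val < i.val
    · have h2 : j.val < i.val + 1 := by omega
      simp [h1, h2]
    · have h2 : ¬ j.val < i.val + 1 := by omega
      simp [h1, h2]
  · intro h
    exact absurd (Finset.mem_univ i) h

lemma var_pre (v : Fin n → ℝ) :
    ∑ i ∈ Finset.range n, |pre v (i + 1) - pre v i| = n1 v := by
  rw [Finset.sum_range (fun i => |pre v (i + 1) - pre v i|)]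
  unfold n1
  refine Finset.sum_congr rfl fun i _ => ?_
  rw [pre_succ_sub]

variable {S M : Type} [Fintype S] [Fintype M]

lemma pre_sm (w : M → Fin n → ℝ) (l : List M) (k : ℕ) :
    pre (sm w l) k = (l.map (fun m => pre (w m) k)).sum := by
  induction l with
  | nil =>
    rw [sm_nil, pre_zero']
    rfl
  | cons m l ih =>
    rw [sm_cons, pre_add', ih]
    rfl

lemma sm_single (w : M → Fin n → ℝ) (m : M) : sm w [m] = w m := by
  rw [sm_cons, sm_nil, add_zero]

/-- the profile of a mark -/
noncomputable def gp (w : M → Fin n → ℝ) (m : M) (k : Fin (n + 1)) : ℝ := pre (w m) k.val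

/-- the size of a mark -/
noncomputable def Np (w : M → Fin n → ℝ) (m : M) : ℝ := nJ (w m)

lemma gp_le (w : M → Fin n → ℝ) (m : M) (k : Fin (n + 1)) : |gp w m k| ≤ Np w m :=
  abs_pre_le_nJ (w m) k.val (Nat.lt_succ_iff.1 k.isLt)

lemma Np_nonneg (w : M → Fin n → ℝ) (m : M) : 0 ≤ Np w m := nJ_nonneg _

lemma sum_sub_list (l : List M) (a b : M → ℝ) :
    (l.map (fun e => a e - b e)).sum = (l.map a).sum - (l.map b).sum := by
  induction l with
  | nil => simp
  | cons m l ih =>
    simp only [List.map_cons, List.sum_cons, ih]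
    ring

lemma sum_add_list (l : List M) (a b : M → ℝ) :
    (l.map (fun e => a e + b e)).sum = (l.map a).sum + (l.map b).sum := by
  induction l with
  | nil => simp
  | cons m l ih =>
    simp only [List.map_cons, List.sum_cons, ih]
    ring

lemma abs_sum_list_le (l : List M) (a b : M → ℝ) (h : ∀ e, |a e| ≤ b e) :
    |(l.map a).sum| ≤ (l.map b).sum := by
  induction l with
  | nil => simp
  | cons m l ih =>
    simp only [List.map_cons, List.sum_cons]
    exact (abs_add_le _ _).trans (add_le_add (h m) ih)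

lemma nJ_sm_le (w : M → Fin n → ℝ) (l : List M) : nJ (sm w l) ≤ (l.map (Np w)).sum := by
  obtain ⟨k, hk, h⟩ := exists_pre_eq_nJ (sm w l)
  rw [← h, pre_sm]
  exact abs_sum_list_le l _ _ (fun e => abs_pre_le_nJ (w e) k hk)

/-- the window functionals satisfy the hypotheses of the potential argument -/
lemma pot_conc (C : MChain S M) (w : M → Fin n → ℝ) (hw : ∀ m, w (C.inv m) = - w m) :
    Pot C (wt (gp w) (Np w)) (sgW (gp w) (Np w)) (cW (gp w) (Np w)) := by
  have hg : ∀ e k, |gp w e k| ≤ Np w e := gp_le w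
  have hN : ∀ e, 0 ≤ Np w e := Np_nonneg w
  have hNi : ∀ e, Np w (C.inv e) = Np w e := by
    intro e
    unfold Np
    rw [hw, nJ_neg']
  have hgi : ∀ e k, gp w (C.inv e) k = - gp w e k := by
    intro e k
    unfold gp
    rw [hw, pre_neg']
  have hok : ∀ l, wt (gp w) (Np w) l ≠ 0 → okW (gp w) (Np w) l := by
    intro l h
    by_contra hn
    apply h
    unfold wt
    rw [if_neg hn]
  refine ⟨fun l => wt_nonneg l, fun l => wt_rev C.inv hNi hgi l, fun l => sgW_eq_or l, ?_,
    fun l1 l2 h1 _ => wt_append_le_left hg l1 l2 h1,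
    fun l1 l2 _ h2 => wt_append_le_right hg l1 l2 h2,
    fun l1 l2 h1 _ _ => altLen_mono (Aset_append_left hg l1 l2 h1) (Bset_append_left hg l1 l2 h1),
    fun l1 l2 _ h2 _ => altLen_mono (Aset_append_right hg l1 l2 h2)
      (Bset_append_right hg l1 l2 h2), ?_, ?_⟩
  · intro l hl
    have h1 := wt_mul_sgW_rev C.inv hg hNi hgi l
    rw [wt_rev C.inv hNi hgi] at h1
    have h2 : wt (gp w) (Np w) l * (sgW (gp w) (Np w) ((l.map C.inv).reverse)
        + sgW (gp w) (Np w) l) = 0 := by linarith
    rcases mul_eq_zero.1 h2 with h3 | h3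
    · exact absurd h3 hl
    · linarith
  · intro l1 l2 h1 h2 hne hc
    have ok := hok _ hne
    have ok1 := okW_left hg l1 l2 h1 ok
    unfold sgW
    rw [altSig_eq_of_altLen_eq (Aset_append_left hg l1 l2 h1) (Bset_append_left hg l1 l2 h1)
      (disjoint_AB hN l1 h1 ok1.1) ok.2.2 hc]
  · intro l1 l2 h1 h2 hne hc
    have ok := hok _ hne
    have ok2 := okW_right hg l1 l2 h2 ok
    unfold sgW
    rw [altSig_eq_of_altLen_eq (Aset_append_right hg l1 l2 h2) (Bset_append_right hg l1 l2 h2)
      (disjoint_AB hN l2 h2 ok2.1) ok.2.2 hc]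

/-- an almost straight window is `ok` -/
lemma link_conc (w : M → Fin n → ℝ) (l : List M) (h0 : 0 < mnW (Np w) l)
    (h1 : mxW (Np w) l ≤ 2 * mnW (Np w) l)
    (h2 : (l.map (Np w)).sum - nJ (sm w l) ≤ mnW (Np w) l / 4) :
    wt (gp w) (Np w) l = mnW (Np w) l := by
  have ok : okW (gp w) (Np w) l := by
    refine ⟨h0, h1, ?_⟩
    obtain ⟨k, hk, h⟩ := exists_pre_eq_nJ (sm w l)
    refine ⟨⟨k, Nat.lt_succ_of_le hk⟩, ?_⟩
    rw [pre_sm] at h
    rcases abs_choice ((l.map (fun m => pre (w m) k)).sum) with h3 | h3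
    · apply Finset.mem_union_left
      refine Finset.mem_filter.2 ⟨Finset.mem_univ _, ?_⟩
      unfold dA
      rw [sum_sub_list]
      have : (l.map (fun e => gp w e ⟨k, Nat.lt_succ_of_le hk⟩)).sum
          = (l.map (fun m => pre (w m) k)).sum := rfl
      rw [this]
      linarith
    · apply Finset.mem_union_right
      refine Finset.mem_filter.2 ⟨Finset.mem_univ _, ?_⟩
      unfold dB
      rw [sum_add_list]
      have : (l.map (fun e => gp w e ⟨k, Nat.lt_succ_of_le hk⟩)).sum
          = (l.map (fun m => pre (w m) k)).sum := rfl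
      rw [this]
      linarith
  unfold wt
  rw [if_pos ok]

lemma mnW_single (w : M → Fin n → ℝ) (m : M) : mnW (Np w) [m] = Np w m := rfl

lemma wt_single_le (w : M → Fin n → ℝ) (m : M) : wt (gp w) (Np w) [m] ≤ Np w m := by
  unfold wt
  split_ifs
  · exact le_of_eq (mnW_single w m)
  · exact Np_nonneg w m

/-- single marks: the alternation count is controlled by the variation -/
lemma one_conc (w : M → Fin n → ℝ) (m : M) :
    wt (gp w) (Np w) [m] ^ 2 * (cW (gp w) (Np w) [m] : ℝ) ≤
      Np w m ^ 2 + Np w m * n1 (w m) := by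
  have hN := Np_nonneg w m
  have hV := n1_nonneg (w m)
  by_cases ok : okW (gp w) (Np w) [m]
  · have hwt : wt (gp w) (Np w) [m] = Np w m := by
      unfold wt
      rw [if_pos ok]
      rfl
    rw [hwt]
    have hvar := altLen_var (Aset (gp w) (Np w) [m]) (Bset (gp w) (Np w) [m])
      (fun k : Fin (n + 1) => k.val) (fun a b h => h) n
      (fun x _ => Nat.lt_succ_iff.1 x.isLt) (fun i => pre (w m) i) (3 / 4 * Np w m)
      (by
        intro x hx
        have h := (Finset.mem_filter.1 hx).2
        unfold dA at h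
        rw [mnW_single] at h
        simp only [List.map_cons, List.map_nil, List.sum_cons, List.sum_nil, add_zero] at h
        have : gp w m x = pre (w m) x.val := rfl
        rw [this] at h
        linarith)
      (by
        intro x hx
        have h := (Finset.mem_filter.1 hx).2
        unfold dB at h
        rw [mnW_single] at h
        simp only [List.map_cons, List.map_nil, List.sum_cons, List.sum_nil, add_zero] at h
        have : gp w m x = pre (w m) x.val := rfl
        rw [this] at h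
        linarith)
      ok.2.2
    rw [var_pre] at hvar
    have hc : ((cW (gp w) (Np w) [m] : ℕ) : ℝ)
        = ((altLen (Aset (gp w) (Np w) [m]) (Bset (gp w) (Np w) [m]) : ℕ) : ℝ) := rfl
    rw [hc]
    set c : ℝ := ((altLen (Aset (gp w) (Np w) [m]) (Bset (gp w) (Np w) [m]) : ℕ) : ℝ) with hcdef
    have h3 : Np w m * ((c - 1) * (2 * (3 / 4 * Np w m))) ≤ Np w m * n1 (w m) :=
      mul_le_mul_of_nonneg_left hvar hN
    have hc0 : 0 ≤ c := Nat.cast_nonneg _
    by_cases hc1 : c ≤ 1
    · have : Np w m ^ 2 * c ≤ Np w m ^ 2 * 1 := mul_le_mul_of_nonneg_left hc1 (sq_nonneg _)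
      have h5 : 0 ≤ Np w m * n1 (w m) := mul_nonneg hN hV
      linarith
    · push_neg at hc1
      have h6 : 0 ≤ Np w m ^ 2 * (c - 1) := mul_nonneg (sq_nonneg _) (by linarith)
      nlinarith
  · have hwt : wt (gp w) (Np w) [m] = 0 := by
      unfold wt
      rw [if_neg ok]
    rw [hwt]
    have h5 : 0 ≤ Np w m * n1 (w m) := mul_nonneg hN hV
    have h6 := sq_nonneg (Np w m)
    simp only [ne_eq, OfNat.ofNat_ne_zero, not_false_eq_true, zero_pow, zero_mul]
    linarith

/-- THEOREM (BV) for the summing norm, on marked reversible chains -/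
theorem bvm : BVm := by
  intro n S M _ _ C w hw L
  have key := bv_abstract C (Np w) (fun m => n1 (w m)) (fun l => nJ (sm w l))
    (mnW (Np w)) (mxW (Np w)) (wt (gp w) (Np w)) (sgW (gp w) (Np w)) (cW (gp w) (Np w))
    (pot_conc C w hw) (Np_nonneg w) (fun l => nJ_nonneg _) (nJ_sm_le w)
    (fun l hl => mnL_mem _ (by simpa using hl)) (fun l hl => mxL_mem _ (by simpa using hl))
    (fun l x hx => ⟨mnL_le _ x hx, le_mxL _ x hx⟩)
    (fun l _ h0 h1 h2 => link_conc w l h0 h1 h2) (one_conc w)
    (fun m => pow_le_pow_left₀ (wt_nonneg _) (wt_single_le w m) 2) L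
  have e1 : C.E 1 (fun l => (l.map (fun m => Np w m ^ 2)).sum)
      = C.E 1 (fun l => nJ (sm w l) ^ 2) := by
    apply E_congr
    intro l hl
    obtain ⟨m, rfl⟩ := List.length_eq_one_iff.1 hl
    rw [sm_single]
    simp [Np]
  have e2 : C.E 1 (fun l => (l.map (fun m => Np w m * n1 (w m))).sum)
      = C.E 1 (fun l => nJ (sm w l) * n1 (sm w l)) := by
    apply E_congr
    intro l hl
    obtain ⟨m, rfl⟩ := List.length_eq_one_iff.1 hl
    rw [sm_single]
    simp [Np]
  rw [e1, e2] at key
  exact key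

/-- (alpha): the summing operators are uniformly sub-ballistic on reversible chains -/
theorem alpha_main : ∀ ε : ℝ, 0 < ε → ∃ t : ℕ, 1 ≤ t ∧ RA t ε := alpha_of_BVm bvm

end Vale.Agent.P125.BV27
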