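import Vale.Agent.P125.TS.Triv
import Vale.Agent.P125.Dich.Iter
import Vale.Agent.P125.Alpha.Iterate

set_option linter.unusedSectionVars false
set_option linter.unusedVariables false

/-!
# P125, (BV) ==> (alpha) in function form

`BVProp` is the one-scale estimate (BV) for marked reversible chains and profile-valued
antisymmetric mark functions.  From it we derive: for every `ε > 0` there is a time `t ≥ 1` such
that for all finite reversible chains, all `n` and all `f : S → ℝ^n`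
`E max_k |∑_{l<k} (f(Z_t) - f(Z_0))_l|^2 ≤ ε t^2 E |f(Z_1) - f(Z_0)|_1^2`.
The `t`-step chain is `(μ, P ^ t)` with the same `f`, so no block chain is needed.
-/

namespace Vale.Agent.P125.BV

open scoped BigOperators
open Vale.Agent.P125.Dich Vale.Agent.P125.Char Vale.Agent.P125.TS

/-- the largest absolute value of the profile `h` at the positions `0, ..., n` -/
noncomputable def supJ (n : ℕ) (h : ℕ → ℝ) : ℝ :=
  (Finset.range (n + 1)).sup' ⟨0, by simp⟩ (fun k => |h k|)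

/-- the variation of the profile `h` along the positions `0, ..., n` -/
def tv (n : ℕ) (h : ℕ → ℝ) : ℝ := ∑ j ∈ Finset.range n, |h (j + 1) - h j|

/-- the estimate (BV) at the scale `2 ^ L` -/
def BVProp : Prop :=
  ∀ (S M : Type) [Fintype S] [Fintype M] (C : MChain S M) (n : ℕ) (g : M → ℕ → ℝ),
    (∀ m, g (C.inv m) = - g m) → ∀ L : ℕ,
      C.E (2 ^ L) (fun l => supJ n (sm g l) ^ 2) ≤
        ((2 : ℝ) ^ L) ^ 2 * C.E 1 (fun l => supJ n (sm g l) ^ 2) -
          ((2 : ℝ) ^ L / 16) * (C.E 1 (fun l => supJ n (sm g l) ^ 2) -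
            4 * (5 * C.E 1 (fun l => supJ n (sm g l) ^ 2) +
              4 * C.E 1 (fun l => supJ n (sm g l) * tv n (sm g l))) / ((L : ℝ) + 1))

/-- the sum of the first `k` coordinates of `v` -/
def pre {n : ℕ} (v : Fin n → ℝ) (k : ℕ) : ℝ := ∑ i : Fin n, if i.val < k then v i else 0

/-- the `ℓ_1` norm -/
def n1 {n : ℕ} (v : Fin n → ℝ) : ℝ := ∑ i, |v i|

lemma pre_add {n : ℕ} (v w : Fin n → ℝ) : pre (v + w) = pre v + pre w := by
  funext k
  simp only [pre, Pi.add_apply]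
  rw [← Finset.sum_add_distrib]
  refine Finset.sum_congr rfl fun i _ => ?_
  split_ifs <;> simp

lemma pre_zero {n : ℕ} : pre (0 : Fin n → ℝ) = 0 := by
  funext k
  simp [pre]

lemma pre_neg {n : ℕ} (v : Fin n → ℝ) : pre (-v) = - pre v := by
  funext k
  simp only [pre, Pi.neg_apply]
  rw [← Finset.sum_neg_distrib]
  refine Finset.sum_congr rfl fun i _ => ?_
  split_ifs <;> simp

lemma sm_pre {M : Type} {n : ℕ} (ω : M → Fin n → ℝ) (l : List M) :
    sm (fun m => pre (ω m)) l = pre (sm ω l) := by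
  induction l with
  | nil => simp [sm, pre_zero]
  | cons m l ih =>
    have h1 : sm (fun m => pre (ω m)) (m :: l) = pre (ω m) + sm (fun m => pre (ω m)) l := by
      simp [sm]
    have h2 : sm ω (m :: l) = ω m + sm ω l := by simp [sm]
    rw [h1, h2, pre_add, ih]

lemma abs_pre_le {n : ℕ} (v : Fin n → ℝ) (k : ℕ) : |pre v k| ≤ n1 v := by
  unfold pre n1
  refine (Finset.abs_sum_le_sum_abs _ _).trans (Finset.sum_le_sum fun i _ => ?_)
  split_ifs
  · exact le_rfl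
  · simp

lemma supJ_nonneg (n : ℕ) (h : ℕ → ℝ) : 0 ≤ supJ n h :=
  le_trans (abs_nonneg (h 0)) (Finset.le_sup' (fun k => |h k|) (by simp))

lemma n1_nonneg {n : ℕ} (v : Fin n → ℝ) : 0 ≤ n1 v := Finset.sum_nonneg fun _ _ => abs_nonneg _

lemma supJ_pre_le {n : ℕ} (v : Fin n → ℝ) : supJ n (pre v) ≤ n1 v := by
  unfold supJ
  exact Finset.sup'_le _ _ fun k _ => abs_pre_le v k

lemma tv_pre {n : ℕ} (v : Fin n → ℝ) : tv n (pre v) = n1 v := by
  unfold tv n1
  rw [Finset.sum_range]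
  refine Finset.sum_congr rfl fun i _ => ?_
  congr 1
  unfold pre
  rw [← Finset.sum_sub_distrib, Finset.sum_eq_single i]
  · simp
  · intro j _ hj
    have hj' : j.val ≠ i.val := fun h => hj (Fin.ext h)
    by_cases h1 : j.val < i.val
    · have h2 : j.val < i.val + 1 := by omega
      simp [h1, h2]
    · have h2 : ¬ j.val < i.val + 1 := by omega
      simp [h1, h2]
  · intro h
    exact absurd (Finset.mem_univ _) h

/-- the trivial bound for the `ℓ_1` norm at time `t` -/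
lemma n1_triv (t : ℕ) {S : Type} [Fintype S] [DecidableEq S] (μ : S → ℝ) (P : Matrix S S ℝ)
    (hc : IsChain μ P) {n : ℕ} (f : S → Fin n → ℝ) :
    ∑ i, ∑ j, μ i * (P ^ t) i j * n1 (f j - f i) ^ 2 ≤
      (t : ℝ) ^ 2 * ∑ i, ∑ j, μ i * P i j * n1 (f j - f i) ^ 2 := by
  have key := hFun_triv (PiLp 1 (fun _ : Fin n => ℝ)) t S μ P hc (fun s => WithLp.toLp 1 (f s))
  have e : ∀ i j : S, ‖(WithLp.toLp 1 (f j) : PiLp 1 (fun _ : Fin n => ℝ)) - WithLp.toLp 1 (f i)‖
      = n1 (f j - f i) := by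
    intro i j
    rw [PiLp.norm_eq_of_L1]
    simp [n1]
  simp only [e] at key
  exact key

/-- the statement at time `t` with constant `a` -/
def RFun (t : ℕ) (a : ℝ) : Prop :=
  ∀ (n : ℕ) (S : Type) [Fintype S] [DecidableEq S] (μ : S → ℝ) (P : Matrix S S ℝ),
    IsChain μ P → ∀ f : S → Fin n → ℝ,
      ∑ i, ∑ j, μ i * (P ^ t) i j * supJ n (pre (f j - f i)) ^ 2 ≤
        a * (t : ℝ) ^ 2 * ∑ i, ∑ j, μ i * P i j * n1 (f j - f i) ^ 2

lemma U_nonneg {S : Type} [Fintype S] (μ : S → ℝ) (P : Matrix S S ℝ)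
    (hc : IsChain μ P) {n : ℕ} (f : S → Fin n → ℝ) :
    0 ≤ ∑ i, ∑ j, μ i * P i j * n1 (f j - f i) ^ 2 :=
  Finset.sum_nonneg fun i _ => Finset.sum_nonneg fun j _ =>
    mul_nonneg (mul_nonneg (hc.1 i) (hc.2.2.1 i j)) (sq_nonneg _)

lemma RFun_mono (t : ℕ) (a b : ℝ) (hab : a ≤ b) (h : RFun t a) : RFun t b := by
  intro n S _ _ μ P hc f
  refine (h n S μ P hc f).trans ?_
  have hU := U_nonneg μ P hc f
  have ht : (0 : ℝ) ≤ (t : ℝ) ^ 2 := sq_nonneg _
  have : a * (t : ℝ) ^ 2 ≤ b * (t : ℝ) ^ 2 := mul_le_mul_of_nonneg_right hab ht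
  exact mul_le_mul_of_nonneg_right this hU

lemma RFun_one : RFun 1 1 := by
  intro n S _ _ μ P hc f
  simp only [pow_one, Nat.cast_one, one_pow, mul_one, one_mul]
  refine Finset.sum_le_sum fun i _ => Finset.sum_le_sum fun j _ => ?_
  refine mul_le_mul_of_nonneg_left ?_ (mul_nonneg (hc.1 i) (hc.2.2.1 i j))
  exact pow_le_pow_left₀ (supJ_nonneg _ _) (supJ_pre_le _) 2

lemma RFun_step (hBV : BVProp) (t L : ℕ) (a : ℝ) (ht : 1 ≤ t) (ha : 0 < a)
    (hL : 32 * (5 / 4 + 1 / Real.sqrt a) ≤ (L : ℝ) + 1) (h : RFun t a) :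
    RFun (2 ^ L * t) (a * (1 - 1 / (32 * 2 ^ L))) := by
  intro n S _ _ μ P hc f
  have hct : IsChain μ (P ^ t) := isChain_pow hc t
  obtain ⟨r0, r1, r2, r3, r4⟩ := hct
  set C := backChain μ (P ^ t) r0 r1 r2 r3 r4 with hC
  set ω : S × S → Fin n → ℝ := fun m => f m.2 - f m.1 with hω
  have hanti : ∀ m, (fun m => pre (ω m)) (C.inv m) = - (fun m => pre (ω m)) m := by
    intro m
    have h1 : C.inv m = Prod.swap m := rfl
    simp only [h1, hω, Prod.fst_swap, Prod.snd_swap]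
    rw [← pre_neg]
    congr 1
    abel
  have key := hBV S (S × S) C n (fun m => pre (ω m)) hanti L
  simp only [sm_pre, tv_pre] at key
  have e1 : C.E (2 ^ L) (fun l => supJ n (pre (sm ω l)) ^ 2)
      = ∑ i, ∑ j, μ i * ((P ^ t) ^ (2 ^ L)) i j * supJ n (pre (f j - f i)) ^ 2 :=
    back_E μ (P ^ t) r0 r1 r2 r3 r4 f (2 ^ L) (fun u => supJ n (pre u) ^ 2)
  have e2 : C.E 1 (fun l => supJ n (pre (sm ω l)) ^ 2)
      = ∑ i, ∑ j, μ i * ((P ^ t) ^ 1) i j * supJ n (pre (f j - f i)) ^ 2 :=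
    back_E μ (P ^ t) r0 r1 r2 r3 r4 f 1 (fun u => supJ n (pre u) ^ 2)
  have e3 : C.E 1 (fun l => supJ n (pre (sm ω l)) * n1 (sm ω l))
      = ∑ i, ∑ j, μ i * ((P ^ t) ^ 1) i j * (supJ n (pre (f j - f i)) * n1 (f j - f i)) :=
    back_E μ (P ^ t) r0 r1 r2 r3 r4 f 1 (fun u => supJ n (pre u) * n1 u)
  rw [pow_one] at e2 e3
  rw [← pow_mul] at e1
  rw [e1, e2, e3] at key
  set U := ∑ i, ∑ j, μ i * P i j * n1 (f j - f i) ^ 2 with hU
  have hU0 : 0 ≤ U := U_nonneg μ P hc f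
  set EN := ∑ i, ∑ j, μ i * (P ^ t) i j * supJ n (pre (f j - f i)) ^ 2 with hEN
  set EV := ∑ i, ∑ j, μ i * (P ^ t) i j * n1 (f j - f i) ^ 2 with hEV
  set ENV := ∑ i, ∑ j, μ i * (P ^ t) i j * (supJ n (pre (f j - f i)) * n1 (f j - f i)) with hENV
  set T := (t : ℝ) ^ 2 * U with hT
  have hT0 : 0 ≤ T := mul_nonneg (sq_nonneg _) hU0
  have b1 : EN ≤ a * T := by
    have := h n S μ P hc f
    rw [hT, ← mul_assoc]
    exact this
  have b2 : EV ≤ T := n1_triv t μ P hc f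
  have hs : 0 < Real.sqrt a := Real.sqrt_pos.2 ha
  have hss : Real.sqrt a * Real.sqrt a = a := Real.mul_self_sqrt ha.le
  have b3 : ENV ≤ (1 / (2 * Real.sqrt a)) * EN + (Real.sqrt a / 2) * EV := by
    rw [hENV, hEN, hEV, Finset.mul_sum, Finset.mul_sum, ← Finset.sum_add_distrib]
    refine Finset.sum_le_sum fun i _ => ?_
    rw [Finset.mul_sum, Finset.mul_sum, ← Finset.sum_add_distrib]
    refine Finset.sum_le_sum fun j _ => ?_
    have hw : 0 ≤ μ i * (P ^ t) i j := mul_nonneg (r0 i) (r2 i j)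
    set x := supJ n (pre (f j - f i))
    set y := n1 (f j - f i)
    have hxy : x * y ≤ (1 / (2 * Real.sqrt a)) * x ^ 2 + (Real.sqrt a / 2) * y ^ 2 := by
      have h1 : (1 / (2 * Real.sqrt a)) * x ^ 2 + (Real.sqrt a / 2) * y ^ 2 - x * y
          = (1 / (2 * Real.sqrt a)) * (x - Real.sqrt a * y) ^ 2 := by
        field_simp
        ring
      have h2 : 0 ≤ (1 / (2 * Real.sqrt a)) * (x - Real.sqrt a * y) ^ 2 := by positivity
      linarith
    calc μ i * (P ^ t) i j * (x * y)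
        ≤ μ i * (P ^ t) i j * ((1 / (2 * Real.sqrt a)) * x ^ 2 + (Real.sqrt a / 2) * y ^ 2) :=
          mul_le_mul_of_nonneg_left hxy hw
      _ = _ := by ring
  have b4 : ENV ≤ Real.sqrt a * T := by
    have h1 : (1 / (2 * Real.sqrt a)) * EN ≤ (1 / (2 * Real.sqrt a)) * (a * T) :=
      mul_le_mul_of_nonneg_left b1 (by positivity)
    have h2 : (Real.sqrt a / 2) * EV ≤ (Real.sqrt a / 2) * T :=
      mul_le_mul_of_nonneg_left b2 (by positivity)
    have h3 : (1 / (2 * Real.sqrt a)) * (a * T) = (Real.sqrt a / 2) * T := by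
      field_simp
      nlinarith [hss]
    linarith
  have hM : (1 : ℝ) ≤ 2 ^ L := one_le_pow₀ (by norm_num)
  have fin := Vale.Agent.P125.Alpha.bv_to_step _ EN ENV T a ((2 : ℝ) ^ L) ((L : ℝ) + 1) hM
    (by positivity) ha hT0 b1 b4 hL key
  have e4 : t * 2 ^ L = 2 ^ L * t := Nat.mul_comm _ _
  rw [e4] at fin
  refine fin.trans (le_of_eq ?_)
  rw [hT]
  push_cast
  ring

/-- (BV) implies (alpha) in function form -/
theorem alpha_of_BV (hBV : BVProp) : ∀ ε : ℝ, 0 < ε → ∃ t : ℕ, 1 ≤ t ∧ RFun t ε :=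
  Vale.Agent.P125.Alpha.iterate_abs RFun RFun_mono RFun_one
    (fun t L a ht ha hL h => RFun_step hBV t L a ht ha hL h)

end Vale.Agent.P125.BV
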