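import Vale.Agent.P125.BV.Abs27
import Vale.Agent.P125.BV.Alt
import Vale.Agent.P125.BV.Top

set_option linter.unusedSectionVars false
set_option linter.unusedVariables false

/-!
# P125, (BV): the concrete windows, and the proof of `BVProp`

Windows are lists of marks; `g m : ℕ → ℝ` is the profile of the mark `m`, positions `0, ..., n`.
We instantiate the abstract inequality `BV27.bv_abstract`.
-/

namespace Vale.Agent.P125.BV.Conc

open scoped BigOperators
open Vale.Agent.P125.Dich Vale.Agent.P125.BV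

variable {M : Type} [Fintype M] (n : ℕ) (g : M → ℕ → ℝ)

/-- size of a mark -/
noncomputable def Nn (m : M) : ℝ := supJ n (g m)

/-- sum of the sizes along a window -/
noncomputable def SN (l : List M) : ℝ := (l.map (Nn n g)).sum

/-- smallest size in a window -/
noncomputable def mnf (l : List M) : ℝ := sInf {x | x ∈ l.map (Nn n g)}

/-- largest size in a window -/
noncomputable def mxf (l : List M) : ℝ := sSup {x | x ∈ l.map (Nn n g)}

open Classical in
/-- positions where the window is almost maximally positive -/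
noncomputable def setA (l : List M) : Finset ℕ :=
  (Finset.range (n + 1)).filter (fun k => SN n g l - sm g l k ≤ mnf n g l / 4)

open Classical in
/-- positions where the window is almost maximally negative -/
noncomputable def setB (l : List M) : Finset ℕ :=
  (Finset.range (n + 1)).filter (fun k => SN n g l + sm g l k ≤ mnf n g l / 4)

/-- good windows -/
def ok (l : List M) : Prop :=
  l ≠ [] ∧ 0 < mnf n g l ∧ mxf n g l ≤ 2 * mnf n g l ∧ (setA n g l ∪ setB n g l).Nonempty

open Classical in
/-- weight of a window -/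
noncomputable def mu (l : List M) : ℝ := if ok n g l then mnf n g l else 0

/-- alternation count of a window -/
noncomputable def cc (l : List M) : ℕ := altc (setA n g l) (setB n g l)

/-- first letter of a window -/
noncomputable def sgl (l : List M) : ℝ := sg (setA n g l) (setB n g l)

lemma Nn_nonneg (m : M) : 0 ≤ Nn n g m := supJ_nonneg _ _

lemma abs_le_Nn (m : M) {k : ℕ} (hk : k ≤ n) : |g m k| ≤ Nn n g m :=
  Finset.le_sup' (fun k => |g m k|) (Finset.mem_range.2 (by omega))

lemma SN_cons (m : M) (l : List M) : SN n g (m :: l) = Nn n g m + SN n g l := by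
  simp [SN]

lemma SN_append (l l' : List M) : SN n g (l ++ l') = SN n g l + SN n g l' := by
  simp [SN]

lemma abs_sm_le (l : List M) {k : ℕ} (hk : k ≤ n) : |sm g l k| ≤ SN n g l := by
  induction l with
  | nil => simp [sm, SN]
  | cons m l ih =>
    rw [sm_cons, SN_cons, Pi.add_apply]
    exact (abs_add_le _ _).trans (add_le_add (abs_le_Nn n g m hk) ih)

lemma fin_vals (l : List M) : {x | x ∈ l.map (Nn n g)}.Finite := List.finite_toSet _

lemma mnf_mem {l : List M} (h : l ≠ []) : mnf n g l ∈ l.map (Nn n g) := by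
  obtain ⟨m, hm⟩ := List.exists_mem_of_ne_nil l h
  have hne : {x | x ∈ l.map (Nn n g)}.Nonempty := ⟨Nn n g m, List.mem_map_of_mem hm⟩
  exact hne.csInf_mem (fin_vals n g l)

lemma mxf_mem {l : List M} (h : l ≠ []) : mxf n g l ∈ l.map (Nn n g) := by
  obtain ⟨m, hm⟩ := List.exists_mem_of_ne_nil l h
  have hne : {x | x ∈ l.map (Nn n g)}.Nonempty := ⟨Nn n g m, List.mem_map_of_mem hm⟩
  exact hne.csSup_mem (fin_vals n g l)

lemma mnf_le {l : List M} {x : ℝ} (hx : x ∈ l.map (Nn n g)) : mnf n g l ≤ x :=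
  csInf_le (fin_vals n g l).bddBelow hx

lemma le_mxf {l : List M} {x : ℝ} (hx : x ∈ l.map (Nn n g)) : x ≤ mxf n g l :=
  le_csSup (fin_vals n g l).bddAbove hx

lemma mnf_le_SN {l : List M} (h : l ≠ []) : mnf n g l ≤ SN n g l := by
  apply List.single_le_sum _ _ (mnf_mem n g h)
  intro x hx
  obtain ⟨m, _, rfl⟩ := List.mem_map.1 hx
  exact Nn_nonneg n g m

lemma mem_setA {l : List M} {k : ℕ} :
    k ∈ setA n g l ↔ k ≤ n ∧ SN n g l - sm g l k ≤ mnf n g l / 4 := by
  unfold setA
  rw [Finset.mem_filter, Finset.mem_range]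
  constructor
  · rintro ⟨h1, h2⟩; exact ⟨by omega, h2⟩
  · rintro ⟨h1, h2⟩; exact ⟨by omega, h2⟩

lemma mem_setB {l : List M} {k : ℕ} :
    k ∈ setB n g l ↔ k ≤ n ∧ SN n g l + sm g l k ≤ mnf n g l / 4 := by
  unfold setB
  rw [Finset.mem_filter, Finset.mem_range]
  constructor
  · rintro ⟨h1, h2⟩; exact ⟨by omega, h2⟩
  · rintro ⟨h1, h2⟩; exact ⟨by omega, h2⟩

lemma disj {l : List M} (h : l ≠ []) (h0 : 0 < mnf n g l) :
    Disjoint (setA n g l) (setB n g l) := by
  rw [Finset.disjoint_left]
  intro k hA hB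
  have h1 := ((mem_setA n g).1 hA).2
  have h2 := ((mem_setB n g).1 hB).2
  have h3 := mnf_le_SN n g h
  linarith

/-! ### appending windows -/

lemma mnf_append_left {l1 : List M} (l2 : List M) (h1 : l1 ≠ []) :
    mnf n g (l1 ++ l2) ≤ mnf n g l1 := by
  apply mnf_le
  rw [List.map_append]
  exact List.mem_append_left _ (mnf_mem n g h1)

lemma mnf_append_right (l1 : List M) {l2 : List M} (h2 : l2 ≠ []) :
    mnf n g (l1 ++ l2) ≤ mnf n g l2 := by
  apply mnf_le
  rw [List.map_append]
  exact List.mem_append_right _ (mnf_mem n g h2)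

lemma mxf_append_left {l1 : List M} (l2 : List M) (h1 : l1 ≠ []) :
    mxf n g l1 ≤ mxf n g (l1 ++ l2) := by
  apply le_mxf
  rw [List.map_append]
  exact List.mem_append_left _ (mxf_mem n g h1)

lemma mxf_append_right (l1 : List M) {l2 : List M} (h2 : l2 ≠ []) :
    mxf n g l2 ≤ mxf n g (l1 ++ l2) := by
  apply le_mxf
  rw [List.map_append]
  exact List.mem_append_right _ (mxf_mem n g h2)

lemma setA_left {l1 : List M} (l2 : List M) (h1 : l1 ≠ []) :
    setA n g (l1 ++ l2) ⊆ setA n g l1 := by
  intro k hk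
  obtain ⟨hkn, hk⟩ := (mem_setA n g).1 hk
  refine (mem_setA n g).2 ⟨hkn, ?_⟩
  rw [SN_append, sm_append, Pi.add_apply] at hk
  have h3 := (abs_le.1 (abs_sm_le n g l2 hkn)).2
  have h4 := mnf_append_left n g l2 h1
  linarith

lemma setA_right (l1 : List M) {l2 : List M} (h2 : l2 ≠ []) :
    setA n g (l1 ++ l2) ⊆ setA n g l2 := by
  intro k hk
  obtain ⟨hkn, hk⟩ := (mem_setA n g).1 hk
  refine (mem_setA n g).2 ⟨hkn, ?_⟩
  rw [SN_append, sm_append, Pi.add_apply] at hk
  have h3 := (abs_le.1 (abs_sm_le n g l1 hkn)).2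
  have h4 := mnf_append_right n g l1 h2
  linarith

lemma setB_left {l1 : List M} (l2 : List M) (h1 : l1 ≠ []) :
    setB n g (l1 ++ l2) ⊆ setB n g l1 := by
  intro k hk
  obtain ⟨hkn, hk⟩ := (mem_setB n g).1 hk
  refine (mem_setB n g).2 ⟨hkn, ?_⟩
  rw [SN_append, sm_append, Pi.add_apply] at hk
  have h3 := (abs_le.1 (abs_sm_le n g l2 hkn)).1
  have h4 := mnf_append_left n g l2 h1
  linarith

lemma setB_right (l1 : List M) {l2 : List M} (h2 : l2 ≠ []) :
    setB n g (l1 ++ l2) ⊆ setB n g l2 := by
  intro k hk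
  obtain ⟨hkn, hk⟩ := (mem_setB n g).1 hk
  refine (mem_setB n g).2 ⟨hkn, ?_⟩
  rw [SN_append, sm_append, Pi.add_apply] at hk
  have h3 := (abs_le.1 (abs_sm_le n g l1 hkn)).1
  have h4 := mnf_append_right n g l1 h2
  linarith

lemma ok_left {l1 l2 : List M} (h1 : l1 ≠ []) (h : ok n g (l1 ++ l2)) : ok n g l1 := by
  obtain ⟨_, a, b, c⟩ := h
  have e1 := mnf_append_left n g l2 h1
  have e2 := mxf_append_left n g l2 h1
  refine ⟨h1, by linarith, by linarith, ?_⟩
  exact c.mono (Finset.union_subset_union (setA_left n g l2 h1) (setB_left n g l2 h1))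

lemma ok_right {l1 l2 : List M} (h2 : l2 ≠ []) (h : ok n g (l1 ++ l2)) : ok n g l2 := by
  obtain ⟨_, a, b, c⟩ := h
  have e1 := mnf_append_right n g l1 h2
  have e2 := mxf_append_right n g l1 h2
  refine ⟨h2, by linarith, by linarith, ?_⟩
  exact c.mono (Finset.union_subset_union (setA_right n g l1 h2) (setB_right n g l1 h2))

lemma ok_of_mu_ne {l : List M} (h : mu n g l ≠ 0) : ok n g l := by
  by_contra hc
  exact h (by unfold mu; rw [if_neg hc])

/-! ### reversal -/

section Rev

variable (inv : M → M) (hinv : ∀ m, g (inv m) = - g m)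
include hinv

lemma Nn_inv (m : M) : Nn n g (inv m) = Nn n g m := by
  unfold Nn supJ
  congr 1
  funext k
  rw [hinv, Pi.neg_apply, abs_neg]

lemma map_rev (l : List M) :
    ((l.map inv).reverse).map (Nn n g) = (l.map (Nn n g)).reverse := by
  rw [List.map_reverse, List.map_map]
  congr 2
  funext m
  exact Nn_inv n g inv hinv m

lemma SN_rev (l : List M) : SN n g ((l.map inv).reverse) = SN n g l := by
  unfold SN
  rw [map_rev n g inv hinv, List.sum_reverse]

lemma mnf_rev (l : List M) : mnf n g ((l.map inv).reverse) = mnf n g l := by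
  unfold mnf
  rw [map_rev n g inv hinv]
  simp only [List.mem_reverse]

lemma mxf_rev (l : List M) : mxf n g ((l.map inv).reverse) = mxf n g l := by
  unfold mxf
  rw [map_rev n g inv hinv]
  simp only [List.mem_reverse]

lemma setA_rev (l : List M) : setA n g ((l.map inv).reverse) = setB n g l := by
  ext k
  rw [mem_setA, mem_setB, SN_rev n g inv hinv, mnf_rev n g inv hinv, sm_rev g inv hinv,
    Pi.neg_apply, sub_neg_eq_add]

lemma setB_rev (l : List M) : setB n g ((l.map inv).reverse) = setA n g l := by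
  ext k
  rw [mem_setA, mem_setB, SN_rev n g inv hinv, mnf_rev n g inv hinv, sm_rev g inv hinv,
    Pi.neg_apply, ← sub_eq_add_neg]

lemma ok_rev (l : List M) : ok n g ((l.map inv).reverse) ↔ ok n g l := by
  unfold ok
  rw [mnf_rev n g inv hinv, mxf_rev n g inv hinv, setA_rev n g inv hinv, setB_rev n g inv hinv,
    Finset.union_comm]
  simp

lemma mu_rev (l : List M) : mu n g ((l.map inv).reverse) = mu n g l := by
  unfold mu
  by_cases h : ok n g l
  · rw [if_pos h, if_pos ((ok_rev n g inv hinv l).2 h), mnf_rev n g inv hinv]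
  · rw [if_neg h, if_neg (fun h' => h ((ok_rev n g inv hinv l).1 h'))]

lemma sgl_rev {l : List M} (h : ok n g l) :
    sgl n g ((l.map inv).reverse) = - sgl n g l := by
  unfold sgl
  rw [setA_rev n g inv hinv, setB_rev n g inv hinv]
  exact sg_swap (disj n g h.1 h.2.1) h.2.2.2

end Rev

/-! ### single marks -/

lemma mnf_single (m : M) : mnf n g [m] = Nn n g m := by
  have := mnf_mem n g (l := [m]) (by simp)
  simpa using this

lemma sm_single (m : M) : sm g [m] = g m := by simp [sm]

lemma SN_single (m : M) : SN n g [m] = Nn n g m := by simp [SN]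

lemma tv_nonneg (h : ℕ → ℝ) : 0 ≤ tv n h := Finset.sum_nonneg fun _ _ => abs_nonneg _

lemma one_mark (m : M) :
    mu n g [m] ^ 2 * (cc n g [m] : ℝ) ≤ Nn n g m ^ 2 + Nn n g m * tv n (g m) := by
  have hN := Nn_nonneg n g m
  have hV := tv_nonneg n (g m)
  unfold mu
  split_ifs with h
  · rw [mnf_single]
    have hvar := altc_var (g m) (3 / 4 * Nn n g m) (by positivity) n
      (A := setA n g [m]) (B := setB n g [m])
      (by
        intro x hx
        obtain ⟨h1, h2⟩ := (mem_setA n g).1 hx
        rw [SN_single, sm_single, mnf_single] at h2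
        exact ⟨h1, by linarith⟩)
      (by
        intro x hx
        obtain ⟨h1, h2⟩ := (mem_setB n g).1 hx
        rw [SN_single, sm_single, mnf_single] at h2
        exact ⟨h1, by linarith⟩)
    have hvar' : ((cc n g [m] : ℝ) - 1) * (2 * (3 / 4 * Nn n g m)) ≤ tv n (g m) := hvar
    have h3 : Nn n g m * (((cc n g [m] : ℝ) - 1) * (2 * (3 / 4 * Nn n g m)))
        ≤ Nn n g m * tv n (g m) := mul_le_mul_of_nonneg_left hvar' hN
    have h4 : 0 ≤ Nn n g m * tv n (g m) := mul_nonneg hN hV
    nlinarith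
  · have : 0 ≤ Nn n g m * tv n (g m) := mul_nonneg hN hV
    nlinarith [sq_nonneg (Nn n g m)]

lemma one_mark' (m : M) : mu n g [m] ^ 2 ≤ Nn n g m ^ 2 := by
  unfold mu
  split_ifs with h
  · rw [mnf_single]
  · nlinarith [sq_nonneg (Nn n g m)]

/-! ### the link with the deficit -/

lemma link {l : List M} (hne : l ≠ []) (h0 : 0 < mnf n g l) (h1 : mxf n g l ≤ 2 * mnf n g l)
    (h2 : SN n g l - supJ n (sm g l) ≤ mnf n g l / 4) : mu n g l = mnf n g l := by
  have hok : ok n g l := by
    refine ⟨hne, h0, h1, ?_⟩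
    obtain ⟨k, hk, hk'⟩ := Finset.exists_mem_eq_sup' (s := Finset.range (n + 1)) ⟨0, by simp⟩
      (fun k => |sm g l k|)
    have hkn : k ≤ n := by
      have := Finset.mem_range.1 hk
      omega
    have hk'' : supJ n (sm g l) = |sm g l k| := hk'
    rcases le_total 0 (sm g l k) with hs | hs
    · refine ⟨k, Finset.mem_union_left _ ((mem_setA n g).2 ⟨hkn, ?_⟩)⟩
      rw [hk'', abs_of_nonneg hs] at h2
      exact h2
    · refine ⟨k, Finset.mem_union_right _ ((mem_setB n g).2 ⟨hkn, ?_⟩)⟩
      rw [hk'', abs_of_nonpos hs] at h2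
      linarith
  unfold mu
  rw [if_pos hok]

lemma supJ_sm_le (l : List M) : supJ n (sm g l) ≤ SN n g l := by
  unfold supJ
  refine Finset.sup'_le _ _ fun k hk => abs_sm_le n g l ?_
  have := Finset.mem_range.1 hk
  omega

end Vale.Agent.P125.BV.Conc

namespace Vale.Agent.P125.BV

open Vale.Agent.P125.Dich Conc

/-- the potential structure of the concrete windows -/
theorem conc_pot {S M : Type} [Fintype S] [Fintype M] (C : MChain S M) (n : ℕ) (g : M → ℕ → ℝ)
    (hg : ∀ m, g (C.inv m) = - g m) :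
    Vale.Agent.P125.BV27.Pot C (mu n g) (sgl n g) (cc n g) where
  mu_nonneg := by
    intro l
    unfold mu
    split_ifs with h
    · exact h.2.1.le
    · exact le_rfl
  mu_rev := mu_rev n g C.inv hg
  sg_pm := fun l => sg_eq_or _ _
  sg_rev := fun l h => sgl_rev n g C.inv hg (ok_of_mu_ne n g h)
  mu_left := by
    intro l1 l2 h1 h2
    by_cases h : ok n g (l1 ++ l2)
    · have h' := ok_left n g h1 h
      unfold mu
      rw [if_pos h, if_pos h']
      exact mnf_append_left n g l2 h1
    · have : mu n g (l1 ++ l2) = 0 := by unfold mu; rw [if_neg h]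
      rw [this]
      unfold mu
      split_ifs with h'
      · exact h'.2.1.le
      · exact le_rfl
  mu_right := by
    intro l1 l2 h1 h2
    by_cases h : ok n g (l1 ++ l2)
    · have h' := ok_right n g h2 h
      unfold mu
      rw [if_pos h, if_pos h']
      exact mnf_append_right n g l1 h2
    · have : mu n g (l1 ++ l2) = 0 := by unfold mu; rw [if_neg h]
      rw [this]
      unfold mu
      split_ifs with h'
      · exact h'.2.1.le
      · exact le_rfl
  cc_left := fun l1 l2 h1 h2 _ => altc_mono (setA_left n g l2 h1) (setB_left n g l2 h1)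
  cc_right := fun l1 l2 h1 h2 _ => altc_mono (setA_right n g l1 h2) (setB_right n g l1 h2)
  sg_left := by
    intro l1 l2 h1 h2 h hc
    have hok := ok_of_mu_ne n g h
    have hok1 := ok_left n g h1 hok
    exact sg_eq_of_altc_eq (setA_left n g l2 h1) (setB_left n g l2 h1)
      (disj n g h1 hok1.2.1) hok.2.2.2 hc
  sg_right := by
    intro l1 l2 h1 h2 h hc
    have hok := ok_of_mu_ne n g h
    have hok2 := ok_right n g h2 hok
    exact sg_eq_of_altc_eq (setA_right n g l1 h2) (setB_right n g l1 h2)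
      (disj n g h2 hok2.2.1) hok.2.2.2 hc

/-- the estimate (BV) -/
theorem bvProp : BVProp := by
  intro S M _ _ C n g hg L
  have key := Vale.Agent.P125.BV27.bv_abstract C (Nn n g) (fun m => tv n (g m))
    (fun l => supJ n (sm g l)) (mnf n g) (mxf n g) (mu n g) (sgl n g) (cc n g)
    (conc_pot C n g hg) (Nn_nonneg n g) (fun l => supJ_nonneg _ _) (supJ_sm_le n g)
    (fun l h => mnf_mem n g h) (fun l h => mxf_mem n g h)
    (fun l x hx => ⟨mnf_le n g hx, le_mxf n g hx⟩)
    (fun l hne h0 h1 h2 => link n g hne h0 h1 h2)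
    (one_mark n g) (one_mark' n g) L
  have e1 : C.E 1 (fun l => (l.map (fun m => Nn n g m ^ 2)).sum)
      = C.E 1 (fun l => supJ n (sm g l) ^ 2) := by
    apply E_congr
    intro l hl
    obtain ⟨m, rfl⟩ := List.length_eq_one_iff.1 hl
    simp [sm, Nn]
  have e2 : C.E 1 (fun l => (l.map (fun m => Nn n g m * tv n (g m))).sum)
      = C.E 1 (fun l => supJ n (sm g l) * tv n (sm g l)) := by
    apply E_congr
    intro l hl
    obtain ⟨m, rfl⟩ := List.length_eq_one_iff.1 hl
    simp [sm, Nn]
  rw [e1, e2] at key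
  exact key

/-- (alpha) in function form -/
theorem alpha_fun : ∀ ε : ℝ, 0 < ε → ∃ t : ℕ, 1 ≤ t ∧ RFun t ε := alpha_of_BV bvProp

end Vale.Agent.P125.BV
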