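import Vale.Agent.P125.BV.Abs27
import Vale.Agent.P125.BV.Window
import Vale.Agent.P125.BV.Top

set_option linter.unusedSectionVars false
set_option linter.unusedVariables false

/-!
P125: the estimate (BV) for profile valued antisymmetric mark functions

We instantiate the abstract form `BV27.bv_abstract` with the windows of `BV/Window.lean` and the
alternation count of `BV/Alt.lean`.
-/

namespace Vale.Agent.P125.BV.C43

open scoped BigOperators
open Vale.Agent.P125.Dich Vale.Agent.P125.BV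

variable {S M : Type} [Fintype S] [Fintype M]

lemma le_supJ (n : ℕ) (h : ℕ → ℝ) (k : ℕ) (hk : k ≤ n) : |h k| ≤ supJ n h := by
  unfold supJ
  exact Finset.le_sup' (fun k => |h k|) (Finset.mem_range.2 (Nat.lt_succ_of_le hk))

lemma supJ_nonneg (n : ℕ) (h : ℕ → ℝ) : 0 ≤ supJ n h :=
  le_trans (abs_nonneg _) (le_supJ n h 0 (Nat.zero_le _))

lemma supJ_neg (n : ℕ) (h : ℕ → ℝ) : supJ n (-h) = supJ n h := by
  unfold supJ
  congr 1
  funext k
  simp

lemma exists_supJ (n : ℕ) (h : ℕ → ℝ) : ∃ k, k ≤ n ∧ supJ n h = |h k| := by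
  unfold supJ
  obtain ⟨k, hk, hk'⟩ := Finset.exists_mem_eq_sup' (s := Finset.range (n + 1)) ⟨0, by simp⟩
    (fun k => |h k|)
  exact ⟨k, Nat.lt_succ_iff.1 (Finset.mem_range.1 hk), hk'⟩

/-- the labelling attached to a profile valued mark function -/
noncomputable def lab (C : MChain S M) (n : ℕ) (g : M → ℕ → ℝ) (hg : ∀ m, g (C.inv m) = - g m) :
    Lab C where
  g := g
  Nn := fun m => supJ n (g m)
  n := n
  hN := fun m k hk => le_supJ n (g m) k hk
  hg := fun m k => by rw [hg m]; rfl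
  hNi := fun m => by rw [hg m, supJ_neg]

variable {C : MChain S M} (D : Lab C)

lemma mu_of_ok {l : List M} (h : D.ok l) : D.mu l = D.mn l := by
  unfold Lab.mu; rw [if_pos h]

lemma mu_of_not_ok {l : List M} (h : ¬ D.ok l) : D.mu l = 0 := by
  unfold Lab.mu; rw [if_neg h]

lemma ok_of_mu_ne {l : List M} (h : D.mu l ≠ 0) : D.ok l := by
  by_contra hc
  exact h (mu_of_not_ok D hc)

lemma pot : BV27.Pot C D.mu D.sgl D.cc where
  mu_nonneg := D.mu_nonneg
  mu_rev := fun l => D.mu_rv l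
  sg_pm := fun l => sg_eq_or _ _
  sg_rev := fun l h => D.sgl_rv l (ok_of_mu_ne D h)
  mu_left := by
    intro l1 l2 h1 h2
    by_cases h : D.ok (l1 ++ l2)
    · rw [mu_of_ok D h, mu_of_ok D (D.ok_left l1 l2 h1 h)]
      exact D.mn_mono l1 (l1 ++ l2) h1 (fun m hm => List.mem_append_left _ hm)
    · rw [mu_of_not_ok D h]
      exact D.mu_nonneg _
  mu_right := by
    intro l1 l2 h1 h2
    by_cases h : D.ok (l1 ++ l2)
    · rw [mu_of_ok D h, mu_of_ok D (D.ok_right l1 l2 h2 h)]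
      exact D.mn_mono l2 (l1 ++ l2) h2 (fun m hm => List.mem_append_right _ hm)
    · rw [mu_of_not_ok D h]
      exact D.mu_nonneg _
  cc_left := by
    intro l1 l2 h1 h2 _
    exact altc_mono (D.setA_left l1 l2 h1) (D.setB_left l1 l2 h1)
  cc_right := by
    intro l1 l2 h1 h2 _
    exact altc_mono (D.setA_right l1 l2 h2) (D.setB_right l1 l2 h2)
  sg_left := by
    intro l1 l2 h1 h2 h hc
    have hok := ok_of_mu_ne D h
    have hok1 := D.ok_left l1 l2 h1 hok
    exact sg_eq_of_altc_eq (D.setA_left l1 l2 h1) (D.setB_left l1 l2 h1)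
      (D.disj l1 h1 hok1.2.1) hok.2.2.2 hc
  sg_right := by
    intro l1 l2 h1 h2 h hc
    have hok := ok_of_mu_ne D h
    have hok2 := D.ok_right l1 l2 h2 hok
    exact sg_eq_of_altc_eq (D.setA_right l1 l2 h2) (D.setB_right l1 l2 h2)
      (D.disj l2 h2 hok2.2.1) hok.2.2.2 hc

lemma dfA_eq (l : List M) (k : ℕ) : D.dfA l k = (l.map D.Nn).sum - (sm D.g l) k := by
  unfold Lab.dfA sm
  induction l with
  | nil => simp
  | cons a l ih =>
    simp only [List.map_cons, List.sum_cons, Pi.add_apply]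
    rw [ih]; ring

lemma dfB_eq (l : List M) (k : ℕ) : D.dfB l k = (l.map D.Nn).sum + (sm D.g l) k := by
  unfold Lab.dfB sm
  induction l with
  | nil => simp
  | cons a l ih =>
    simp only [List.map_cons, List.sum_cons, Pi.add_apply]
    rw [ih]; ring

lemma mn_single (m : M) : D.mn [m] = D.Nn m := by
  obtain ⟨a, ha, ha'⟩ := D.mn_mem [m] (by simp)
  rw [List.mem_singleton] at ha
  rw [← ha', ha]

lemma supJ_sm_le (l : List M) : supJ D.n (sm D.g l) ≤ (l.map D.Nn).sum := by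
  obtain ⟨k, hk, hk'⟩ := exists_supJ D.n (sm D.g l)
  rw [hk']
  have h1 := D.dfA_nonneg l k hk
  have h2 := D.dfB_nonneg l k hk
  rw [dfA_eq] at h1
  rw [dfB_eq] at h2
  rw [abs_le]
  constructor <;> linarith

lemma link (l : List M) (hne : l ≠ []) (h0 : 0 < D.mn l) (hx : D.mx l ≤ 2 * D.mn l)
    (hd : (l.map D.Nn).sum - supJ D.n (sm D.g l) ≤ D.mn l / 4) : D.mu l = D.mn l := by
  apply mu_of_ok
  refine ⟨hne, h0, hx, ?_⟩
  obtain ⟨k, hk, hk'⟩ := exists_supJ D.n (sm D.g l)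
  refine ⟨k, ?_⟩
  rw [Finset.mem_union]
  rcases le_total 0 ((sm D.g l) k) with h | h
  · left
    rw [Lab.mem_setA, dfA_eq]
    rw [hk', abs_of_nonneg h] at hd
    exact ⟨hk, hd⟩
  · right
    rw [Lab.mem_setB, dfB_eq]
    rw [hk', abs_of_nonpos h] at hd
    exact ⟨hk, by linarith⟩

lemma tv_nonneg (n : ℕ) (h : ℕ → ℝ) : 0 ≤ tv n h :=
  Finset.sum_nonneg fun _ _ => abs_nonneg _

lemma one' (m : M) : D.mu [m] ^ 2 ≤ D.Nn m ^ 2 := by
  by_cases h : D.ok [m]
  · rw [mu_of_ok D h, mn_single]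
  · rw [mu_of_not_ok D h]
    have := sq_nonneg (D.Nn m)
    simpa using this

lemma one (m : M) : D.mu [m] ^ 2 * D.cc [m] ≤ D.Nn m ^ 2 + D.Nn m * tv D.n (D.g m) := by
  have hN := D.Nn_nonneg m
  have hV := tv_nonneg D.n (D.g m)
  by_cases h : D.ok [m]
  · rw [mu_of_ok D h, mn_single]
    have hv := altc_var (D.g m) (3 / 4 * D.Nn m) (by positivity) D.n
      (A := D.setA [m]) (B := D.setB [m])
      (by
        intro x hx
        obtain ⟨h1, h2⟩ := (D.mem_setA _ x).1 hx
        rw [mn_single] at h2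
        have : D.dfA [m] x = D.Nn m - D.g m x := by simp [Lab.dfA]
        rw [this] at h2
        exact ⟨h1, by linarith⟩)
      (by
        intro x hx
        obtain ⟨h1, h2⟩ := (D.mem_setB _ x).1 hx
        rw [mn_single] at h2
        have : D.dfB [m] x = D.Nn m + D.g m x := by simp [Lab.dfB]
        rw [this] at h2
        exact ⟨h1, by linarith⟩)
    have hv' : ((D.cc [m] : ℝ) - 1) * (2 * (3 / 4 * D.Nn m)) ≤ tv D.n (D.g m) := hv
    have h3 := mul_le_mul_of_nonneg_left hv' hN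
    nlinarith [mul_nonneg hN hV]
  · rw [mu_of_not_ok D h]
    have : 0 ≤ D.Nn m ^ 2 + D.Nn m * tv D.n (D.g m) := by positivity
    simpa using this

/-- **(BV)** for a labelling -/
theorem bv_lab (L : ℕ) :
    C.E (2 ^ L) (fun l => supJ D.n (sm D.g l) ^ 2) ≤
      ((2 : ℝ) ^ L) ^ 2 * C.E 1 (fun l => (l.map (fun m => D.Nn m ^ 2)).sum) -
        ((2 : ℝ) ^ L / 16) * (C.E 1 (fun l => (l.map (fun m => D.Nn m ^ 2)).sum) -
          4 * (5 * C.E 1 (fun l => (l.map (fun m => D.Nn m ^ 2)).sum) +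
            4 * C.E 1 (fun l => (l.map (fun m => D.Nn m * tv D.n (D.g m))).sum)) /
              ((L : ℝ) + 1)) := by
  refine BV27.bv_abstract C D.Nn (fun m => tv D.n (D.g m)) (fun l => supJ D.n (sm D.g l))
    D.mn D.mx D.mu D.sgl D.cc (pot D) D.Nn_nonneg (fun l => supJ_nonneg _ _) (supJ_sm_le D)
    ?_ ?_ ?_ (link D) (one D) (one' D) L
  · intro l hl
    obtain ⟨m, hm, hm'⟩ := D.mn_mem l hl
    exact List.mem_map.2 ⟨m, hm, hm'⟩
  · intro l hl
    obtain ⟨m, hm, hm'⟩ := D.mx_mem l hl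
    exact List.mem_map.2 ⟨m, hm, hm'⟩
  · intro l x hx
    obtain ⟨m, hm, rfl⟩ := List.mem_map.1 hx
    exact ⟨D.mn_le l m hm, D.le_mx l m hm⟩

/-- **(BV)**, in the form needed by `BV/Top.lean` -/
theorem bvProp : BVProp := by
  intro S M _ _ C n g hg L
  have key := bv_lab (lab C n g hg) L
  have e1 : C.E 1 (fun l => (l.map (fun m => (lab C n g hg).Nn m ^ 2)).sum) =
      C.E 1 (fun l => supJ n (sm g l) ^ 2) := by
    apply E_congr
    intro l hl
    obtain ⟨m, rfl⟩ := List.length_eq_one_iff.1 hl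
    simp [sm, lab]
  have e2 : C.E 1 (fun l => (l.map (fun m => (lab C n g hg).Nn m *
      tv (lab C n g hg).n ((lab C n g hg).g m))).sum) =
      C.E 1 (fun l => supJ n (sm g l) * tv n (sm g l)) := by
    apply E_congr
    intro l hl
    obtain ⟨m, rfl⟩ := List.length_eq_one_iff.1 hl
    simp [sm, lab]
  rw [e1, e2] at key
  exact key

end Vale.Agent.P125.BV.C43
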