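import Mathlib

/-!
# P125 (BV) : the pointwise deficit inequality and the telescoping lemma (pure real statements)
-/

namespace Vale.Agent.P125.BV.W89d

open Finset

/-- pointwise deficit inequality, indexed form -/
theorem deficit_fin {ι : Type*} [Fintype ι] (N : ι → ℝ) (hN : ∀ r, 0 ≤ N r) (r0 r1 : ι)
    (h0 : ∀ r, N r0 ≤ N r) (h1 : ∀ r, N r ≤ N r1) (T : ℝ) (hT0 : 0 ≤ T) (hT : T ≤ ∑ r, N r) :
    (1 / 16) * ∑ r, N r ^ 2 -
        (if 0 < N r0 ∧ N r1 ≤ 2 * N r0 ∧ ∑ r, N r - T ≤ N r0 / 4 then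
          (1 / 4) * (Fintype.card ι : ℝ) * N r0 ^ 2 else 0) ≤
      (Fintype.card ι : ℝ) * ∑ r, N r ^ 2 - T ^ 2 := by
  classical
  set M : ℝ := (Fintype.card ι : ℝ) with hM
  set S : ℝ := ∑ r, N r with hS
  set Q : ℝ := ∑ r, N r ^ 2 with hQ
  set mn := N r0 with hmn
  set mx := N r1 with hmx
  have hM1 : 1 ≤ M := by
    rw [hM]
    have : 0 < Fintype.card ι := Fintype.card_pos_iff.2 ⟨r0⟩
    exact_mod_cast this
  have hmn0 : 0 ≤ mn := hN r0
  have hmx0 : 0 ≤ mx := hN r1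
  have hCS : S ^ 2 ≤ M * Q := by
    have := sq_sum_le_card_mul_sum_sq (s := (Finset.univ : Finset ι)) (f := N)
    simpa [hM, hS, hQ, Finset.card_univ] using this
  have hQ0 : 0 ≤ Q := Finset.sum_nonneg (fun r _ => sq_nonneg _)
  have hQmx : Q ≤ M * mx ^ 2 := by
    have : Q ≤ ∑ _r : ι, mx ^ 2 :=
      Finset.sum_le_sum (fun r _ => pow_le_pow_left₀ (hN r) (h1 r) 2)
    simpa [hM, Finset.card_univ] using this
  have hSmn : M * mn ≤ S := by
    have : ∑ _r : ι, mn ≤ S := Finset.sum_le_sum (fun r _ => h0 r)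
    simpa [hM, Finset.card_univ] using this
  have hS0 : 0 ≤ S := Finset.sum_nonneg (fun r _ => hN r)
  have hTS : T ^ 2 ≤ S ^ 2 := pow_le_pow_left₀ hT0 hT 2
  -- the spread case
  have hA : 2 * mn < mx → Q / 8 ≤ M * Q - S ^ 2 := by
    intro hlt
    have hne : r0 ≠ r1 := by
      intro h
      have : mn = mx := by rw [hmn, hmx, h]
      nlinarith
    have e1 : ∑ r, (M * N r - S) ^ 2 = M * (M * Q - S ^ 2) := by
      have : ∀ r, (M * N r - S) ^ 2 = M ^ 2 * N r ^ 2 - 2 * M * S * N r + S ^ 2 := fun r => by ring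
      simp only [this]
      rw [Finset.sum_add_distrib, Finset.sum_sub_distrib, ← Finset.mul_sum, ← Finset.mul_sum,
        Finset.sum_const, Finset.card_univ, nsmul_eq_mul, ← hM, ← hS, ← hQ]
      ring
    have e2 : (M * mn - S) ^ 2 + (M * mx - S) ^ 2 ≤ ∑ r, (M * N r - S) ^ 2 := by
      have h3 : ∑ r ∈ ({r0, r1} : Finset ι), (M * N r - S) ^ 2 ≤ ∑ r, (M * N r - S) ^ 2 :=
        Finset.sum_le_sum_of_subset_of_nonneg (Finset.subset_univ _) (fun r _ _ => sq_nonneg _)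
      rwa [Finset.sum_pair hne] at h3
    have e3 : M ^ 2 * mx ^ 2 / 8 ≤ (M * mn - S) ^ 2 + (M * mx - S) ^ 2 := by
      have h4 : (M * mx - M * mn) ^ 2 / 2 ≤ (M * mn - S) ^ 2 + (M * mx - S) ^ 2 := by
        nlinarith [sq_nonneg ((M * mn - S) + (M * mx - S))]
      have h5 : M * (mx / 2) ≤ M * mx - M * mn := by nlinarith
      have h6 : (M * (mx / 2)) ^ 2 ≤ (M * mx - M * mn) ^ 2 :=
        pow_le_pow_left₀ (by positivity) h5 2
      nlinarith
    have e4 : M * (M * mx ^ 2 / 8) ≤ M * (M * Q - S ^ 2) := by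
      calc M * (M * mx ^ 2 / 8) = M ^ 2 * mx ^ 2 / 8 := by ring
        _ ≤ _ := le_trans e3 (le_trans e2 (le_of_eq e1))
    have e5 : M * mx ^ 2 / 8 ≤ M * Q - S ^ 2 := le_of_mul_le_mul_left e4 (by linarith)
    linarith
  split_ifs with hok
  · obtain ⟨hp, h2, _⟩ := hok
    have : mx ^ 2 ≤ (2 * mn) ^ 2 := pow_le_pow_left₀ hmx0 h2 2
    have h7 : M * mx ^ 2 ≤ M * (2 * mn) ^ 2 := mul_le_mul_of_nonneg_left this (by linarith)
    nlinarith
  · rw [sub_zero]
    by_cases hlt : 2 * mn < mx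
    · have := hA hlt
      linarith
    · have hle : mx ≤ 2 * mn := not_lt.1 hlt
      rcases hmn0.eq_or_lt with hz | hp
      · have hmxz : mx = 0 := by linarith
        have hQz : Q = 0 := by
          have : Q ≤ 0 := by rw [hmxz] at hQmx; simpa using hQmx
          linarith
        have hSz : S ^ 2 ≤ 0 := by rw [hQz] at hCS; simpa using hCS
        rw [hQz]
        nlinarith
      · have hD : mn / 4 < S - T := by
          by_contra hcon
          exact hok ⟨hp, hle, not_lt.1 hcon⟩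
        have h8 : M * mn ^ 2 / 4 ≤ S ^ 2 - T ^ 2 := by
          have h9 : mn / 4 * (M * mn) ≤ (S - T) * (S + T) :=
            mul_le_mul hD.le (by linarith) (by positivity) (by linarith)
          nlinarith
        have h10 : mx ^ 2 ≤ (2 * mn) ^ 2 := pow_le_pow_left₀ hmx0 hle 2
        have h11 : M * mx ^ 2 ≤ M * (2 * mn) ^ 2 := mul_le_mul_of_nonneg_left h10 (by linarith)
        nlinarith

/-- pointwise deficit inequality, list form -/
theorem deficit_list (L : List ℝ) (hL : ∀ a ∈ L, 0 ≤ a) (mn mx T : ℝ) (h1 : ∀ a ∈ L, mn ≤ a)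
    (h2 : mn ∈ L) (h3 : ∀ a ∈ L, a ≤ mx) (h4 : mx ∈ L) (hT0 : 0 ≤ T) (hT : T ≤ L.sum) :
    (1 / 16) * (L.map (fun a => a ^ 2)).sum -
        (if 0 < mn ∧ mx ≤ 2 * mn ∧ L.sum - T ≤ mn / 4 then
          (1 / 4) * (L.length : ℝ) * mn ^ 2 else 0) ≤
      (L.length : ℝ) * (L.map (fun a => a ^ 2)).sum - T ^ 2 := by
  obtain ⟨i0, hi0⟩ := List.get_of_mem h2
  obtain ⟨i1, hi1⟩ := List.get_of_mem h4
  have e1 : ∑ i : Fin L.length, L.get i = L.sum := by
    simp
  have e2 : ∑ i : Fin L.length, (L.get i) ^ 2 = (L.map (fun a => a ^ 2)).sum := by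
    simpa using Fin.sum_univ_fun_getElem L (fun a => a ^ 2)
  have h := deficit_fin (fun i : Fin L.length => L.get i) (fun i => hL _ (List.get_mem L i)) i0 i1
    (fun i => by rw [hi0]; exact h1 _ (List.get_mem L i))
    (fun i => by rw [hi1]; exact h3 _ (List.get_mem L i)) T hT0 (by rw [e1]; exact hT)
  simp only [e1, e2, hi0, hi1, Fintype.card_fin] at h
  exact h

/-- telescoping of the potential recursion -/
theorem telescope (Φ Q : ℕ → ℝ) (hΦ : ∀ i, 0 ≤ Φ i) (hQ : ∀ i, Q (i + 1) ≤ Q i)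
    (hrec : ∀ i, Φ (i + 1) ≤ Φ i - Q (i + 1) / 2 + Q i / 4) (L : ℕ) :
    Q L ≤ (4 * Φ 0 + Q 0) / ((L : ℝ) + 1) := by
  have key : ∀ i : ℕ, Φ i + ((i : ℝ) + 1) / 4 * Q i ≤ Φ 0 + Q 0 / 4 := by
    intro i
    induction i with
    | zero => simp; linarith
    | succ i ih =>
      have h1 := hrec i
      have h2 := hQ i
      have h3 : (i : ℝ) / 4 * Q (i + 1) ≤ (i : ℝ) / 4 * Q i :=
        mul_le_mul_of_nonneg_left h2 (by positivity)
      push_cast
      nlinarith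
  have h := key L
  have h0 := hΦ L
  rw [le_div_iff₀ (by positivity)]
  nlinarith

end Vale.Agent.P125.BV.W89d
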