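import Mathlib

/-! # Pointwise deficit inequality (file 5 of the (BV) plan)

`L` is the list of the numbers `N_r` along a path, `T` the norm of the sum.
Everything here is about lists of real numbers only. -/

namespace Vale.Agent.P125.BV.D67

lemma single_le_sum_map (L : List ℝ) (g : ℝ → ℝ) (hg : ∀ x, 0 ≤ g x) (x : ℝ) (hx : x ∈ L) :
    g x ≤ (L.map g).sum := by
  refine List.single_le_sum ?_ _ (List.mem_map_of_mem hx)
  intro z hz
  obtain ⟨w, _, rfl⟩ := List.mem_map.1 hz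
  exact hg w

lemma sum_map_nonneg (L : List ℝ) (g : ℝ → ℝ) (hg : ∀ x, 0 ≤ g x) : 0 ≤ (L.map g).sum := by
  refine List.sum_nonneg ?_
  intro z hz
  obtain ⟨w, _, rfl⟩ := List.mem_map.1 hz
  exact hg w

/-- two distinct values of a list -/
lemma two_le_sum_map (L : List ℝ) (g : ℝ → ℝ) (hg : ∀ x, 0 ≤ g x) (x y : ℝ)
    (hx : x ∈ L) (hy : y ∈ L) (hxy : x ≠ y) : g x + g y ≤ (L.map g).sum := by
  induction L with
  | nil => simp at hx
  | cons a L ih =>
    rw [List.map_cons, List.sum_cons]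
    rcases List.mem_cons.1 hx with rfl | hx'
    · rcases List.mem_cons.1 hy with rfl | hy'
      · exact absurd rfl hxy
      · have := single_le_sum_map L g hg y hy'
        linarith
    · rcases List.mem_cons.1 hy with rfl | hy'
      · have := single_le_sum_map L g hg x hx'
        linarith
      · have := ih hx' hy'
        have := hg a
        linarith

lemma sum_sq_shift (L : List ℝ) (a : ℝ) :
    (L.map (fun x => (x - a) ^ 2)).sum
      = (L.map (fun x => x ^ 2)).sum - 2 * a * L.sum + (L.length : ℝ) * a ^ 2 := by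
  induction L with
  | nil => simp
  | cons b L ih =>
    simp only [List.map_cons, List.sum_cons, List.length_cons, Nat.cast_add, Nat.cast_one]
    rw [ih]
    ring

/-- variance identity -/
lemma len_sum_sq_sub (L : List ℝ) (a : ℝ) :
    (L.length : ℝ) * (L.map (fun x => x ^ 2)).sum - L.sum ^ 2
      = (L.length : ℝ) * (L.map (fun x => (x - a) ^ 2)).sum - (L.sum - (L.length : ℝ) * a) ^ 2 := by
  rw [sum_sq_shift]
  ring

lemma sum_sq_le_len (L : List ℝ) (hne : L ≠ []) :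
    ∃ a : ℝ, (L.length : ℝ) * (L.map (fun x => x ^ 2)).sum - L.sum ^ 2
      = (L.length : ℝ) * (L.map (fun x => (x - a) ^ 2)).sum := by
  have hM : (0 : ℝ) < (L.length : ℝ) := by
    exact_mod_cast List.length_pos_iff.2 hne
  refine ⟨L.sum / (L.length : ℝ), ?_⟩
  rw [len_sum_sq_sub L (L.sum / (L.length : ℝ)), mul_div_cancel₀ _ hM.ne']
  ring

/-- Cauchy-Schwarz -/
lemma sq_sum_le (L : List ℝ) :
    L.sum ^ 2 ≤ (L.length : ℝ) * (L.map (fun x => x ^ 2)).sum := by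
  rcases eq_or_ne L [] with rfl | hne
  · simp
  · obtain ⟨a, ha⟩ := sum_sq_le_len L hne
    have h1 : 0 ≤ (L.length : ℝ) * (L.map (fun x => (x - a) ^ 2)).sum :=
      mul_nonneg (Nat.cast_nonneg _) (sum_map_nonneg L _ (fun x => sq_nonneg _))
    linarith

lemma sum_sq_le_max (L : List ℝ) (hL : ∀ x ∈ L, 0 ≤ x) (mx : ℝ) (hmx : ∀ x ∈ L, x ≤ mx) :
    (L.map (fun x => x ^ 2)).sum ≤ (L.length : ℝ) * mx ^ 2 := by
  have h := List.sum_le_card_nsmul (L.map (fun x => x ^ 2)) (mx ^ 2) (by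
    intro z hz
    obtain ⟨w, hw, rfl⟩ := List.mem_map.1 hz
    exact pow_le_pow_left₀ (hL w hw) (hmx w hw) 2)
  rwa [List.length_map, nsmul_eq_mul] at h

lemma len_min_le_sum (L : List ℝ) (mn : ℝ) (hmn : ∀ x ∈ L, mn ≤ x) :
    (L.length : ℝ) * mn ≤ L.sum := by
  have h := List.card_nsmul_le_sum L mn hmn
  rwa [nsmul_eq_mul] at h

lemma sum_le_len_max (L : List ℝ) (mx : ℝ) (hmx : ∀ x ∈ L, x ≤ mx) :
    L.sum ≤ (L.length : ℝ) * mx := by
  have h := List.sum_le_card_nsmul L mx hmx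
  rwa [nsmul_eq_mul] at h

/-- the deficit is always nonnegative -/
lemma deficit_nonneg (L : List ℝ) (T : ℝ) (hT0 : 0 ≤ T) (hT : T ≤ L.sum) :
    0 ≤ (L.length : ℝ) * (L.map (fun x => x ^ 2)).sum - T ^ 2 := by
  have h1 := sq_sum_le L
  have h2 : T ^ 2 ≤ L.sum ^ 2 := pow_le_pow_left₀ hT0 hT 2
  linarith

/-- **not ok** paths have a large deficit -/
theorem deficit_of_not_ok (L : List ℝ) (hL : ∀ x ∈ L, 0 ≤ x) (mn mx T : ℝ)
    (hmn : mn ∈ L) (hmx : mx ∈ L) (hmn' : ∀ x ∈ L, mn ≤ x) (hmx' : ∀ x ∈ L, x ≤ mx)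
    (hT0 : 0 ≤ T) (hT : T ≤ L.sum)
    (hnot : ¬ (0 < mn ∧ mx ≤ 2 * mn ∧ L.sum - T ≤ mn / 4)) :
    (1 / 16) * (L.map (fun x => x ^ 2)).sum
      ≤ (L.length : ℝ) * (L.map (fun x => x ^ 2)).sum - T ^ 2 := by
  have hne : L ≠ [] := List.ne_nil_of_mem hmn
  have hM : (0 : ℝ) ≤ (L.length : ℝ) := Nat.cast_nonneg _
  have hmn0 : 0 ≤ mn := hL mn hmn
  have hmx0 : 0 ≤ mx := hL mx hmx
  have hsq := sum_sq_le_max L hL mx hmx'
  have hsq0 : 0 ≤ (L.map (fun x => x ^ 2)).sum := sum_map_nonneg L _ (fun x => sq_nonneg _)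
  have hTS : T ^ 2 ≤ L.sum ^ 2 := pow_le_pow_left₀ hT0 hT 2
  have hCS := sq_sum_le L
  by_cases hA : mx ≤ 2 * mn
  · by_cases hB : 0 < mn
    · -- case C
      have hD : mn / 4 < L.sum - T := by
        by_contra hcon
        exact hnot ⟨hB, hA, not_lt.1 hcon⟩
      have hS := len_min_le_sum L mn hmn'
      have hS0 : 0 ≤ L.sum := le_trans hT0 hT
      have h1 : mn / 4 * ((L.length : ℝ) * mn) ≤ (L.sum - T) * (L.sum + T) := by
        apply mul_le_mul hD.le (by linarith) (by positivity) (by linarith)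
      have h2 : (L.length : ℝ) * mx ^ 2 ≤ (L.length : ℝ) * (4 * mn ^ 2) := by
        apply mul_le_mul_of_nonneg_left _ hM
        nlinarith
      nlinarith
    · -- everything vanishes
      have hmn1 : mn = 0 := le_antisymm (not_lt.1 hB) hmn0
      have hmx1 : mx = 0 := le_antisymm (by linarith) hmx0
      have hS := sum_le_len_max L mx hmx'
      rw [hmx1] at hS hsq
      have hT1 : T = 0 := le_antisymm (by linarith) hT0
      have hsq1 : (L.map (fun x => x ^ 2)).sum = 0 := le_antisymm (by simpa using hsq) hsq0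
      rw [hsq1, hT1]
      simp
  · -- case A
    have hA' : 2 * mn < mx := not_le.1 hA
    have hne' : mn ≠ mx := by
      intro h
      rw [h] at hA'
      linarith
    obtain ⟨a, ha⟩ := sum_sq_le_len L hne
    have h2 := two_le_sum_map L (fun x => (x - a) ^ 2) (fun x => sq_nonneg _) mn mx hmn hmx hne'
    have h3 : mx ^ 2 / 8 ≤ (mn - a) ^ 2 + (mx - a) ^ 2 := by
      nlinarith [sq_nonneg (mn + mx - 2 * a), sq_nonneg (mx - 2 * mn)]
    have h4 : (L.length : ℝ) * (mx ^ 2 / 8)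
        ≤ (L.length : ℝ) * (L.map (fun x => (x - a) ^ 2)).sum :=
      mul_le_mul_of_nonneg_left (le_trans h3 h2) hM
    nlinarith

/-- on **ok** paths the energy is controlled by the minimum -/
theorem energy_of_ok (L : List ℝ) (hL : ∀ x ∈ L, 0 ≤ x) (mn mx : ℝ)
    (hmx' : ∀ x ∈ L, x ≤ mx) (hmn0 : 0 ≤ mn) (hmx0 : 0 ≤ mx) (hA : mx ≤ 2 * mn) :
    (L.map (fun x => x ^ 2)).sum ≤ 4 * (L.length : ℝ) * mn ^ 2 := by
  have hsq := sum_sq_le_max L hL mx hmx'
  have hM : (0 : ℝ) ≤ (L.length : ℝ) := Nat.cast_nonneg _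
  have h2 : (L.length : ℝ) * mx ^ 2 ≤ (L.length : ℝ) * (4 * mn ^ 2) := by
    apply mul_le_mul_of_nonneg_left _ hM
    nlinarith
  linarith

open Classical in
/-- **Pointwise deficit inequality.** -/
theorem deficit_pointwise (L : List ℝ) (hL : ∀ x ∈ L, 0 ≤ x) (mn mx T : ℝ)
    (hmn : mn ∈ L) (hmx : mx ∈ L) (hmn' : ∀ x ∈ L, mn ≤ x) (hmx' : ∀ x ∈ L, x ≤ mx)
    (hT0 : 0 ≤ T) (hT : T ≤ L.sum) :
    (1 / 16) * ((L.map (fun x => x ^ 2)).sum
        - 4 * (L.length : ℝ) * (mn ^ 2 *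
            (if (0 < mn ∧ mx ≤ 2 * mn ∧ L.sum - T ≤ mn / 4) then 1 else 0)))
      ≤ (L.length : ℝ) * (L.map (fun x => x ^ 2)).sum - T ^ 2 := by
  split_ifs with hok
  · have h1 := energy_of_ok L hL mn mx hmx' (hL mn hmn) (hL mx hmx) hok.2.1
    have h2 := deficit_nonneg L T hT0 hT
    linarith
  · have h1 := deficit_of_not_ok L hL mn mx T hmn hmx hmn' hmx' hT0 hT hok
    linarith

end Vale.Agent.P125.BV.D67
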