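import Vale.Agent.P125.BV.Main89
import Vale.Agent.P125.BV.Top

set_option linter.unusedSectionVars false
set_option linter.unusedVariables false

/-!
# P125: `BVProp` holds, hence (alpha) in function form
-/

namespace Vale.Agent.P125.BV.W89

open scoped BigOperators
open Vale.Agent.P125.Dich Vale.Agent.P125.Char

lemma sm_apply {M : Type} (g : M → ℕ → ℝ) (l : List M) (k : ℕ) :
    sm g l k = (l.map (fun m => g m k)).sum := by
  induction l with
  | nil => simp [sm]
  | cons m l ih =>
    have h : sm g (m :: l) = g m + sm g l := by simp [sm]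
    rw [h, Pi.add_apply, ih]
    simp

lemma supJ_eq (n : ℕ) (h : ℕ → ℝ) : supJ n h = Jn n h := rfl

theorem bvProp : BVProp := by
  intro S M _ _ C n g hg L
  have hg' : ∀ m k, g (C.inv m) k = - g m k := by
    intro m k
    rw [hg]
    rfl
  have key := BV_mark C g n hg' L
  have e1 : C.E (2 ^ L) (fun l => supJ n (sm g l) ^ 2) = C.E (2 ^ L) (fun l => Tn g n l ^ 2) := by
    apply E_congr
    intro l _
    have h : sm g l = fun k => (l.map (fun m => g m k)).sum := funext (sm_apply g l)
    rw [h]
    rfl
  have e2 : C.E 1 (fun l => supJ n (sm g l) ^ 2)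
      = C.E 1 (fun l => (l.map (fun m => Nn g n m ^ 2)).sum) := by
    apply E_congr
    intro l hl
    obtain ⟨m, rfl⟩ := List.length_eq_one_iff.1 hl
    have h : sm g [m] = g m := by simp [sm]
    rw [h]
    simp only [List.map_cons, List.map_nil, List.sum_cons, List.sum_nil, add_zero]
    rfl
  have e3 : C.E 1 (fun l => supJ n (sm g l) * tv n (sm g l))
      = C.E 1 (fun l => (l.map (fun m => Nn g n m * Vn g n m)).sum) := by
    apply E_congr
    intro l hl
    obtain ⟨m, rfl⟩ := List.length_eq_one_iff.1 hl
    have h : sm g [m] = g m := by simp [sm]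
    rw [h]
    simp only [List.map_cons, List.map_nil, List.sum_cons, List.sum_nil, add_zero]
    rfl
  rw [e1, e2, e3]
  exact key

/-- (alpha) in function form -/
theorem alpha : ∀ ε : ℝ, 0 < ε → ∃ t : ℕ, 1 ≤ t ∧ RFun t ε := alpha_of_BV bvProp

end Vale.Agent.P125.BV.W89
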