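import Vale.Agent.P125.BV.Main13
import Vale.Agent.P125.Alpha.AllT

set_option linter.unusedSectionVars false
set_option linter.unusedVariables false

/-!
# P125 (alpha): final statements in plain terms (one time; all large times)
-/

namespace Vale.Agent.P125.BV.M13

open scoped BigOperators
open Vale.Agent.P125.Dich Vale.Agent.P125.BV

lemma supJ_add_le (n : ℕ) (h h' : ℕ → ℝ) : supJ n (h + h') ≤ supJ n h + supJ n h' := by
  unfold supJ
  apply Finset.sup'_le
  intro k hk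
  have h1 : |h k| ≤ (Finset.range (n + 1)).sup' ⟨0, by simp⟩ (fun k => |h k|) :=
    Finset.le_sup' (fun k => |h k|) hk
  have h2 : |h' k| ≤ (Finset.range (n + 1)).sup' ⟨0, by simp⟩ (fun k => |h' k|) :=
    Finset.le_sup' (fun k => |h' k|) hk
  rw [Pi.add_apply]
  exact (abs_add_le _ _).trans (add_le_add h1 h2)

/-- the largest absolute value of a partial sum, as a supremum over `Fin n` -/
lemma iSup_le_supJ {n : ℕ} (v : Fin n → ℝ) :
    (⨆ k : Fin n, |∑ l ∈ Finset.univ.filter (fun l : Fin n => l ≤ k), v l|) ≤ supJ n (pre v) := by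
  apply Real.iSup_le _ (supJ_nonneg _ _)
  intro k
  have e : ∑ l ∈ Finset.univ.filter (fun l : Fin n => l ≤ k), v l = pre v (k.val + 1) := by
    unfold pre
    rw [Finset.sum_filter]
    refine Finset.sum_congr rfl fun l _ => ?_
    have : (l ≤ k) ↔ (l.val < k.val + 1) := by
      rw [Fin.le_def]
      omega
    simp only [this]
  rw [e]
  unfold supJ
  exact Finset.le_sup' (fun k => |pre v k|)
    (Finset.mem_range.2 (by have := k.isLt; omega))

/-- (alpha) for all large times -/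
theorem alpha_large : ∀ ε : ℝ, 0 < ε → ∃ t0 : ℕ, 1 ≤ t0 ∧ ∀ T : ℕ, t0 ≤ T → RFun T (ε ^ 2) := by
  intro ε hε
  set κ : ℝ := ε / 2 with hκ
  have hκ0 : 0 < κ := by rw [hκ]; positivity
  obtain ⟨t1, ht1, hR⟩ := alpha (κ ^ 2) (by positivity)
  refine ⟨max t1 ⌈(t1 : ℝ) / κ⌉₊, le_trans ht1 (le_max_left _ _), ?_⟩
  intro T hT n S _ _ μ P hc f
  have hT1 : t1 ≤ T := le_trans (le_max_left _ _) hT
  have hT2 : (t1 : ℝ) ≤ κ * T := by
    have h1 : ⌈(t1 : ℝ) / κ⌉₊ ≤ T := le_trans (le_max_right _ _) hT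
    have h2 : (t1 : ℝ) / κ ≤ (T : ℝ) := le_trans (Nat.le_ceil _) (by exact_mod_cast h1)
    rw [div_le_iff₀ hκ0] at h2
    linarith
  have key := Alpha.AllT.all_large hc (fun v : Fin n → ℝ => supJ n (pre v)) (fun v => n1 v)
    (fun v => supJ_nonneg _ _)
    (fun x y => by
      rw [pre_add]
      exact supJ_add_le n _ _)
    (fun v => supJ_pre_le v) f t1 ht1 κ hκ0
    (by
      have h := hR n S μ P hc f
      unfold Alpha.AllT.En
      rw [pow_one]
      refine h.trans (le_of_eq ?_)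
      ring)
    T hT1 hT2
  unfold Alpha.AllT.En at key
  rw [pow_one] at key
  refine key.trans (le_of_eq ?_)
  rw [hκ]
  ring

/-- **(alpha), plain form, all large times.** -/
theorem final_large : ∀ ε : ℝ, 0 < ε → ∃ t0 : ℕ, 1 ≤ t0 ∧ ∀ t : ℕ, t0 ≤ t →
    ∀ (n : ℕ) (S : Type) [Fintype S] [DecidableEq S] (μ : S → ℝ) (P : Matrix S S ℝ),
      (∀ i, 0 ≤ μ i) → ∑ i, μ i = 1 → (∀ i j, 0 ≤ P i j) → (∀ i, ∑ j, P i j = 1) →
      (∀ i j, μ i * P i j = μ j * P j i) → ∀ f : S → Fin n → ℝ,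
        ∑ i, ∑ j, μ i * (P ^ t) i j *
            (⨆ k : Fin n, |∑ l ∈ Finset.univ.filter (fun l : Fin n => l ≤ k), (f j l - f i l)|) ^ 2 ≤
          ε ^ 2 * (t : ℝ) ^ 2 * ∑ i, ∑ j, μ i * P i j * (∑ l, |f j l - f i l|) ^ 2 := by
  intro ε hε
  obtain ⟨t0, ht0, hR⟩ := alpha_large ε hε
  refine ⟨t0, ht0, ?_⟩
  intro t ht n S _ _ μ P h0 h1 h2 h3 h4 f
  have hc : IsChain μ P := ⟨h0, h1, h2, h3, h4⟩
  have key := hR t ht n S μ P hc f
  have hpow := isChain_pow hc t
  refine le_trans ?_ key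
  refine Finset.sum_le_sum fun i _ => Finset.sum_le_sum fun j _ => ?_
  apply mul_le_mul_of_nonneg_left _ (mul_nonneg (h0 i) (hpow.2.2.1 i j))
  apply pow_le_pow_left₀ (Real.iSup_nonneg fun k => abs_nonneg _)
  exact iSup_le_supJ (f j - f i)

end Vale.Agent.P125.BV.M13
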