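import Vale.Agent.P125.BV.Win89

set_option linter.unusedSectionVars false
set_option linter.unusedVariables false

/-!
# P125, (BV): windows, reversal and single marks
-/

namespace Vale.Agent.P125.BV.W89

open scoped BigOperators

variable {M : Type} (g : M → ℕ → ℝ) (n : ℕ) (inv : M → M)

lemma Nn_inv (hg : ∀ m k, g (inv m) k = - g m k) (m : M) : Nn g n (inv m) = Nn g n m :=
  Jn_neg n (g m) (g (inv m)) (hg m)

lemma mn_rev (hg : ∀ m k, g (inv m) k = - g m k) (l : List M) :
    mn g n ((l.map inv).reverse) = mn g n l :=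
  mnL_rev _ inv (Nn_inv g n inv hg) l

lemma mx_rev (hg : ∀ m k, g (inv m) k = - g m k) (l : List M) :
    mx g n ((l.map inv).reverse) = mx g n l :=
  mxL_rev _ inv (Nn_inv g n inv hg) l

lemma setA_rev (hg : ∀ m k, g (inv m) k = - g m k) (l : List M) :
    setA g n ((l.map inv).reverse) = setB g n l := by
  ext k
  rw [mem_setA, mem_setB, mn_rev g n inv hg, sum_map_rev]
  have : (fun m => Nn g n (inv m) - g (inv m) k) = fun m => Nn g n m + g m k := by
    funext m
    rw [Nn_inv g n inv hg, hg]
    ring
  rw [this]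

lemma setB_rev (hg : ∀ m k, g (inv m) k = - g m k) (l : List M) :
    setB g n ((l.map inv).reverse) = setA g n l := by
  ext k
  rw [mem_setA, mem_setB, mn_rev g n inv hg, sum_map_rev]
  have : (fun m => Nn g n (inv m) + g (inv m) k) = fun m => Nn g n m - g m k := by
    funext m
    rw [Nn_inv g n inv hg, hg]
    ring
  rw [this]

lemma ok_rev (hg : ∀ m k, g (inv m) k = - g m k) (l : List M) :
    ok g n ((l.map inv).reverse) ↔ ok g n l := by
  unfold ok
  rw [mn_rev g n inv hg, mx_rev g n inv hg, setA_rev g n inv hg, setB_rev g n inv hg,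
    Finset.union_comm]

lemma mu_rev (hg : ∀ m k, g (inv m) k = - g m k) (l : List M) :
    mu g n ((l.map inv).reverse) = mu g n l := by
  unfold mu
  rw [mn_rev g n inv hg]
  by_cases h : ok g n l
  · rw [if_pos h, if_pos ((ok_rev g n inv hg l).2 h)]
  · rw [if_neg h, if_neg (fun h' => h ((ok_rev g n inv hg l).1 h'))]

lemma ok_ne_nil {l : List M} (h : ok g n l) : l ≠ [] := by
  rintro rfl
  have h1 := h.1
  unfold mn mnL at h1
  simp at h1

/-- fact (c) -/
lemma psi_rev (hg : ∀ m k, g (inv m) k = - g m k) (l : List M) :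
    psi g n ((l.map inv).reverse) = - psi g n l := by
  unfold psi
  rw [mu_rev g n inv hg]
  by_cases h : ok g n l
  · unfold sgl
    rw [setA_rev g n inv hg, setB_rev g n inv hg,
      sg_swap (disj g n (ok_ne_nil g n h) h.1) h.2.2]
    ring
  · unfold mu
    rw [if_neg h]
    ring

/-- fact (e) -/
lemma phi_single (m : M) :
    phi g n [m] ≤ Nn g n m ^ 2 + Nn g n m * Vn g n m := by
  have hN := Nn_nonneg g n m
  have hV : 0 ≤ Vn g n m := Finset.sum_nonneg fun _ _ => abs_nonneg _
  have hmn : mn g n [m] = Nn g n m := mnL_singleton _ m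
  have hvar := altc_var (g m) (3 / 4 * Nn g n m) (by positivity) n
    (A := setA g n [m]) (B := setB g n [m])
    (by
      intro x hx
      rw [mem_setA, hmn] at hx
      refine ⟨hx.1, ?_⟩
      have := hx.2
      simp only [List.map_cons, List.map_nil, List.sum_cons, List.sum_nil] at this
      linarith)
    (by
      intro x hx
      rw [mem_setB, hmn] at hx
      refine ⟨hx.1, ?_⟩
      have := hx.2
      simp only [List.map_cons, List.map_nil, List.sum_cons, List.sum_nil] at this
      linarith)
  have hvar' : ((cc g n [m] : ℝ) - 1) * (2 * (3 / 4 * Nn g n m)) ≤ Vn g n m := hvar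
  unfold phi mu
  split_ifs with h
  · rw [hmn]
    nlinarith [mul_le_mul_of_nonneg_left hvar' hN, mul_nonneg hN hV]
  · have : (0 : ℝ) ^ 2 * (cc g n [m] : ℝ) = 0 := by ring
    rw [this]
    positivity

lemma mu_single_le (m : M) : mu g n [m] ^ 2 ≤ Nn g n m ^ 2 := by
  have hmn : mn g n [m] = Nn g n m := mnL_singleton _ m
  unfold mu
  split_ifs with h
  · rw [hmn]
  · have := sq_nonneg (Nn g n m)
    simpa using this

end Vale.Agent.P125.BV.W89
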