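import Vale.Agent.P125.BV.Abs27
import Vale.Agent.P125.BV.Win89b
import Vale.Agent.P125.BV.Top

set_option linter.unusedSectionVars false
set_option linter.unusedVariables false

/-!
# P125: glue of the pieces: (BV) for profile valued mark functions, and (alpha)

windows = `BV/Win89`, `BV/Win89b`; potential and abstract assembly = `BV/Abs27`;
function form and iteration = `BV/Top`.
-/

namespace Vale.Agent.P125.BV.G67

open scoped BigOperators
open Vale.Agent.P125.Dich Vale.Agent.P125.BV Vale.Agent.P125.BV.W89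

variable {S M : Type} [Fintype S] [Fintype M]

lemma ok_of_mu_ne (g : M → ℕ → ℝ) (n : ℕ) {l : List M} (h : mu g n l ≠ 0) : ok g n l := by
  by_contra hn
  apply h
  unfold mu
  rw [if_neg hn]

/-- the window functionals satisfy the hypotheses of the potential argument -/
lemma pot (C : MChain S M) (g : M → ℕ → ℝ) (n : ℕ) (hg : ∀ m k, g (C.inv m) k = - g m k) :
    Vale.Agent.P125.BV27.Pot C (mu g n) (sgl g n) (cc g n) where
  mu_nonneg := mu_nonneg g n
  mu_rev := mu_rev g n C.inv hg
  sg_pm := fun l => sg_eq_or _ _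
  sg_rev := by
    intro l hl
    have hok := ok_of_mu_ne g n hl
    unfold sgl
    rw [setA_rev g n C.inv hg, setB_rev g n C.inv hg,
      sg_swap (disj g n (ok_ne_nil g n hok) hok.1) hok.2.2]
  mu_left := by
    intro l1 l2 h1 h2
    by_cases h : ok g n (l1 ++ l2)
    · unfold mu
      rw [if_pos h, if_pos (ok_left g n h1 h)]
      exact mnL_mono _ h1 (fun m hm => List.mem_append_left _ hm)
    · have : mu g n (l1 ++ l2) = 0 := by
        unfold mu
        rw [if_neg h]
      rw [this]
      exact mu_nonneg g n l1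
  mu_right := by
    intro l1 l2 h1 h2
    by_cases h : ok g n (l1 ++ l2)
    · unfold mu
      rw [if_pos h, if_pos (ok_right g n h2 h)]
      exact mnL_mono _ h2 (fun m hm => List.mem_append_right _ hm)
    · have : mu g n (l1 ++ l2) = 0 := by
        unfold mu
        rw [if_neg h]
      rw [this]
      exact mu_nonneg g n l2
  cc_left := by
    intro l1 l2 h1 h2 _
    exact altc_mono (setA_sub_left g n h1) (setB_sub_left g n h1)
  cc_right := by
    intro l1 l2 h1 h2 _
    exact altc_mono (setA_sub_right g n h2) (setB_sub_right g n h2)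
  sg_left := by
    intro l1 l2 h1 h2 hmu hc
    have hok := ok_of_mu_ne g n hmu
    have hok1 := ok_left g n h1 hok
    exact sg_eq_of_altc_eq (setA_sub_left g n h1) (setB_sub_left g n h1)
      (disj g n h1 hok1.1) hok.2.2 hc
  sg_right := by
    intro l1 l2 h1 h2 hmu hc
    have hok := ok_of_mu_ne g n hmu
    have hok2 := ok_right g n h2 hok
    exact sg_eq_of_altc_eq (setA_sub_right g n h2) (setB_sub_right g n h2)
      (disj g n h2 hok2.1) hok.2.2 hc

lemma abs_sum_le (g : M → ℕ → ℝ) (n : ℕ) (l : List M) {k : ℕ} (hk : k ≤ n) :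
    |(l.map (fun m => g m k)).sum| ≤ (l.map (Nn g n)).sum := by
  induction l with
  | nil => simp
  | cons m l ih =>
    simp only [List.map_cons, List.sum_cons]
    have h1 : |g m k| ≤ Nn g n m := abs_le_Jn n (g m) hk
    exact (abs_add_le _ _).trans (add_le_add h1 ih)

lemma Tn_le (g : M → ℕ → ℝ) (n : ℕ) (l : List M) : Tn g n l ≤ (l.map (Nn g n)).sum :=
  Jn_le n _ _ (fun k hk => abs_sum_le g n l hk)

lemma link (g : M → ℕ → ℝ) (n : ℕ) (l : List M) (h0 : 0 < mn g n l)
    (h1 : mx g n l ≤ 2 * mn g n l) (h2 : (l.map (Nn g n)).sum - Tn g n l ≤ mn g n l / 4) :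
    mu g n l = mn g n l := by
  have hok : ok g n l := by
    refine ⟨h0, h1, ?_⟩
    obtain ⟨k, hk, he⟩ := exists_Jn n (fun k => (l.map (fun m => g m k)).sum)
    have he' : |(l.map (fun m => g m k)).sum| = Tn g n l := he
    rcases le_total 0 (l.map (fun m => g m k)).sum with hs | hs
    · rw [abs_of_nonneg hs] at he'
      refine ⟨k, Finset.mem_union_left _ ?_⟩
      rw [mem_setA, sum_sub]
      exact ⟨hk, by linarith⟩
    · rw [abs_of_nonpos hs] at he'
      refine ⟨k, Finset.mem_union_right _ ?_⟩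
      rw [mem_setB, sum_add]
      exact ⟨hk, by linarith⟩
  unfold mu
  rw [if_pos hok]

/-- (BV) in the vocabulary of the window file -/
theorem bv_win (C : MChain S M) (g : M → ℕ → ℝ) (n : ℕ)
    (hg : ∀ m k, g (C.inv m) k = - g m k) (L : ℕ) :
    C.E (2 ^ L) (fun l => Tn g n l ^ 2) ≤
      ((2 : ℝ) ^ L) ^ 2 * C.E 1 (fun l => (l.map (fun m => Nn g n m ^ 2)).sum) -
        ((2 : ℝ) ^ L / 16) * (C.E 1 (fun l => (l.map (fun m => Nn g n m ^ 2)).sum) -
          4 * (5 * C.E 1 (fun l => (l.map (fun m => Nn g n m ^ 2)).sum) +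
            4 * C.E 1 (fun l => (l.map (fun m => Nn g n m * Vn g n m)).sum)) / ((L : ℝ) + 1)) := by
  refine Vale.Agent.P125.BV27.bv_abstract C (Nn g n) (Vn g n) (Tn g n) (mn g n) (mx g n)
    (mu g n) (sgl g n) (cc g n) (pot C g n hg) (Nn_nonneg g n) (fun l => Jn_nonneg n _)
    (Tn_le g n) ?_ ?_ ?_ ?_ ?_ (mu_single_le g n) L
  · intro l hl
    obtain ⟨m, hm, he⟩ := mnL_mem (Nn g n) hl
    exact List.mem_map.2 ⟨m, hm, he⟩
  · intro l hl
    obtain ⟨m, hm, he⟩ := mxL_mem (Nn g n) hl
    exact List.mem_map.2 ⟨m, hm, he⟩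
  · intro l x hx
    obtain ⟨m, hm, rfl⟩ := List.mem_map.1 hx
    exact ⟨mnL_le _ hm, le_mxL _ hm⟩
  · intro l _ h0 h1 h2
    exact link g n l h0 h1 h2
  · intro m
    exact phi_single g n m

lemma sm_apply (g : M → ℕ → ℝ) (l : List M) (k : ℕ) :
    sm g l k = (l.map (fun m => g m k)).sum := by
  induction l with
  | nil => simp [sm]
  | cons m l ih =>
    have h1 : sm g (m :: l) = g m + sm g l := by simp [sm]
    rw [h1, Pi.add_apply, ih]
    simp

lemma supJ_sm (g : M → ℕ → ℝ) (n : ℕ) (l : List M) : supJ n (sm g l) = Tn g n l := by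
  have h : sm g l = fun k => (l.map (fun m => g m k)).sum := by
    funext k
    exact sm_apply g l k
  rw [h]
  rfl

lemma sm_single (g : M → ℕ → ℝ) (m : M) : sm g [m] = g m := by simp [sm]

/-- **(BV)** -/
theorem bvProp : BVProp := by
  intro S M _ _ C n g hg L
  have hg' : ∀ m k, g (C.inv m) k = - g m k := by
    intro m k
    rw [hg m]
    rfl
  have key := bv_win C g n hg' L
  have e1 : C.E (2 ^ L) (fun l => supJ n (sm g l) ^ 2) = C.E (2 ^ L) (fun l => Tn g n l ^ 2) := by
    apply E_congr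
    intro l _
    rw [supJ_sm]
  have e2 : C.E 1 (fun l => supJ n (sm g l) ^ 2)
      = C.E 1 (fun l => (l.map (fun m => Nn g n m ^ 2)).sum) := by
    apply E_congr
    intro l hl
    obtain ⟨m, rfl⟩ := List.length_eq_one_iff.1 hl
    rw [sm_single]
    simp only [List.map_cons, List.map_nil, List.sum_cons, List.sum_nil, add_zero]
    rfl
  have e3 : C.E 1 (fun l => supJ n (sm g l) * tv n (sm g l))
      = C.E 1 (fun l => (l.map (fun m => Nn g n m * Vn g n m)).sum) := by
    apply E_congr
    intro l hl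
    obtain ⟨m, rfl⟩ := List.length_eq_one_iff.1 hl
    rw [sm_single]
    simp only [List.map_cons, List.map_nil, List.sum_cons, List.sum_nil, add_zero]
    rfl
  rw [e1, e2, e3]
  exact key

/-- **(alpha)**: the summing operators are uniformly sub-ballistic -/
theorem alpha : ∀ ε : ℝ, 0 < ε → ∃ t : ℕ, 1 ≤ t ∧ RFun t ε := alpha_of_BV bvProp

end Vale.Agent.P125.BV.G67
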