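import Vale.Agent.P125.BV.Top
import Vale.Agent.P125.BV.Win89b
import Vale.Agent.P125.BV.PotentialNE
import Vale.Agent.P125.BV.Assemble
import Vale.Agent.P125.BV.Deficit

set_option linter.unusedSectionVars false
set_option linter.unusedVariables false

/-!
# P125: proof of (BV) for marked reversible chains (assembly of the pieces)

windows: `Win89`, `Win89b`; potential: `PotentialNE`; deficit: `Deficit`; abstract assembly:
`Assemble`; target: `BVProp` of `Top`.
-/

namespace Vale.Agent.P125.BV.M13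

open scoped BigOperators
open Vale.Agent.P125.Dich Vale.Agent.P125.BV Vale.Agent.P125.BV.W89

variable {S M : Type} [Fintype S] [Fintype M] (C : MChain S M) (g : M → ℕ → ℝ) (n : ℕ)

lemma ok_of_mu_ne {l : List M} (h : mu g n l ≠ 0) : ok g n l := by
  by_contra hn
  apply h
  unfold mu
  rw [if_neg hn]

lemma mu_of_ok {l : List M} (h : ok g n l) : mu g n l = mn g n l := by
  unfold mu
  rw [if_pos h]

lemma mu_of_not_ok {l : List M} (h : ¬ ok g n l) : mu g n l = 0 := by
  unfold mu
  rw [if_neg h]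

/-- the window functionals satisfy the hypotheses of the potential recursion -/
lemma potNE (hg : ∀ m k, g (C.inv m) k = - g m k) : PotNE C (mu g n) (sgl g n) (cc g n) where
  mu_nonneg := mu_nonneg g n
  mu_rev := mu_rev g n C.inv hg
  sg_pm := fun l => sg_eq_or _ _
  sg_rev := by
    intro l hl
    have hok := ok_of_mu_ne g n hl
    unfold sgl
    rw [setA_rev g n C.inv hg, setB_rev g n C.inv hg]
    exact sg_swap (disj g n (ok_ne_nil g n hok) hok.1) hok.2.2
  mu_left := by
    intro l1 l2 h1 h2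
    by_cases hok : ok g n (l1 ++ l2)
    · have hok1 := ok_left g n h1 hok
      rw [mu_of_ok g n hok, mu_of_ok g n hok1]
      exact mnL_mono _ h1 (fun m hm => List.mem_append_left _ hm)
    · rw [mu_of_not_ok g n hok]
      exact mu_nonneg g n l1
  mu_right := by
    intro l1 l2 h1 h2
    by_cases hok : ok g n (l1 ++ l2)
    · have hok1 := ok_right g n h2 hok
      rw [mu_of_ok g n hok, mu_of_ok g n hok1]
      exact mnL_mono _ h2 (fun m hm => List.mem_append_right _ hm)
    · rw [mu_of_not_ok g n hok]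
      exact mu_nonneg g n l2
  cc_left := by
    intro l1 l2 h1 h2 _
    exact altc_mono (setA_sub_left g n h1) (setB_sub_left g n h1)
  cc_right := by
    intro l1 l2 h1 h2 _
    exact altc_mono (setA_sub_right g n h2) (setB_sub_right g n h2)
  sg_left := by
    intro l1 l2 h1 h2 hmu hc
    have hok := ok_of_mu_ne g n hmu
    have hok1 := ok_left g n h1 hok
    exact sg_eq_of_altc_eq (setA_sub_left g n h1) (setB_sub_left g n h1)
      (disj g n h1 hok1.1) hok.2.2 hc
  sg_right := by
    intro l1 l2 h1 h2 hmu hc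
    have hok := ok_of_mu_ne g n hmu
    have hok1 := ok_right g n h2 hok
    exact sg_eq_of_altc_eq (setA_sub_right g n h2) (setB_sub_right g n h2)
      (disj g n h2 hok1.1) hok.2.2 hc

lemma abs_sum_le (l : List M) {k : ℕ} (hk : k ≤ n) :
    |(l.map (fun m => g m k)).sum| ≤ (l.map (Nn g n)).sum := by
  induction l with
  | nil => simp
  | cons a l ih =>
    simp only [List.map_cons, List.sum_cons]
    have h1 : |g a k| ≤ Nn g n a := abs_le_Jn n (g a) hk
    exact (abs_add_le _ _).trans (add_le_add h1 ih)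

lemma Tn_le (l : List M) : Tn g n l ≤ (l.map (Nn g n)).sum :=
  Jn_le n _ _ (fun k hk => abs_sum_le g n l hk)

lemma Tn_nonneg (l : List M) : 0 ≤ Tn g n l := Jn_nonneg n _

/-- a path with a small deficit is `ok` -/
lemma ok_of_deficit {l : List M} (h0 : 0 < mn g n l) (h2 : mx g n l ≤ 2 * mn g n l)
    (h3 : (l.map (Nn g n)).sum - Tn g n l ≤ mn g n l / 4) : ok g n l := by
  refine ⟨h0, h2, ?_⟩
  obtain ⟨k, hk, hkT⟩ := exists_Jn n (fun k => (l.map (fun m => g m k)).sum)
  have hT : Tn g n l = |(l.map (fun m => g m k)).sum| := hkT.symm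
  refine ⟨k, ?_⟩
  rw [Finset.mem_union]
  by_cases hs : 0 ≤ (l.map (fun m => g m k)).sum
  · left
    rw [mem_setA]
    refine ⟨hk, ?_⟩
    rw [sum_sub]
    rw [abs_of_nonneg hs] at hT
    linarith
  · right
    rw [mem_setB]
    refine ⟨hk, ?_⟩
    rw [sum_add]
    rw [abs_of_neg (not_le.1 hs)] at hT
    linarith

/-- the pointwise deficit inequality for windows -/
lemma deficit_window (l : List M) (hl : l ≠ []) :
    (1 / 16) * ((l.map (fun m => Nn g n m ^ 2)).sum - 4 * (l.length : ℝ) * mu g n l ^ 2)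
      ≤ (l.length : ℝ) * (l.map (fun m => Nn g n m ^ 2)).sum - Tn g n l ^ 2 := by
  obtain ⟨m1, hm1, e1⟩ := mnL_mem (Nn g n) hl
  obtain ⟨m2, hm2, e2⟩ := mxL_mem (Nn g n) hl
  have key := deficit_pointwise (l.map (Nn g n))
    (by
      intro x hx
      obtain ⟨m, _, rfl⟩ := List.mem_map.1 hx
      exact Nn_nonneg g n m)
    (mn g n l) (mx g n l) (Tn g n l)
    (List.mem_map.2 ⟨m1, hm1, e1⟩) (List.mem_map.2 ⟨m2, hm2, e2⟩)
    (by
      intro x hx
      obtain ⟨m, hm, rfl⟩ := List.mem_map.1 hx
      exact mnL_le (Nn g n) hm)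
    (by
      intro x hx
      obtain ⟨m, hm, rfl⟩ := List.mem_map.1 hx
      exact le_mxL (Nn g n) hm)
    (Tn_nonneg g n l) (Tn_le g n l)
  have e3 : ((l.map (Nn g n)).map (fun x => x ^ 2)).sum = (l.map (fun m => Nn g n m ^ 2)).sum := by
    rw [List.map_map]
    rfl
  rw [e3, List.length_map] at key
  refine le_trans ?_ key
  have hn : (0 : ℝ) ≤ (l.length : ℝ) := Nat.cast_nonneg _
  have hle : mn g n l ^ 2 * (if (0 < mn g n l ∧ mx g n l ≤ 2 * mn g n l ∧
      (l.map (Nn g n)).sum - Tn g n l ≤ mn g n l / 4) then (1 : ℝ) else 0) ≤ mu g n l ^ 2 := by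
    split_ifs with h
    · rw [mu_of_ok g n (ok_of_deficit g n h.1 h.2.1 h.2.2)]
      linarith
    · rw [mul_zero]
      positivity
  have h4 := mul_le_mul_of_nonneg_left hle hn
  linarith

/-- **(BV)** for profile valued antisymmetric mark functions -/
theorem bv_profile (hg : ∀ m k, g (C.inv m) k = - g m k) (L : ℕ) :
    C.E (2 ^ L) (fun l => Tn g n l ^ 2) ≤
      ((2 : ℝ) ^ L) ^ 2 * C.E 1 (fun l => (l.map (fun m => Nn g n m ^ 2)).sum)
        - ((2 : ℝ) ^ L / 16) * (C.E 1 (fun l => (l.map (fun m => Nn g n m ^ 2)).sum)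
          - 4 * (5 * C.E 1 (fun l => (l.map (fun m => Nn g n m ^ 2)).sum)
            + 4 * C.E 1 (fun l => (l.map (fun m => Nn g n m * Vn g n m)).sum)) / ((L : ℝ) + 1)) := by
  apply bv_assemble C (Nn g n) (Vn g n) (Tn g n) (mu g n) (cc g n) L
    ((potNE C g n hg).potential L) (mu_single_le g n) (phi_single g n)
  intro l hl
  apply deficit_window
  intro h
  rw [h] at hl
  have h2 : 0 < 2 ^ L := by positivity
  have h3 : (0 : ℕ) = 2 ^ L := hl
  omega

lemma sm_apply (l : List M) (k : ℕ) : sm g l k = (l.map (fun m => g m k)).sum := by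
  induction l with
  | nil => simp [sm]
  | cons a l ih =>
    rw [sm_cons, Pi.add_apply, ih]
    simp

lemma supJ_sm (l : List M) : supJ n (sm g l) = Tn g n l := by
  have h : sm g l = fun k => (l.map (fun m => g m k)).sum := funext (sm_apply g l)
  rw [h]
  rfl

/-- the estimate (BV) of `Top` -/
theorem bvProp : BVProp := by
  intro S M _ _ C n g hg L
  have hg' : ∀ m k, g (C.inv m) k = - g m k := by
    intro m k
    rw [hg m]
    rfl
  have key := bv_profile C g n hg' L
  have e1 : C.E (2 ^ L) (fun l => supJ n (sm g l) ^ 2) = C.E (2 ^ L) (fun l => Tn g n l ^ 2) := by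
    apply E_congr
    intro l _
    rw [supJ_sm]
  have e2 : C.E 1 (fun l => supJ n (sm g l) ^ 2)
      = C.E 1 (fun l => (l.map (fun m => Nn g n m ^ 2)).sum) := by
    apply E_congr
    intro l hl
    obtain ⟨m, rfl⟩ := List.length_eq_one_iff.1 hl
    have h : sm g [m] = g m := by simp [sm]
    rw [h]
    simp only [List.map_cons, List.map_nil, List.sum_cons, List.sum_nil, add_zero]
    rfl
  have e3 : C.E 1 (fun l => supJ n (sm g l) * tv n (sm g l))
      = C.E 1 (fun l => (l.map (fun m => Nn g n m * Vn g n m)).sum) := by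
    apply E_congr
    intro l hl
    obtain ⟨m, rfl⟩ := List.length_eq_one_iff.1 hl
    have h : sm g [m] = g m := by simp [sm]
    rw [h]
    simp only [List.map_cons, List.map_nil, List.sum_cons, List.sum_nil, add_zero]
    rfl
  rw [e1, e2, e3]
  exact key

/-- **(alpha)**: the summing operators are uniformly sub-ballistic for reversible chains -/
theorem alpha : ∀ ε : ℝ, 0 < ε → ∃ t : ℕ, 1 ≤ t ∧ RFun t ε := alpha_of_BV bvProp

end Vale.Agent.P125.BV.M13
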