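import Vale.Agent.P125.Dich.ApiB

set_option linter.unusedSectionVars false
set_option linter.unusedVariables false

/-!
# P125, (alpha): the two sizes of a vector of `Fin n → ℝ` and its profile of initial sums
-/

namespace Vale.Agent.P125.BV

open scoped BigOperators
open Vale.Agent.P125.Dich

variable {n : ℕ}

/-- the sum of the first `k` coordinates -/
def pre (v : Fin n → ℝ) (k : ℕ) : ℝ := ∑ i : Fin n, if (i : ℕ) < k then v i else 0

/-- the largest absolute value of an initial sum -/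
noncomputable def Jn (n : ℕ) (v : Fin n → ℝ) : ℝ :=
  (Finset.range (n + 1)).sup' ⟨0, by simp⟩ (fun k => |pre v k|)

/-- the sum of the absolute values of the coordinates -/
def L1 (n : ℕ) (v : Fin n → ℝ) : ℝ := ∑ i, |v i|

lemma pre_zero_right (v : Fin n → ℝ) : pre v 0 = 0 := by simp [pre]

lemma pre_zero (k : ℕ) : pre (0 : Fin n → ℝ) k = 0 := by simp [pre]

lemma pre_add (u v : Fin n → ℝ) (k : ℕ) : pre (u + v) k = pre u k + pre v k := by
  unfold pre
  rw [← Finset.sum_add_distrib]
  refine Finset.sum_congr rfl fun i _ => ?_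
  split_ifs <;> simp

lemma pre_neg (v : Fin n → ℝ) (k : ℕ) : pre (-v) k = - pre v k := by
  unfold pre
  rw [← Finset.sum_neg_distrib]
  refine Finset.sum_congr rfl fun i _ => ?_
  split_ifs <;> simp

lemma pre_sm {M : Type} (w : M → Fin n → ℝ) (l : List M) (k : ℕ) :
    pre (sm w l) k = (l.map (fun m => pre (w m) k)).sum := by
  induction l with
  | nil => simp [sm, pre_zero]
  | cons m l ih =>
    have : sm w (m :: l) = w m + sm w l := by simp [sm]
    rw [this, pre_add, ih]
    simp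

lemma abs_pre_le_Jn (v : Fin n → ℝ) {k : ℕ} (hk : k ≤ n) : |pre v k| ≤ Jn n v := by
  unfold Jn
  exact Finset.le_sup' (fun k => |pre v k|) (Finset.mem_range.2 (by omega))

lemma exists_pre_eq_Jn (v : Fin n → ℝ) : ∃ k, k ≤ n ∧ Jn n v = |pre v k| := by
  obtain ⟨k, hk, h⟩ := Finset.exists_mem_eq_sup' (s := Finset.range (n + 1)) ⟨0, by simp⟩
    (fun k => |pre v k|)
  exact ⟨k, by have := Finset.mem_range.1 hk; omega, h⟩

lemma Jn_nonneg (v : Fin n → ℝ) : 0 ≤ Jn n v :=
  le_trans (abs_nonneg _) (abs_pre_le_Jn v (Nat.zero_le n))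

lemma Jn_neg (v : Fin n → ℝ) : Jn n (-v) = Jn n v := by
  unfold Jn
  simp only [pre_neg, abs_neg]

lemma L1_nonneg (v : Fin n → ℝ) : 0 ≤ L1 n v := Finset.sum_nonneg fun i _ => abs_nonneg _

lemma L1_neg (v : Fin n → ℝ) : L1 n (-v) = L1 n v := by
  unfold L1
  simp

lemma abs_pre_le_L1 (v : Fin n → ℝ) (k : ℕ) : |pre v k| ≤ L1 n v := by
  unfold pre L1
  refine (Finset.abs_sum_le_sum_abs _ _).trans ?_
  refine Finset.sum_le_sum fun i _ => ?_
  split_ifs
  · exact le_rfl
  · simp

lemma Jn_le_L1 (v : Fin n → ℝ) : Jn n v ≤ L1 n v := by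
  obtain ⟨k, _, h⟩ := exists_pre_eq_Jn v
  rw [h]
  exact abs_pre_le_L1 v k

/-- the increments of the profile are the coordinates -/
lemma pre_succ_sub (v : Fin n → ℝ) (j : Fin n) : pre v ((j : ℕ) + 1) - pre v j = v j := by
  unfold pre
  rw [← Finset.sum_sub_distrib, Finset.sum_eq_single j]
  · simp
  · intro i _ hij
    have hne : (i : ℕ) ≠ (j : ℕ) := fun h => hij (Fin.ext h)
    by_cases h : (i : ℕ) < (j : ℕ)
    · rw [if_pos (by omega), if_pos h, sub_self]
    · rw [if_neg (by omega), if_neg h, sub_self]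
  · intro h
    exact absurd (Finset.mem_univ _) h

/-- the total variation of the profile is the `l_1` size -/
lemma tv_pre (v : Fin n → ℝ) :
    ∑ j ∈ Finset.range n, |pre v (j + 1) - pre v j| = L1 n v := by
  unfold L1
  rw [Finset.sum_range]
  refine Finset.sum_congr rfl fun j _ => ?_
  rw [pre_succ_sub]

/-- the supremum over `Fin (n + 1)` form of `Jn` -/
lemma Jn_eq_iSup (v : Fin n → ℝ) :
    Jn n v = ⨆ k : Fin (n + 1), |∑ i : Fin n, if (i : ℕ) < (k : ℕ) then v i else 0| := by
  apply le_antisymm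
  · obtain ⟨k, hk, h⟩ := exists_pre_eq_Jn v
    rw [h]
    exact le_ciSup (f := fun k : Fin (n + 1) => |∑ i : Fin n, if (i : ℕ) < (k : ℕ) then v i else 0|)
      (Set.finite_range _).bddAbove ⟨k, by omega⟩
  · apply ciSup_le
    intro k
    exact abs_pre_le_Jn v (by have := k.2; omega)

end Vale.Agent.P125.BV
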