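import Vale.Agent.P125.BV.Scalar
import Vale.Agent.P125.Char.Back2
import Vale.Agent.P125.Dich.Iter
import Vale.Agent.P125.TS.Triv

set_option linter.unusedSectionVars false
set_option linter.unusedVariables false

/-!
# P125, from (BV) to (alpha): transfer to ordinary chains and functions, iteration

`N n` and `V n` are two families of functionals on `Fin n → ℝ` (output and input size).  The
`t`-step chain of `(μ, P)` is `(μ, P ^ t)`, so no block chain of marks is needed.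
-/

namespace Vale.Agent.P125.BV

open scoped BigOperators
open Vale.Agent.P125.Dich Vale.Agent.P125.Char

/-- the inequality (BV) for all marked reversible chains and all antisymmetric mark functions -/
def BVHyp (N V : ∀ n : ℕ, (Fin n → ℝ) → ℝ) : Prop :=
  ∀ (n : ℕ) (S M : Type) [Fintype S] [Fintype M] (C : MChain S M) (ω : M → Fin n → ℝ),
    (∀ m, ω (C.inv m) = - ω m) → ∀ L : ℕ,
      C.E (2 ^ L) (fun l => N n (sm ω l) ^ 2) ≤
        ((2 : ℝ) ^ L) ^ 2 * C.E 1 (fun l => N n (sm ω l) ^ 2) -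
          (2 : ℝ) ^ L / 16 * (C.E 1 (fun l => N n (sm ω l) ^ 2) -
            4 * ((5 * C.E 1 (fun l => N n (sm ω l) ^ 2) +
              4 * C.E 1 (fun l => N n (sm ω l) * V n (sm ω l))) / ((L : ℝ) + 1)))

/-- the bound at time `t` with constant `a * t ^ 2`, uniformly in the dimension, the chain and the
function -/
def Rb (N V : ∀ n : ℕ, (Fin n → ℝ) → ℝ) (t : ℕ) (a : ℝ) : Prop :=
  ∀ (n : ℕ) (S : Type) [Fintype S] [DecidableEq S] (μ : S → ℝ) (P : Matrix S S ℝ), IsChain μ P →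
    ∀ f : S → Fin n → ℝ,
      ∑ i, ∑ j, μ i * (P ^ t) i j * N n (f j - f i) ^ 2 ≤
        a * ((t : ℝ) ^ 2 * ∑ i, ∑ j, μ i * P i j * V n (f j - f i) ^ 2)

/-- weighted Cauchy-Schwarz for double sums -/
lemma cs_double {S : Type} [Fintype S] (w x y : S → S → ℝ) (hw : ∀ i j, 0 ≤ w i j) :
    (∑ i, ∑ j, w i j * (x i j * y i j)) ^ 2 ≤
      (∑ i, ∑ j, w i j * x i j ^ 2) * (∑ i, ∑ j, w i j * y i j ^ 2) := by
  have h := Finset.sum_mul_sq_le_sq_mul_sq (Finset.univ : Finset (S × S))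
    (fun p => Real.sqrt (w p.1 p.2) * x p.1 p.2) (fun p => Real.sqrt (w p.1 p.2) * y p.1 p.2)
  have e1 : ∀ p : S × S, Real.sqrt (w p.1 p.2) * x p.1 p.2 * (Real.sqrt (w p.1 p.2) * y p.1 p.2)
      = w p.1 p.2 * (x p.1 p.2 * y p.1 p.2) := by
    intro p
    have := Real.mul_self_sqrt (hw p.1 p.2)
    calc Real.sqrt (w p.1 p.2) * x p.1 p.2 * (Real.sqrt (w p.1 p.2) * y p.1 p.2)
        = (Real.sqrt (w p.1 p.2) * Real.sqrt (w p.1 p.2)) * (x p.1 p.2 * y p.1 p.2) := by ring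
      _ = _ := by rw [this]
  have e2 : ∀ (z : S → S → ℝ) (p : S × S), (Real.sqrt (w p.1 p.2) * z p.1 p.2) ^ 2
      = w p.1 p.2 * z p.1 p.2 ^ 2 := by
    intro z p
    rw [mul_pow, Real.sq_sqrt (hw p.1 p.2)]
  simp only [e1, e2 x, e2 y] at h
  rw [Fintype.sum_prod_type, Fintype.sum_prod_type, Fintype.sum_prod_type] at h
  exact h

section step

variable {N V : ∀ n : ℕ, (Fin n → ℝ) → ℝ}

lemma Rb_mono (hV : True) (t : ℕ) (a a' : ℝ) (h : a ≤ a') (hR : Rb N V t a) : Rb N V t a' := by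
  intro n S _ _ μ P hc f
  refine (hR n S μ P hc f).trans ?_
  apply mul_le_mul_of_nonneg_right h
  obtain ⟨h0, _, h2, _, _⟩ := hc
  apply mul_nonneg (by positivity)
  exact Finset.sum_nonneg fun i _ => Finset.sum_nonneg fun j _ =>
    mul_nonneg (mul_nonneg (h0 i) (h2 i j)) (sq_nonneg _)

lemma Rb_one (hN0 : ∀ n v, 0 ≤ N n v) (hNV : ∀ n v, N n v ≤ V n v) : Rb N V 1 1 := by
  intro n S _ _ μ P hc f
  obtain ⟨h0, _, h2, _, _⟩ := hc
  rw [pow_one, Nat.cast_one, one_pow, one_mul, one_mul]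
  refine Finset.sum_le_sum fun i _ => Finset.sum_le_sum fun j _ => ?_
  apply mul_le_mul_of_nonneg_left _ (mul_nonneg (h0 i) (h2 i j))
  exact pow_le_pow_left₀ (hN0 n _) (hNV n _) 2

/-- one application of (BV) to the chain `(μ, P ^ t)` -/
lemma Rb_step (hBV : BVHyp N V)
    (hVt : ∀ (t n : ℕ) (S : Type) [Fintype S] [DecidableEq S] (μ : S → ℝ) (P : Matrix S S ℝ),
      IsChain μ P → ∀ f : S → Fin n → ℝ,
      ∑ i, ∑ j, μ i * (P ^ t) i j * V n (f j - f i) ^ 2 ≤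
        (t : ℝ) ^ 2 * ∑ i, ∑ j, μ i * P i j * V n (f j - f i) ^ 2)
    (c : ℝ) (hc : 0 < c) (L : ℕ) (hL : 32 * (5 / 4 + 1 / c) ≤ (L : ℝ) + 1)
    (t : ℕ) (a : ℝ) (hca : c ^ 2 ≤ a) (hR : Rb N V t a) :
    Rb N V (2 ^ L * t) (a * (1 - 1 / (32 * ((2 ^ L : ℕ) : ℝ)))) := by
  intro n S _ _ μ P hch f
  have hpow := isChain_pow hch t
  obtain ⟨h0, h1, h2, h3, h4⟩ := hpow
  obtain ⟨g0, _, g2, _, _⟩ := hch
  have key := hBV n S (S × S) (backChain μ (P ^ t) h0 h1 h2 h3 h4)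
    (fun m : S × S => f m.2 - f m.1) (by
      intro m
      have : (backChain μ (P ^ t) h0 h1 h2 h3 h4).inv m = Prod.swap m := rfl
      rw [this]
      simp) L
  rw [back_E μ (P ^ t) h0 h1 h2 h3 h4 f (2 ^ L) (fun u => N n u ^ 2),
    back_E μ (P ^ t) h0 h1 h2 h3 h4 f 1 (fun u => N n u ^ 2),
    back_E μ (P ^ t) h0 h1 h2 h3 h4 f 1 (fun u => N n u * V n u), pow_one, ← pow_mul] at key
  have hU : 0 ≤ ∑ i, ∑ j, μ i * P i j * V n (f j - f i) ^ 2 :=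
    Finset.sum_nonneg fun i _ => Finset.sum_nonneg fun j _ =>
      mul_nonneg (mul_nonneg (g0 i) (g2 i j)) (sq_nonneg _)
  have hEV0 : 0 ≤ ∑ i, ∑ j, μ i * (P ^ t) i j * V n (f j - f i) ^ 2 :=
    Finset.sum_nonneg fun i _ => Finset.sum_nonneg fun j _ =>
      mul_nonneg (mul_nonneg (h0 i) (h2 i j)) (sq_nonneg _)
  have hCS := cs_double (fun i j => μ i * (P ^ t) i j) (fun i j => N n (f j - f i))
    (fun i j => V n (f j - f i)) (fun i j => mul_nonneg (h0 i) (h2 i j))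
  have hM : (1 : ℝ) ≤ (2 : ℝ) ^ L := one_le_pow₀ (by norm_num)
  have res := step_scalar _ _ _ _ ((2 : ℝ) ^ L)
    ((t : ℝ) ^ 2 * ∑ i, ∑ j, μ i * P i j * V n (f j - f i) ^ 2) a c L hM
    (mul_nonneg (by positivity) hU) hc hca (hR n S μ P ⟨g0, ‹_›, g2, ‹_›, ‹_›⟩ f) hEV0
    (hVt t n S μ P ⟨g0, ‹_›, g2, ‹_›, ‹_›⟩ f) hCS hL key
  rw [mul_comm (2 ^ L) t]
  refine res.trans (le_of_eq ?_)
  push_cast
  ring

/-- (alpha) from (BV) -/
theorem alpha_of_BV (hBV : BVHyp N V) (hN0 : ∀ n v, 0 ≤ N n v) (hNV : ∀ n v, N n v ≤ V n v)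
    (hVt : ∀ (t n : ℕ) (S : Type) [Fintype S] [DecidableEq S] (μ : S → ℝ) (P : Matrix S S ℝ),
      IsChain μ P → ∀ f : S → Fin n → ℝ,
      ∑ i, ∑ j, μ i * (P ^ t) i j * V n (f j - f i) ^ 2 ≤
        (t : ℝ) ^ 2 * ∑ i, ∑ j, μ i * P i j * V n (f j - f i) ^ 2) :
    ∀ ε : ℝ, 0 < ε → ∃ t, 1 ≤ t ∧ Rb N V t ε := by
  apply iterate (Rb N V) (Rb_one hN0 hNV) (fun t a a' h hR => Rb_mono trivial t a a' h hR)
  intro c hc
  refine ⟨2 ^ ⌈32 * (5 / 4 + 1 / c)⌉₊, Nat.one_le_two_pow, ?_⟩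
  intro t a _ hca hR
  apply Rb_step hBV hVt c hc _ _ t a hca hR
  have := Nat.le_ceil (32 * (5 / 4 + 1 / c))
  linarith

end step

/-- the trivial bound for the `l_1` size -/
theorem l1_triv (t n : ℕ) (S : Type) [Fintype S] [DecidableEq S] (μ : S → ℝ) (P : Matrix S S ℝ)
    (hc : IsChain μ P) (f : S → Fin n → ℝ) :
    ∑ i, ∑ j, μ i * (P ^ t) i j * (∑ k, |(f j - f i) k|) ^ 2 ≤
      (t : ℝ) ^ 2 * ∑ i, ∑ j, μ i * P i j * (∑ k, |(f j - f i) k|) ^ 2 := by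
  have h := TS.hFun_triv (PiLp 1 (fun _ : Fin n => ℝ)) t S μ P hc
    (fun s => WithLp.toLp 1 (f s))
  have e : ∀ i j : S, ‖WithLp.toLp 1 (f j) - WithLp.toLp 1 (f i)‖ = ∑ k, |(f j - f i) k| := by
    intro i j
    rw [PiLp.norm_eq_of_L1]
    rfl
  simp only [e] at h
  exact h

end Vale.Agent.P125.BV
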