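import Vale.Agent.P125.BV.Abs27
import Vale.Agent.P125.BV.Win89b
import Vale.Agent.P125.BV.Norms
import Vale.Agent.P125.BV.Transfer

set_option linter.unusedSectionVars false
set_option linter.unusedVariables false

/-!
# P125, (BV) for marked chains and (alpha): the concrete assembly

The abstract inequality `BV27.bv_abstract` is applied to the window functionals of `W89`, then
rewritten for vectors (`Jn`, `L1`) and fed into `alpha_of_BV`.
-/

namespace Vale.Agent.P125.BV

open scoped BigOperators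
open Vale.Agent.P125.Dich

variable {S M : Type} [Fintype S] [Fintype M]

section conc

variable (C : MChain S M) (g : M → ℕ → ℝ) (n : ℕ)

lemma ok_of_mu_ne {l : List M} (h : W89.mu g n l ≠ 0) : W89.ok g n l := by
  by_contra hno
  apply h
  unfold W89.mu
  rw [if_neg hno]

lemma mu_app_left {l1 l2 : List M} (h1 : l1 ≠ []) :
    W89.mu g n (l1 ++ l2) ≤ W89.mu g n l1 := by
  by_cases h : W89.ok g n (l1 ++ l2)
  · have h' := W89.ok_left g n h1 h
    unfold W89.mu
    rw [if_pos h, if_pos h']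
    exact W89.mnL_mono _ h1 (fun m hm => List.mem_append_left _ hm)
  · have : W89.mu g n (l1 ++ l2) = 0 := by
      unfold W89.mu
      rw [if_neg h]
    rw [this]
    exact W89.mu_nonneg g n l1

lemma mu_app_right {l1 l2 : List M} (h2 : l2 ≠ []) :
    W89.mu g n (l1 ++ l2) ≤ W89.mu g n l2 := by
  by_cases h : W89.ok g n (l1 ++ l2)
  · have h' := W89.ok_right g n h2 h
    unfold W89.mu
    rw [if_pos h, if_pos h']
    exact W89.mnL_mono _ h2 (fun m hm => List.mem_append_right _ hm)
  · have : W89.mu g n (l1 ++ l2) = 0 := by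
      unfold W89.mu
      rw [if_neg h]
    rw [this]
    exact W89.mu_nonneg g n l2

/-- the window functionals satisfy the hypotheses of the potential argument -/
theorem pot89 (hg : ∀ m k, g (C.inv m) k = - g m k) :
    BV27.Pot C (W89.mu g n) (W89.sgl g n) (W89.cc g n) where
  mu_nonneg := W89.mu_nonneg g n
  mu_rev := W89.mu_rev g n C.inv hg
  sg_pm := fun l => sg_eq_or _ _
  sg_rev := by
    intro l hl
    have hok := ok_of_mu_ne g n hl
    unfold W89.sgl
    rw [W89.setA_rev g n C.inv hg, W89.setB_rev g n C.inv hg,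
      sg_swap (W89.disj g n (W89.ok_ne_nil g n hok) hok.1) hok.2.2]
  mu_left := fun l1 l2 h1 _ => mu_app_left g n h1
  mu_right := fun l1 l2 _ h2 => mu_app_right g n h2
  cc_left := fun l1 l2 h1 _ _ =>
    altc_mono (W89.setA_sub_left g n h1) (W89.setB_sub_left g n h1)
  cc_right := fun l1 l2 _ h2 _ =>
    altc_mono (W89.setA_sub_right g n h2) (W89.setB_sub_right g n h2)
  sg_left := by
    intro l1 l2 h1 _ hmu hc
    have hok := ok_of_mu_ne g n hmu
    have hok1 := W89.ok_left g n h1 hok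
    exact sg_eq_of_altc_eq (W89.setA_sub_left g n h1) (W89.setB_sub_left g n h1)
      (W89.disj g n h1 hok1.1) hok.2.2 hc
  sg_right := by
    intro l1 l2 _ h2 hmu hc
    have hok := ok_of_mu_ne g n hmu
    have hok2 := W89.ok_right g n h2 hok
    exact sg_eq_of_altc_eq (W89.setA_sub_right g n h2) (W89.setB_sub_right g n h2)
      (W89.disj g n h2 hok2.1) hok.2.2 hc

lemma abs_sum_le (l : List M) {k : ℕ} (hk : k ≤ n) :
    |(l.map (fun m => g m k)).sum| ≤ (l.map (W89.Nn g n)).sum := by
  induction l with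
  | nil => simp
  | cons m l ih =>
    simp only [List.map_cons, List.sum_cons]
    refine (abs_add_le _ _).trans ?_
    exact add_le_add (W89.abs_le_Jn n (g m) hk) ih

lemma Tn_le (l : List M) : W89.Tn g n l ≤ (l.map (W89.Nn g n)).sum :=
  W89.Jn_le n _ _ (fun k hk => abs_sum_le g n l hk)

lemma link89 (l : List M) (hl : l ≠ []) (h0 : 0 < W89.mn g n l)
    (h1 : W89.mx g n l ≤ 2 * W89.mn g n l)
    (h2 : (l.map (W89.Nn g n)).sum - W89.Tn g n l ≤ W89.mn g n l / 4) :
    W89.mu g n l = W89.mn g n l := by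
  have hok : W89.ok g n l := by
    refine ⟨h0, h1, ?_⟩
    obtain ⟨k, hk, he⟩ := W89.exists_Jn n (fun k => (l.map (fun m => g m k)).sum)
    have he' : |(l.map (fun m => g m k)).sum| = W89.Tn g n l := he
    refine ⟨k, ?_⟩
    rcases le_total 0 (l.map (fun m => g m k)).sum with hs | hs
    · apply Finset.mem_union_left
      rw [W89.mem_setA, W89.sum_sub]
      rw [abs_of_nonneg hs] at he'
      exact ⟨hk, by linarith⟩
    · apply Finset.mem_union_right
      rw [W89.mem_setB, W89.sum_add]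
      rw [abs_of_nonpos hs] at he'
      exact ⟨hk, by linarith⟩
  unfold W89.mu
  rw [if_pos hok]

/-- (BV) for profiles -/
theorem bv_profile (hg : ∀ m k, g (C.inv m) k = - g m k) (L : ℕ) :
    C.E (2 ^ L) (fun l => W89.Tn g n l ^ 2) ≤
      ((2 : ℝ) ^ L) ^ 2 * C.E 1 (fun l => (l.map (fun m => W89.Nn g n m ^ 2)).sum) -
        ((2 : ℝ) ^ L / 16) * (C.E 1 (fun l => (l.map (fun m => W89.Nn g n m ^ 2)).sum) -
          4 * (5 * C.E 1 (fun l => (l.map (fun m => W89.Nn g n m ^ 2)).sum) +
            4 * C.E 1 (fun l => (l.map (fun m => W89.Nn g n m * W89.Vn g n m)).sum))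
              / ((L : ℝ) + 1)) := by
  apply BV27.bv_abstract C (W89.Nn g n) (W89.Vn g n) (W89.Tn g n) (W89.mn g n) (W89.mx g n)
    (W89.mu g n) (W89.sgl g n) (W89.cc g n) (pot89 C g n hg) (W89.Nn_nonneg g n)
    (fun l => W89.Jn_nonneg n _) (Tn_le g n)
  · intro l hl
    obtain ⟨m, hm, he⟩ := W89.mnL_mem (W89.Nn g n) hl
    exact List.mem_map.2 ⟨m, hm, he⟩
  · intro l hl
    obtain ⟨m, hm, he⟩ := W89.mxL_mem (W89.Nn g n) hl
    exact List.mem_map.2 ⟨m, hm, he⟩
  · intro l x hx
    obtain ⟨m, hm, rfl⟩ := List.mem_map.1 hx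
    exact ⟨W89.mnL_le _ hm, W89.le_mxL _ hm⟩
  · exact link89 g n
  · exact W89.phi_single g n
  · exact W89.mu_single_le g n

end conc

/-- (BV) for vectors -/
theorem bvHyp : BVHyp Jn L1 := by
  intro n S M _ _ C ω hω L
  have hg : ∀ m k, pre (ω (C.inv m)) k = - pre (ω m) k := by
    intro m k
    rw [hω, pre_neg]
  have key := bv_profile C (fun m => pre (ω m)) n hg L
  have eT : ∀ l : List M, W89.Tn (fun m => pre (ω m)) n l = Jn n (sm ω l) := by
    intro l
    unfold W89.Tn W89.Jn Jn
    simp only [pre_sm]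
  have eN : ∀ m : M, W89.Nn (fun m => pre (ω m)) n m = Jn n (ω m) := fun m => rfl
  have eV : ∀ m : M, W89.Vn (fun m => pre (ω m)) n m = L1 n (ω m) := fun m => tv_pre (ω m)
  have e1 : C.E 1 (fun l => (l.map (fun m => W89.Nn (fun m => pre (ω m)) n m ^ 2)).sum)
      = C.E 1 (fun l => Jn n (sm ω l) ^ 2) := by
    apply E_congr
    intro l hl
    obtain ⟨m, rfl⟩ := List.length_eq_one_iff.1 hl
    simp [sm, eN]
  have e2 : C.E 1 (fun l => (l.map (fun m => W89.Nn (fun m => pre (ω m)) n m *
      W89.Vn (fun m => pre (ω m)) n m)).sum)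
      = C.E 1 (fun l => Jn n (sm ω l) * L1 n (sm ω l)) := by
    apply E_congr
    intro l hl
    obtain ⟨m, rfl⟩ := List.length_eq_one_iff.1 hl
    simp [sm, eN, eV]
  rw [e1, e2] at key
  simp only [eT] at key
  rw [mul_div_assoc] at key
  exact key

/-- (alpha): the initial sum operators are uniformly sub-ballistic for reversible chains -/
theorem alpha_main : ∀ ε : ℝ, 0 < ε → ∃ t, 1 ≤ t ∧ Rb Jn L1 t ε :=
  alpha_of_BV bvHyp (fun n v => Jn_nonneg v) (fun n v => Jn_le_L1 v)
    (fun t n S _ _ μ P hc f => l1_triv t n S μ P hc f)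

end Vale.Agent.P125.BV
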