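import Vale.Agent.P125.BV.Window

set_option linter.unusedSectionVars false
set_option linter.unusedVariables false

/-!
# P125, (BV): the potential recursion for the concrete windows of `BV/Window.lean`

`Q77 m = E[mu^2]`, `Phi77 m = E[mu^2 cc]` over windows of length `m`;
`Phi77 (2m) ≤ Phi77 m - Q77 (2m)/2 + Q77 m/4`, hence `(L+1) Q77 (2^L) ≤ 4 Phi77 1 + Q77 1`.
-/

namespace Vale.Agent.P125.BV

open scoped BigOperators
open Vale.Agent.P125.Dich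

variable {S M : Type} [Fintype S] [Fintype M] {C : MChain S M} (D : Lab C)

namespace Lab

lemma mu_of_ok (l : List M) (h : D.ok l) : D.mu l = D.mn l := by unfold mu; rw [if_pos h]
lemma mu_of_not_ok (l : List M) (h : ¬ D.ok l) : D.mu l = 0 := by unfold mu; rw [if_neg h]

lemma sgl_mul_ge (l1 l2 : List M) : -1 ≤ D.sgl l1 * D.sgl l2 := by
  unfold sgl
  rcases sg_eq_or (D.setA l1) (D.setB l1) with h | h <;>
    rcases sg_eq_or (D.setA l2) (D.setB l2) with h' | h' <;> rw [h, h'] <;> norm_num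

/-- the pointwise inequality behind the recursion -/
lemma pot_pointwise77 (l1 l2 : List M) (h1 : l1 ≠ []) (h2 : l2 ≠ []) :
    D.mu (l1 ++ l2) ^ 2 * (D.cc (l1 ++ l2) : ℝ) ≤
      (1 / 2) * (D.mu l1 ^ 2 * (D.cc l1 : ℝ)) + ((1 / 2) * (D.mu l2 ^ 2 * (D.cc l2 : ℝ)) +
        ((-1 / 2) * D.mu (l1 ++ l2) ^ 2 + ((1 / 4) * (D.mu l1 * D.mu l2) +
          (1 / 4) * ((D.mu l1 * D.sgl l1) * (D.mu l2 * D.sgl l2))))) := by
  have hm1 := D.mu_nonneg l1
  have hm2 := D.mu_nonneg l2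
  have hs := D.sgl_mul_ge l1 l2
  have hc1 : (0 : ℝ) ≤ (D.cc l1 : ℝ) := Nat.cast_nonneg _
  have hc2 : (0 : ℝ) ≤ (D.cc l2 : ℝ) := Nat.cast_nonneg _
  have hp : 0 ≤ D.mu l1 * D.mu l2 := mul_nonneg hm1 hm2
  have hextra : 0 ≤ (1 / 4) * (D.mu l1 * D.mu l2) +
      (1 / 4) * ((D.mu l1 * D.sgl l1) * (D.mu l2 * D.sgl l2)) := by
    have : (D.mu l1 * D.sgl l1) * (D.mu l2 * D.sgl l2)
        = (D.mu l1 * D.mu l2) * (D.sgl l1 * D.sgl l2) := by ring
    rw [this]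
    nlinarith
  by_cases hok : D.ok (l1 ++ l2)
  · have ok1 := D.ok_left l1 l2 h1 hok
    have ok2 := D.ok_right l1 l2 h2 hok
    rw [D.mu_of_ok _ hok, D.mu_of_ok _ ok1, D.mu_of_ok _ ok2] at *
    set a := D.mn (l1 ++ l2) with ha
    set a1 := D.mn l1 with ha1
    set a2 := D.mn l2 with ha2
    have hapos : 0 < a := hok.2.1
    have ha1' : a ≤ a1 := D.mn_mono l1 (l1 ++ l2) h1 (fun m hm => List.mem_append_left _ hm)
    have ha2' : a ≤ a2 := D.mn_mono l2 (l1 ++ l2) h2 (fun m hm => List.mem_append_right _ hm)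
    have hcle1 : D.cc (l1 ++ l2) ≤ D.cc l1 :=
      altc_mono (D.setA_left l1 l2 h1) (D.setB_left l1 l2 h1)
    have hcle2 : D.cc (l1 ++ l2) ≤ D.cc l2 :=
      altc_mono (D.setA_right l1 l2 h2) (D.setB_right l1 l2 h2)
    have hsq1 : a ^ 2 ≤ a1 ^ 2 := pow_le_pow_left₀ hapos.le ha1' 2
    have hsq2 : a ^ 2 ≤ a2 ^ 2 := pow_le_pow_left₀ hapos.le ha2' 2
    have hsq0 : 0 ≤ a ^ 2 := sq_nonneg a
    have hc0 : (0 : ℝ) ≤ (D.cc (l1 ++ l2) : ℝ) := Nat.cast_nonneg _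
    have e1 : a ^ 2 * (D.cc l1 : ℝ) ≤ a1 ^ 2 * (D.cc l1 : ℝ) :=
      mul_le_mul_of_nonneg_right hsq1 hc1
    have e2 : a ^ 2 * (D.cc l2 : ℝ) ≤ a2 ^ 2 * (D.cc l2 : ℝ) :=
      mul_le_mul_of_nonneg_right hsq2 hc2
    by_cases heq : D.cc (l1 ++ l2) = D.cc l1 ∧ D.cc (l1 ++ l2) = D.cc l2
    · have s1 : D.sgl (l1 ++ l2) = D.sgl l1 :=
        sg_eq_of_altc_eq (D.setA_left l1 l2 h1) (D.setB_left l1 l2 h1)
          (D.disj l1 h1 ok1.2.1) hok.2.2.2 heq.1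
      have s2 : D.sgl (l1 ++ l2) = D.sgl l2 :=
        sg_eq_of_altc_eq (D.setA_right l1 l2 h2) (D.setB_right l1 l2 h2)
          (D.disj l2 h2 ok2.2.1) hok.2.2.2 heq.2
      have s12 : D.sgl l1 * D.sgl l2 = 1 := by
        rw [← s1, ← s2]; exact sg_sq _ _
      have hx : (a1 * D.sgl l1) * (a2 * D.sgl l2) = a1 * a2 := by
        have : (a1 * D.sgl l1) * (a2 * D.sgl l2) = (a1 * a2) * (D.sgl l1 * D.sgl l2) := by ring
        rw [this, s12, mul_one]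
      rw [hx]
      have hprod : a ^ 2 ≤ a1 * a2 := by nlinarith
      rw [← heq.1] at e1
      rw [← heq.2] at e2
      rw [← heq.1, ← heq.2]
      linarith
    · have hlt : 2 * D.cc (l1 ++ l2) + 1 ≤ D.cc l1 + D.cc l2 := by
        by_contra hcon
        apply heq
        constructor <;> omega
      have hlt' : 2 * (D.cc (l1 ++ l2) : ℝ) + 1 ≤ (D.cc l1 : ℝ) + (D.cc l2 : ℝ) := by
        exact_mod_cast hlt
      have e4 : a ^ 2 * (2 * (D.cc (l1 ++ l2) : ℝ) + 1) ≤ a ^ 2 * ((D.cc l1 : ℝ) + (D.cc l2 : ℝ)) :=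
        mul_le_mul_of_nonneg_left hlt' hsq0
      linarith
  · rw [D.mu_of_not_ok _ hok]
    have t1 : 0 ≤ D.mu l1 ^ 2 * (D.cc l1 : ℝ) := mul_nonneg (sq_nonneg _) hc1
    have t2 : 0 ≤ D.mu l2 ^ 2 * (D.cc l2 : ℝ) := mul_nonneg (sq_nonneg _) hc2
    have : (0 : ℝ) ^ 2 = 0 := by norm_num
    rw [this]
    linarith

lemma mu_le_left (l1 l2 : List M) (h1 : l1 ≠ []) : D.mu (l1 ++ l2) ≤ D.mu l1 := by
  by_cases hok : D.ok (l1 ++ l2)
  · rw [D.mu_of_ok _ hok, D.mu_of_ok _ (D.ok_left l1 l2 h1 hok)]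
    exact D.mn_mono l1 (l1 ++ l2) h1 (fun m hm => List.mem_append_left _ hm)
  · rw [D.mu_of_not_ok _ hok]; exact D.mu_nonneg l1

noncomputable def Q77 (m : ℕ) : ℝ := C.E m (fun l => D.mu l ^ 2)
noncomputable def Phi77 (m : ℕ) : ℝ := C.E m (fun l => D.mu l ^ 2 * (D.cc l : ℝ))

lemma Phi77_nonneg (m : ℕ) : 0 ≤ D.Phi77 m :=
  E_nonneg C m _ (fun l _ => mul_nonneg (sq_nonneg _) (Nat.cast_nonneg _))

lemma take_ne77 {m : ℕ} (hm : 1 ≤ m) {l : List M} (hl : l.length = m + m) : l.take m ≠ [] := by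
  intro h
  have := congrArg List.length h
  rw [List.length_take, hl] at this
  simp at this
  omega

lemma drop_ne77 {m : ℕ} (hm : 1 ≤ m) {l : List M} (hl : l.length = m + m) : l.drop m ≠ [] := by
  intro h
  have := congrArg List.length h
  rw [List.length_drop, hl] at this
  simp at this
  omega

lemma Q77_double (m : ℕ) (hm : 1 ≤ m) : D.Q77 (m + m) ≤ D.Q77 m := by
  unfold Q77
  rw [← E_take C m m (fun l => D.mu l ^ 2)]
  apply E_mono
  intro l hl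
  have h1 := D.mu_le_left (l.take m) (l.drop m) (take_ne77 hm hl)
  rw [List.take_append_drop] at h1
  exact pow_le_pow_left₀ (D.mu_nonneg l) h1 2

lemma Phi77_double (m : ℕ) (hm : 1 ≤ m) :
    D.Phi77 (m + m) ≤ D.Phi77 m - D.Q77 (m + m) / 2 + D.Q77 m / 4 := by
  have hpt : C.E (m + m) (fun l => D.mu l ^ 2 * (D.cc l : ℝ)) ≤
      C.E (m + m) (fun l =>
        (1 / 2) * (D.mu (l.take m) ^ 2 * (D.cc (l.take m) : ℝ)) +
        ((1 / 2) * (D.mu (l.drop m) ^ 2 * (D.cc (l.drop m) : ℝ)) +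
        ((-1 / 2) * D.mu l ^ 2 + ((1 / 4) * (D.mu (l.take m) * D.mu (l.drop m)) +
          (1 / 4) * ((D.mu (l.take m) * D.sgl (l.take m)) *
            (D.mu (l.drop m) * D.sgl (l.drop m))))))) := by
    apply E_mono
    intro l hl
    have := D.pot_pointwise77 (l.take m) (l.drop m) (take_ne77 hm hl) (drop_ne77 hm hl)
    rw [List.take_append_drop] at this
    exact this
  have hanti := E_anti_le C m (fun l => D.mu l * D.sgl l) (fun l => D.musg_rv l)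
  have hprod := E_prod_le C m D.mu
  rw [E_add, E_add, E_add, E_add, E_const_mul, E_const_mul, E_const_mul, E_const_mul,
    E_const_mul, E_take C m m (fun l => D.mu l ^ 2 * (D.cc l : ℝ)),
    E_drop C m m (fun l => D.mu l ^ 2 * (D.cc l : ℝ))] at hpt
  unfold Phi77 Q77
  linarith

/-- telescoping -/
lemma Q77_pow (L : ℕ) : ((L : ℝ) + 1) * D.Q77 (2 ^ L) ≤ 4 * D.Phi77 1 + D.Q77 1 := by
  have key : ∀ L : ℕ, D.Phi77 (2 ^ L) + (1 / 4) * ((L : ℝ) + 1) * D.Q77 (2 ^ L)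
      ≤ D.Phi77 1 + (1 / 4) * D.Q77 1 := by
    intro L
    induction L with
    | zero => simp
    | succ L ih =>
      have hpos : 1 ≤ 2 ^ L := Nat.one_le_two_pow
      have e : 2 ^ (L + 1) = 2 ^ L + 2 ^ L := by rw [pow_succ]; ring
      have h1 := D.Phi77_double (2 ^ L) hpos
      have h2 := D.Q77_double (2 ^ L) hpos
      rw [← e] at h1 h2
      have hL : (0 : ℝ) ≤ (L : ℝ) := Nat.cast_nonneg _
      have h3 : (L : ℝ) * D.Q77 (2 ^ (L + 1)) ≤ (L : ℝ) * D.Q77 (2 ^ L) :=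
        mul_le_mul_of_nonneg_left h2 hL
      push_cast
      nlinarith
  have h := key L
  have h0 := D.Phi77_nonneg (2 ^ L)
  linarith

end Lab

end Vale.Agent.P125.BV
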