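import Vale.Agent.P125.BV.Top
import Vale.Agent.P125.BV.Pot77
import Vale.Agent.P125.BV.Deficit67
import Vale.Agent.P125.Char.Conv_A

set_option linter.unusedSectionVars false
set_option linter.unusedVariables false

/-!
# P125: proof of `BVProp` (the one-scale estimate (BV)) and of (alpha) in function form
-/

namespace Vale.Agent.P125.BV

open scoped BigOperators
open Vale.Agent.P125.Dich

variable {S M : Type} [Fintype S] [Fintype M]

lemma abs_le_supJ77 (n : ℕ) (h : ℕ → ℝ) (k : ℕ) (hk : k ≤ n) : |h k| ≤ supJ n h := by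
  unfold supJ
  exact Finset.le_sup' (fun k => |h k|) (Finset.mem_range.2 (by omega))

lemma exists_supJ77 (n : ℕ) (h : ℕ → ℝ) : ∃ k, k ≤ n ∧ supJ n h = |h k| := by
  obtain ⟨k, hk, h'⟩ := Finset.exists_mem_eq_sup' (s := Finset.range (n + 1)) ⟨0, by simp⟩
    (fun k => |h k|)
  exact ⟨k, by have := Finset.mem_range.1 hk; omega, h'⟩

lemma supJ_neg77 (n : ℕ) (h : ℕ → ℝ) : supJ n (-h) = supJ n h := by
  unfold supJ
  congr 1
  funext k
  simp

lemma sm_apply77 (g : M → ℕ → ℝ) (l : List M) (k : ℕ) :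
    sm g l k = (l.map (fun m => g m k)).sum := by
  induction l with
  | nil => simp [sm]
  | cons m l ih =>
    have : sm g (m :: l) = g m + sm g l := by simp [sm]
    rw [this, Pi.add_apply, ih]
    simp

lemma sm_single77 (g : M → ℕ → ℝ) (m : M) : sm g [m] = g m := by simp [sm]

/-- the labelling attached to a profile valued antisymmetric mark function -/
noncomputable def labOf (C : MChain S M) (n : ℕ) (g : M → ℕ → ℝ)
    (hg : ∀ m, g (C.inv m) = - g m) : Lab C where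
  g := g
  Nn := fun m => supJ n (g m)
  n := n
  hN := fun m k hk => abs_le_supJ77 n (g m) k hk
  hg := fun m k => by rw [hg m]; rfl
  hNi := fun m => by rw [hg m, supJ_neg77]

namespace Lab

variable {C : MChain S M} (D : Lab C)

lemma dfA_eq (l : List M) (k : ℕ) :
    D.dfA l k = (l.map D.Nn).sum - (l.map (fun m => D.g m k)).sum := by
  unfold dfA
  induction l with
  | nil => simp
  | cons a l ih =>
    simp only [List.map_cons, List.sum_cons]
    rw [ih]; ring

lemma dfB_eq (l : List M) (k : ℕ) :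
    D.dfB l k = (l.map D.Nn).sum + (l.map (fun m => D.g m k)).sum := by
  unfold dfB
  induction l with
  | nil => simp
  | cons a l ih =>
    simp only [List.map_cons, List.sum_cons]
    rw [ih]; ring

lemma mn_single (m : M) : D.mn [m] = D.Nn m := by
  obtain ⟨m', hm', h⟩ := D.mn_mem [m] (by simp)
  rw [List.mem_singleton] at hm'
  rw [← h, hm']

lemma mu_single_le (m : M) : D.mu [m] ≤ D.Nn m := by
  unfold mu
  split_ifs
  · rw [mn_single]
  · exact D.Nn_nonneg m

/-- fact (e) for a single mark -/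
lemma single_cc (m : M) :
    D.mu [m] ^ 2 * (D.cc [m] : ℝ) ≤ D.Nn m ^ 2 + D.Nn m * tv D.n (D.g m) := by
  have hN := D.Nn_nonneg m
  have htv : 0 ≤ tv D.n (D.g m) := Finset.sum_nonneg fun _ _ => abs_nonneg _
  by_cases hok : D.ok [m]
  · rw [D.mu_of_ok _ hok, mn_single]
    have hA : ∀ x ∈ D.setA [m], x ≤ D.n ∧ 3 / 4 * D.Nn m ≤ D.g m x := by
      intro x hx
      obtain ⟨h1, h2⟩ := (D.mem_setA _ x).1 hx
      refine ⟨h1, ?_⟩
      rw [mn_single, dfA_eq] at h2
      simp only [List.map_cons, List.map_nil, List.sum_cons, List.sum_nil, add_zero] at h2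
      linarith
    have hB : ∀ x ∈ D.setB [m], x ≤ D.n ∧ D.g m x ≤ -(3 / 4 * D.Nn m) := by
      intro x hx
      obtain ⟨h1, h2⟩ := (D.mem_setB _ x).1 hx
      refine ⟨h1, ?_⟩
      rw [mn_single, dfB_eq] at h2
      simp only [List.map_cons, List.map_nil, List.sum_cons, List.sum_nil, add_zero] at h2
      linarith
    have h := altc_var (D.g m) (3 / 4 * D.Nn m) (by positivity) D.n hA hB
    have h' : ((D.cc [m] : ℝ) - 1) * (2 * (3 / 4 * D.Nn m)) ≤ tv D.n (D.g m) := h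
    have h3 : D.Nn m * (((D.cc [m] : ℝ) - 1) * (2 * (3 / 4 * D.Nn m))) ≤
        D.Nn m * tv D.n (D.g m) := mul_le_mul_of_nonneg_left h' hN
    have h4 : 0 ≤ D.Nn m * tv D.n (D.g m) := mul_nonneg hN htv
    nlinarith
  · rw [D.mu_of_not_ok _ hok]
    have h4 : 0 ≤ D.Nn m * tv D.n (D.g m) := mul_nonneg hN htv
    have : (0 : ℝ) ^ 2 * (D.cc [m] : ℝ) = 0 := by ring
    rw [this]
    positivity

/-- the norm of the sum along a window -/
noncomputable def Tn (l : List M) : ℝ := supJ D.n (sm D.g l)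

lemma Tn_nonneg (l : List M) : 0 ≤ D.Tn l := supJ_nonneg _ _

lemma Tn_le (l : List M) : D.Tn l ≤ (l.map D.Nn).sum := by
  obtain ⟨k, hk, h⟩ := exists_supJ77 D.n (sm D.g l)
  unfold Tn
  rw [h, sm_apply77]
  have h1 := D.dfA_nonneg l k hk
  have h2 := D.dfB_nonneg l k hk
  rw [dfA_eq] at h1
  rw [dfB_eq] at h2
  rw [abs_le]
  constructor <;> linarith

lemma ok_of_small (l : List M) (hne : l ≠ []) (h1 : 0 < D.mn l) (h2 : D.mx l ≤ 2 * D.mn l)
    (h3 : (l.map D.Nn).sum - D.Tn l ≤ D.mn l / 4) : D.ok l := by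
  refine ⟨hne, h1, h2, ?_⟩
  obtain ⟨k, hk, h⟩ := exists_supJ77 D.n (sm D.g l)
  unfold Tn at h3
  rw [h, sm_apply77] at h3
  refine ⟨k, ?_⟩
  rcases le_total 0 ((l.map (fun m => D.g m k)).sum) with h0 | h0
  · rw [abs_of_nonneg h0] at h3
    apply Finset.mem_union_left
    rw [mem_setA, dfA_eq]
    exact ⟨hk, h3⟩
  · rw [abs_of_nonpos h0] at h3
    apply Finset.mem_union_right
    rw [mem_setB, dfB_eq]
    exact ⟨hk, by linarith⟩

/-- pointwise deficit -/
lemma Tn_sq_le (l : List M) (hne : l ≠ []) :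
    D.Tn l ^ 2 ≤ ((l.length : ℝ) - 1 / 16) * (l.map (fun m => D.Nn m ^ 2)).sum
      + ((l.length : ℝ) / 4) * D.mu l ^ 2 := by
  classical
  obtain ⟨m1, hm1, e1⟩ := D.mn_mem l hne
  obtain ⟨m2, hm2, e2⟩ := D.mx_mem l hne
  have hd := D67.deficit_pointwise (l.map D.Nn)
    (by
      intro x hx
      obtain ⟨a, _, rfl⟩ := List.mem_map.1 hx
      exact D.Nn_nonneg a)
    (D.mn l) (D.mx l) (D.Tn l)
    (by rw [← e1]; exact List.mem_map_of_mem hm1)
    (by rw [← e2]; exact List.mem_map_of_mem hm2)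
    (by
      intro x hx
      obtain ⟨a, ha, rfl⟩ := List.mem_map.1 hx
      exact D.mn_le l a ha)
    (by
      intro x hx
      obtain ⟨a, ha, rfl⟩ := List.mem_map.1 hx
      exact D.le_mx l a ha)
    (D.Tn_nonneg l) (D.Tn_le l)
  rw [List.length_map, List.map_map] at hd
  have hcomp : ((fun x : ℝ => x ^ 2) ∘ D.Nn) = (fun m => D.Nn m ^ 2) := rfl
  rw [hcomp] at hd
  have h2 : D.mn l ^ 2 * (if (0 < D.mn l ∧ D.mx l ≤ 2 * D.mn l ∧
      (l.map D.Nn).sum - D.Tn l ≤ D.mn l / 4) then (1 : ℝ) else 0) ≤ D.mu l ^ 2 := by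
    split_ifs with h
    · rw [D.mu_of_ok l (D.ok_of_small l hne h.1 h.2.1 h.2.2), mul_one]
    · rw [mul_zero]; exact sq_nonneg _
  have hM : (0 : ℝ) ≤ (l.length : ℝ) := Nat.cast_nonneg _
  have h3 := mul_le_mul_of_nonneg_left h2 hM
  linarith

end Lab

/-- **(BV)** -/
theorem bvProp77 : BVProp := by
  intro S M _ _ C n g hg L
  set D : Lab C := labOf C n g hg with hD
  have hDg : D.g = g := rfl
  have hDn : D.n = n := rfl
  have hDN : ∀ m, D.Nn m = supJ n (g m) := fun m => rfl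
  set EN := C.E 1 (fun l => supJ n (sm g l) ^ 2) with hEN
  set ENV := C.E 1 (fun l => supJ n (sm g l) * tv n (sm g l)) with hENV
  set Mr : ℝ := (2 : ℝ) ^ L with hMr
  have hMr0 : 0 < Mr := by positivity
  have len1 : ∀ l : List M, l.length = 1 → ∃ m, l = [m] := by
    intro l hl
    exact List.length_eq_one_iff.1 hl
  have hEN' : C.E 1 (fun l => (l.map (fun m => D.Nn m ^ 2)).sum) = EN := by
    apply E_congr
    intro l hl
    obtain ⟨m, rfl⟩ := len1 l hl
    simp [sm_single77, hDN]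
  have hQ1 : D.Q77 1 ≤ EN := by
    unfold Lab.Q77
    apply E_mono
    intro l hl
    obtain ⟨m, rfl⟩ := len1 l hl
    rw [sm_single77]
    exact pow_le_pow_left₀ (D.mu_nonneg _) (D.mu_single_le m) 2
  have hP1 : D.Phi77 1 ≤ EN + ENV := by
    unfold Lab.Phi77
    rw [hEN, hENV, ← E_add]
    apply E_mono
    intro l hl
    obtain ⟨m, rfl⟩ := len1 l hl
    rw [sm_single77]
    exact D.single_cc m
  have hQ := D.Q77_pow L
  have hL1 : (0 : ℝ) < (L : ℝ) + 1 := by positivity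
  have hQ' : D.Q77 (2 ^ L) ≤ (5 * EN + 4 * ENV) / ((L : ℝ) + 1) := by
    rw [le_div_iff₀ hL1]
    linarith
  have hcast : ((2 ^ L : ℕ) : ℝ) = Mr := by
    rw [hMr]; push_cast; rfl
  have h1 : C.E (2 ^ L) (fun l => supJ n (sm g l) ^ 2) ≤
      C.E (2 ^ L) (fun l => (Mr - 1 / 16) * (l.map (fun m => D.Nn m ^ 2)).sum
        + (Mr / 4) * D.mu l ^ 2) := by
    apply E_mono
    intro l hl
    have hne : l ≠ [] := by
      intro h
      rw [h] at hl
      have : 0 < 2 ^ L := by positivity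
      simp at hl
      omega
    have := D.Tn_sq_le l hne
    rw [hl, hcast] at this
    exact this
  rw [E_add, E_const_mul, E_const_mul, Vale.Agent.P125.Char.E_sum_marks, hEN', hcast] at h1
  have h2 : C.E (2 ^ L) (fun l => D.mu l ^ 2) = D.Q77 (2 ^ L) := rfl
  rw [h2] at h1
  have h3 : (Mr / 4) * D.Q77 (2 ^ L) ≤ (Mr / 4) * ((5 * EN + 4 * ENV) / ((L : ℝ) + 1)) :=
    mul_le_mul_of_nonneg_left hQ' (by positivity)
  calc C.E (2 ^ L) (fun l => supJ n (sm g l) ^ 2)
      ≤ (Mr - 1 / 16) * (Mr * EN) + Mr / 4 * D.Q77 (2 ^ L) := h1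
    _ ≤ (Mr - 1 / 16) * (Mr * EN) + (Mr / 4) * ((5 * EN + 4 * ENV) / ((L : ℝ) + 1)) := by linarith
    _ = Mr ^ 2 * EN - Mr / 16 * (EN - 4 * (5 * EN + 4 * ENV) / ((L : ℝ) + 1)) := by ring

/-- **(alpha)** in function form -/
theorem alpha77 : ∀ ε : ℝ, 0 < ε → ∃ t : ℕ, 1 ≤ t ∧ RFun t ε := alpha_of_BV bvProp77

end Vale.Agent.P125.BV
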