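import Vale.Agent.P125.BV.Pot89
import Vale.Agent.P125.BV.Def89
import Vale.Agent.P125.Char.Conv_A

set_option linter.unusedSectionVars false
set_option linter.unusedVariables false

/-!
# P125, (BV) for marked reversible chains
-/

namespace Vale.Agent.P125.BV.W89

open scoped BigOperators
open Vale.Agent.P125.Dich Vale.Agent.P125.Char

section Pt

variable {M : Type} (g : M → ℕ → ℝ) (n : ℕ)

lemma Tn_nonneg (l : List M) : 0 ≤ Tn g n l := Jn_nonneg _ _

lemma Tn_le_sum (l : List M) : Tn g n l ≤ (l.map (Nn g n)).sum := by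
  apply Jn_le
  intro k hk
  induction l with
  | nil => simp
  | cons m l ih =>
    simp only [List.map_cons, List.sum_cons]
    exact (abs_add_le _ _).trans (add_le_add (abs_le_Jn n (g m) hk) ih)

lemma ok_of_cond {l : List M} (h0 : 0 < mn g n l) (h1 : mx g n l ≤ 2 * mn g n l)
    (h2 : (l.map (Nn g n)).sum - Tn g n l ≤ mn g n l / 4) : ok g n l := by
  refine ⟨h0, h1, ?_⟩
  obtain ⟨k, hk, he⟩ := exists_Jn n (fun k => (l.map (fun m => g m k)).sum)
  have he' : |(l.map (fun m => g m k)).sum| = Tn g n l := he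
  rcases abs_cases ((l.map (fun m => g m k)).sum) with ⟨e, _⟩ | ⟨e, _⟩
  · refine ⟨k, Finset.mem_union_left _ ?_⟩
    rw [mem_setA, sum_sub]
    refine ⟨hk, ?_⟩
    rw [← he', e] at h2
    exact h2
  · refine ⟨k, Finset.mem_union_right _ ?_⟩
    rw [mem_setB, sum_add]
    refine ⟨hk, ?_⟩
    rw [← he', e] at h2
    linarith

lemma deficit_pt {l : List M} (hl : l ≠ []) :
    Tn g n l ^ 2 ≤ ((l.length : ℝ) - 1 / 16) * (l.map (fun m => Nn g n m ^ 2)).sum
      + (1 / 4 * (l.length : ℝ)) * mu g n l ^ 2 := by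
  obtain ⟨m0, hm0, e0⟩ := mnL_mem (Nn g n) hl
  obtain ⟨m1, hm1, e1⟩ := mxL_mem (Nn g n) hl
  have key := W89d.deficit_list (l.map (Nn g n))
    (by
      intro a ha
      obtain ⟨m, _, rfl⟩ := List.mem_map.1 ha
      exact Nn_nonneg g n m)
    (mn g n l) (mx g n l) (Tn g n l)
    (by
      intro a ha
      obtain ⟨m, hm, rfl⟩ := List.mem_map.1 ha
      exact mnL_le _ hm)
    (List.mem_map.2 ⟨m0, hm0, e0⟩)
    (by
      intro a ha
      obtain ⟨m, hm, rfl⟩ := List.mem_map.1 ha
      exact le_mxL _ hm)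
    (List.mem_map.2 ⟨m1, hm1, e1⟩)
    (Tn_nonneg g n l) (Tn_le_sum g n l)
  rw [List.map_map, List.length_map] at key
  have e2 : (l.map ((fun a => a ^ 2) ∘ Nn g n)).sum = (l.map (fun m => Nn g n m ^ 2)).sum := rfl
  rw [e2] at key
  have hlen : (0 : ℝ) ≤ (l.length : ℝ) := Nat.cast_nonneg _
  have hif : (if 0 < mn g n l ∧ mx g n l ≤ 2 * mn g n l ∧
      (l.map (Nn g n)).sum - Tn g n l ≤ mn g n l / 4 then
        (1 / 4) * (l.length : ℝ) * mn g n l ^ 2 else 0) ≤ (1 / 4 * (l.length : ℝ)) * mu g n l ^ 2 := by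
    split_ifs with hc
    · rw [mu_of_ok g n (ok_of_cond g n hc.1 hc.2.1 hc.2.2)]
    · positivity
  linarith

end Pt

section Ex

variable {S M : Type} [Fintype S] [Fintype M] (C : MChain S M) (g : M → ℕ → ℝ) (n : ℕ)

lemma Q_bound (hg : ∀ m k, g (C.inv m) k = - g m k) (L : ℕ) :
    C.E (2 ^ L) (fun l => mu g n l ^ 2) ≤
      (5 * C.E 1 (fun l => (l.map (fun m => Nn g n m ^ 2)).sum) +
        4 * C.E 1 (fun l => (l.map (fun m => Nn g n m * Vn g n m)).sum)) / ((L : ℝ) + 1) := by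
  have ht := W89d.telescope (fun j => C.E (2 ^ j) (phi g n))
    (fun j => C.E (2 ^ j) (fun l => mu g n l ^ 2))
    (fun j => E_nonneg C _ _ (fun l _ => phi_nonneg g n l))
    (by
      intro j
      have := Q_mono C g n (2 ^ j) Nat.one_le_two_pow
      have e : 2 ^ (j + 1) = 2 ^ j + 2 ^ j := by rw [pow_succ]; ring
      simp only [e]
      exact this)
    (by
      intro j
      have := rec_E C g n hg (2 ^ j) Nat.one_le_two_pow
      have e : 2 ^ (j + 1) = 2 ^ j + 2 ^ j := by rw [pow_succ]; ring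
      simp only [e]
      exact this) L
  simp only [pow_zero] at ht
  have h1 : C.E 1 (phi g n) ≤ C.E 1 (fun l => (l.map (fun m => Nn g n m ^ 2)).sum
      + (l.map (fun m => Nn g n m * Vn g n m)).sum) := by
    apply E_mono
    intro l hl
    obtain ⟨m, rfl⟩ := List.length_eq_one_iff.1 hl
    have := phi_single g n m
    simpa using this
  rw [E_add] at h1
  have h2 : C.E 1 (fun l => mu g n l ^ 2) ≤ C.E 1 (fun l => (l.map (fun m => Nn g n m ^ 2)).sum) := by
    apply E_mono
    intro l hl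
    obtain ⟨m, rfl⟩ := List.length_eq_one_iff.1 hl
    have := mu_single_le g n m
    simpa using this
  refine ht.trans ?_
  have hL : (0 : ℝ) < (L : ℝ) + 1 := by positivity
  apply div_le_div_of_nonneg_right _ hL.le
  linarith

/-- (BV) for marked chains -/
theorem BV_mark (hg : ∀ m k, g (C.inv m) k = - g m k) (L : ℕ) :
    C.E (2 ^ L) (fun l => Tn g n l ^ 2) ≤
      ((2 : ℝ) ^ L) ^ 2 * C.E 1 (fun l => (l.map (fun m => Nn g n m ^ 2)).sum) -
        ((2 : ℝ) ^ L / 16) * (C.E 1 (fun l => (l.map (fun m => Nn g n m ^ 2)).sum) -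
          4 * (5 * C.E 1 (fun l => (l.map (fun m => Nn g n m ^ 2)).sum) +
            4 * C.E 1 (fun l => (l.map (fun m => Nn g n m * Vn g n m)).sum)) / ((L : ℝ) + 1)) := by
  have h1 : C.E (2 ^ L) (fun l => Tn g n l ^ 2) ≤
      C.E (2 ^ L) (fun l => ((2 : ℝ) ^ L - 1 / 16) * (l.map (fun m => Nn g n m ^ 2)).sum
        + (1 / 4 * (2 : ℝ) ^ L) * mu g n l ^ 2) := by
    apply E_mono
    intro l hl
    have hne : l ≠ [] := by
      intro h
      rw [h] at hl
      have : 0 < 2 ^ L := Nat.two_pow_pos L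
      simp at hl
      omega
    have := deficit_pt g n hne
    rw [hl] at this
    push_cast at this
    exact this
  rw [E_add, E_const_mul, E_const_mul, E_sum_marks] at h1
  have h2 := Q_bound C g n hg L
  have h3 : (0 : ℝ) < (2 : ℝ) ^ L := by positivity
  have h4 := mul_le_mul_of_nonneg_left h2 (by positivity : (0 : ℝ) ≤ 1 / 4 * (2 : ℝ) ^ L)
  push_cast at h1
  refine (h1.trans (add_le_add le_rfl h4)).trans (le_of_eq ?_)
  ring

end Ex

end Vale.Agent.P125.BV.W89
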