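import Vale.Agent.P125.BV.Abs27
import Vale.Agent.P125.BV.Win89b
import Vale.Agent.P125.BV.Top

set_option linter.unusedSectionVars false
set_option linter.unusedVariables false

/-!
# P125 : the estimate (BV) for marked chains (assembly)

`bvProp : BVProp` from the abstract form `BV27.bv_abstract` (helper27) and the concrete windows
of helper89 (`W89`).
-/

namespace Vale.Agent.P125.BV.M96

open scoped BigOperators
open Vale.Agent.P125.Dich Vale.Agent.P125.BV.W89

variable {S M : Type} [Fintype S] [Fintype M]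

lemma mu_eq_of_ne (g : M → ℕ → ℝ) (n : ℕ) {l : List M} (h : mu g n l ≠ 0) : ok g n l := by
  by_contra hn
  apply h
  unfold mu
  rw [if_neg hn]

lemma mu_le_left (g : M → ℕ → ℝ) (n : ℕ) (l1 l2 : List M) (h1 : l1 ≠ []) :
    mu g n (l1 ++ l2) ≤ mu g n l1 := by
  by_cases h : ok g n (l1 ++ l2)
  · have h' := ok_left g n h1 h
    unfold mu
    rw [if_pos h, if_pos h']
    exact mnL_mono _ h1 (fun m hm => List.mem_append_left _ hm)
  · have : mu g n (l1 ++ l2) = 0 := by unfold mu; rw [if_neg h]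
    rw [this]
    exact mu_nonneg g n l1

lemma mu_le_right (g : M → ℕ → ℝ) (n : ℕ) (l1 l2 : List M) (h2 : l2 ≠ []) :
    mu g n (l1 ++ l2) ≤ mu g n l2 := by
  by_cases h : ok g n (l1 ++ l2)
  · have h' := ok_right g n h2 h
    unfold mu
    rw [if_pos h, if_pos h']
    exact mnL_mono _ h2 (fun m hm => List.mem_append_right _ hm)
  · have : mu g n (l1 ++ l2) = 0 := by unfold mu; rw [if_neg h]
    rw [this]
    exact mu_nonneg g n l2

theorem pot (C : MChain S M) (g : M → ℕ → ℝ) (n : ℕ) (hg : ∀ m k, g (C.inv m) k = - g m k) :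
    BV27.Pot C (mu g n) (sgl g n) (cc g n) where
  mu_nonneg := mu_nonneg g n
  mu_rev := mu_rev g n C.inv hg
  sg_pm := fun l => sg_eq_or _ _
  sg_rev := by
    intro l h
    have hok := mu_eq_of_ne g n h
    unfold sgl
    rw [setA_rev g n C.inv hg, setB_rev g n C.inv hg]
    exact sg_swap (disj g n (ok_ne_nil g n hok) hok.1) hok.2.2
  mu_left := fun l1 l2 h1 _ => mu_le_left g n l1 l2 h1
  mu_right := fun l1 l2 _ h2 => mu_le_right g n l1 l2 h2
  cc_left := fun l1 l2 h1 _ _ => altc_mono (setA_sub_left g n h1) (setB_sub_left g n h1)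
  cc_right := fun l1 l2 _ h2 _ => altc_mono (setA_sub_right g n h2) (setB_sub_right g n h2)
  sg_left := by
    intro l1 l2 h1 _ h hc
    have hok := mu_eq_of_ne g n h
    have hok1 := ok_left g n h1 hok
    exact sg_eq_of_altc_eq (setA_sub_left g n h1) (setB_sub_left g n h1)
      (disj g n h1 hok1.1) hok.2.2 hc
  sg_right := by
    intro l1 l2 _ h2 h hc
    have hok := mu_eq_of_ne g n h
    have hok2 := ok_right g n h2 hok
    exact sg_eq_of_altc_eq (setA_sub_right g n h2) (setB_sub_right g n h2)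
      (disj g n h2 hok2.1) hok.2.2 hc

lemma abs_sum_le (g : M → ℕ → ℝ) (n : ℕ) (l : List M) {k : ℕ} (hk : k ≤ n) :
    |(l.map (fun m => g m k)).sum| ≤ (l.map (Nn g n)).sum := by
  induction l with
  | nil => simp
  | cons m l ih =>
    simp only [List.map_cons, List.sum_cons]
    have h1 : |g m k| ≤ Nn g n m := abs_le_Jn n (g m) hk
    exact (abs_add_le _ _).trans (add_le_add h1 ih)

lemma Tn_le (g : M → ℕ → ℝ) (n : ℕ) (l : List M) : Tn g n l ≤ (l.map (Nn g n)).sum :=
  Jn_le n _ _ (fun k hk => abs_sum_le g n l hk)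

lemma link (g : M → ℕ → ℝ) (n : ℕ) (l : List M) (h0 : 0 < mn g n l)
    (h1 : mx g n l ≤ 2 * mn g n l) (h2 : (l.map (Nn g n)).sum - Tn g n l ≤ mn g n l / 4) :
    mu g n l = mn g n l := by
  have hok : ok g n l := by
    refine ⟨h0, h1, ?_⟩
    obtain ⟨k, hk, he⟩ := exists_Jn n (fun k => (l.map (fun m => g m k)).sum)
    have he' : |(l.map (fun m => g m k)).sum| = Tn g n l := he
    rcases le_total 0 ((l.map (fun m => g m k)).sum) with hs | hs
    · refine ⟨k, Finset.mem_union_left _ ?_⟩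
      rw [mem_setA, sum_sub]
      rw [abs_of_nonneg hs] at he'
      exact ⟨hk, by linarith⟩
    · refine ⟨k, Finset.mem_union_right _ ?_⟩
      rw [mem_setB, sum_add]
      rw [abs_of_nonpos hs] at he'
      exact ⟨hk, by linarith⟩
  unfold mu
  rw [if_pos hok]

lemma sm_apply (g : M → ℕ → ℝ) (l : List M) (k : ℕ) :
    sm g l k = (l.map (fun m => g m k)).sum := by
  unfold sm
  induction l with
  | nil => simp
  | cons m l ih => simp [ih]

lemma supJ_sm (g : M → ℕ → ℝ) (n : ℕ) (l : List M) : supJ n (sm g l) = Tn g n l := by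
  have : sm g l = fun k => (l.map (fun m => g m k)).sum := funext (sm_apply g l)
  rw [this]
  rfl

lemma sm_single (g : M → ℕ → ℝ) (m : M) : sm g [m] = g m := by
  simp [sm]

theorem bvProp : BVProp := by
  intro S M _ _ C n g hg L
  have hg' : ∀ m k, g (C.inv m) k = - g m k := by
    intro m k
    rw [hg m]
    rfl
  have h := BV27.bv_abstract C (Nn g n) (Vn g n) (Tn g n) (mn g n) (mx g n) (mu g n) (sgl g n)
    (cc g n) (pot C g n hg') (Nn_nonneg g n) (fun l => Jn_nonneg n _) (Tn_le g n)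
    (fun l hl => by
      obtain ⟨m, hm, he⟩ := mnL_mem (Nn g n) hl
      exact List.mem_map.2 ⟨m, hm, he⟩)
    (fun l hl => by
      obtain ⟨m, hm, he⟩ := mxL_mem (Nn g n) hl
      exact List.mem_map.2 ⟨m, hm, he⟩)
    (fun l x hx => by
      obtain ⟨m, hm, rfl⟩ := List.mem_map.1 hx
      exact ⟨mnL_le _ hm, le_mxL _ hm⟩)
    (fun l _ h0 h1 h2 => link g n l h0 h1 h2)
    (fun m => phi_single g n m) (fun m => mu_single_le g n m) L
  have e1 : C.E (2 ^ L) (fun l => supJ n (sm g l) ^ 2) = C.E (2 ^ L) (fun l => Tn g n l ^ 2) :=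
    E_congr C _ _ _ (fun l _ => by rw [supJ_sm])
  have e2 : C.E 1 (fun l => supJ n (sm g l) ^ 2) =
      C.E 1 (fun l => (l.map (fun m => Nn g n m ^ 2)).sum) :=
    E_congr C _ _ _ (fun l hl => by
      obtain ⟨m, rfl⟩ := List.length_eq_one_iff.1 hl
      rw [sm_single]
      simp only [List.map_cons, List.map_nil, List.sum_cons, List.sum_nil, add_zero]
      rfl)
  have e3 : C.E 1 (fun l => supJ n (sm g l) * tv n (sm g l)) =
      C.E 1 (fun l => (l.map (fun m => Nn g n m * Vn g n m)).sum) :=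
    E_congr C _ _ _ (fun l hl => by
      obtain ⟨m, rfl⟩ := List.length_eq_one_iff.1 hl
      rw [sm_single]
      simp only [List.map_cons, List.map_nil, List.sum_cons, List.sum_nil, add_zero]
      rfl)
  rw [e1, e2, e3]
  exact h

end Vale.Agent.P125.BV.M96
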