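import Vale.Agent.P125.BV.Conc27

/-!
# P125: the summing operators are uniformly sub-ballistic on reversible Markov chains
-/

namespace Vale.Agent.P125.BV27

open scoped BigOperators
open Vale.Agent.P125.Dich Vale.Agent.P125.Alpha Vale.Agent.P125.BV27

/-- For every `ε > 0` there is a time `t ≥ 1`, depending on `ε` only, such that for every
dimension `n`, every stationary reversible Markov chain `(μ, P)` on a finite set `S` and every
`f : S → ℝ ^ n`,
`E max_k |∑_{a < k} (f (Z_t) - f (Z_0))_a| ^ 2 ≤ ε t ^ 2 E (∑_a |(f (Z_1) - f (Z_0))_a|) ^ 2`. -/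
theorem alpha_plain : ∀ ε : ℝ, 0 < ε → ∃ t : ℕ, 1 ≤ t ∧
    ∀ (n : ℕ) (S : Type) [Fintype S] [DecidableEq S] (μ : S → ℝ) (P : Matrix S S ℝ),
      (∀ i, 0 ≤ μ i) → ∑ i, μ i = 1 → (∀ i j, 0 ≤ P i j) → (∀ i, ∑ j, P i j = 1) →
      (∀ i j, μ i * P i j = μ j * P j i) →
      ∀ f : S → Fin n → ℝ,
        ∑ i, ∑ j, μ i * (P ^ t) i j *
            (⨆ k : Fin (n + 1), |∑ a : Fin n, if a.val < k.val then f j a - f i a else 0|) ^ 2 ≤
          ε * (t : ℝ) ^ 2 * ∑ i, ∑ j, μ i * P i j * (∑ a : Fin n, |f j a - f i a|) ^ 2 := by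
  intro ε hε
  obtain ⟨t, ht, h⟩ := alpha_main ε hε
  refine ⟨t, ht, ?_⟩
  intro n S _ _ μ P h0 h1 h2 h3 h4 f
  have hc : IsChain μ P := ⟨h0, h1, h2, h3, h4⟩
  have key := h n S μ P hc f
  have hpow := isChain_pow hc t
  refine le_trans ?_ key
  refine Finset.sum_le_sum fun i _ => Finset.sum_le_sum fun j _ => ?_
  refine mul_le_mul_of_nonneg_left ?_ (mul_nonneg (h0 i) (hpow.2.2.1 i j))
  have hle : (⨆ k : Fin (n + 1), |∑ a : Fin n, if a.val < k.val then f j a - f i a else 0|)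
      ≤ nJ (f j - f i) := by
    apply ciSup_le
    intro k
    exact abs_pre_le_nJ (f j - f i) k.val (Nat.lt_succ_iff.1 k.isLt)
  have hnn : 0 ≤ (⨆ k : Fin (n + 1), |∑ a : Fin n, if a.val < k.val then f j a - f i a else 0|) :=
    Real.iSup_nonneg fun k => abs_nonneg _
  exact pow_le_pow_left₀ hnn hle 2

end Vale.Agent.P125.BV27
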