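import Vale.Agent.P125.BV.Win89b
import Vale.Agent.P125.BV.Iid

set_option linter.unusedSectionVars false
set_option linter.unusedVariables false

/-!
# P125, (BV): the potential recursion
-/

namespace Vale.Agent.P125.BV.W89

open scoped BigOperators
open Vale.Agent.P125.Dich

section Pt

variable {M : Type} (g : M → ℕ → ℝ) (n : ℕ)

lemma mu_of_ok {l : List M} (h : ok g n l) : mu g n l = mn g n l := by
  unfold mu
  rw [if_pos h]

lemma mu_of_not_ok {l : List M} (h : ¬ ok g n l) : mu g n l = 0 := by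
  unfold mu
  rw [if_neg h]

lemma prod_nonneg (l1 l2 : List M) :
    0 ≤ mu g n l1 * mu g n l2 + psi g n l1 * psi g n l2 := by
  unfold psi sgl
  have h1 := mu_nonneg g n l1
  have h2 := mu_nonneg g n l2
  have h3 := mul_nonneg h1 h2
  rcases sg_eq_or (setA g n l1) (setB g n l1) with e1 | e1 <;>
    rcases sg_eq_or (setA g n l2) (setB g n l2) with e2 | e2 <;> rw [e1, e2] <;> nlinarith

/-- monotonicity of the weight -/
lemma mu_le_left {l1 l2 : List M} (h1 : l1 ≠ []) : mu g n (l1 ++ l2) ≤ mu g n l1 := by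
  by_cases h : ok g n (l1 ++ l2)
  · rw [mu_of_ok g n h, mu_of_ok g n (ok_left g n h1 h)]
    exact mnL_mono _ h1 (fun m hm => List.mem_append_left _ hm)
  · rw [mu_of_not_ok g n h]
    exact mu_nonneg g n l1

lemma mu_le_right {l1 l2 : List M} (h1 : l2 ≠ []) : mu g n (l1 ++ l2) ≤ mu g n l2 := by
  by_cases h : ok g n (l1 ++ l2)
  · rw [mu_of_ok g n h, mu_of_ok g n (ok_right g n h1 h)]
    exact mnL_mono _ h1 (fun m hm => List.mem_append_right _ hm)
  · rw [mu_of_not_ok g n h]
    exact mu_nonneg g n l2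

/-- the pointwise recursion -/
lemma pointwise {l1 l2 : List M} (h1 : l1 ≠ []) (h2 : l2 ≠ []) :
    phi g n (l1 ++ l2) ≤ (phi g n l1 + phi g n l2) / 2 - mu g n (l1 ++ l2) ^ 2 / 2
      + (mu g n l1 * mu g n l2 + psi g n l1 * psi g n l2) / 4 := by
  by_cases h : ok g n (l1 ++ l2)
  · have o1 := ok_left g n h1 h
    have o2 := ok_right g n h2 h
    have a0 : 0 < mu g n (l1 ++ l2) := by
      rw [mu_of_ok g n h]
      exact h.1
    have a1 := mu_le_left g n (l2 := l2) h1
    have a2 := mu_le_right g n (l1 := l1) h2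
    have c1 : cc g n (l1 ++ l2) ≤ cc g n l1 :=
      altc_mono (setA_sub_left g n h1) (setB_sub_left g n h1)
    have c2 : cc g n (l1 ++ l2) ≤ cc g n l2 :=
      altc_mono (setA_sub_right g n h2) (setB_sub_right g n h2)
    set a := mu g n (l1 ++ l2) with ha
    set b1 := mu g n l1 with hb1
    set b2 := mu g n l2 with hb2
    have q1 : a ^ 2 ≤ b1 ^ 2 := pow_le_pow_left₀ a0.le a1 2
    have q2 : a ^ 2 ≤ b2 ^ 2 := pow_le_pow_left₀ a0.le a2 2
    have q3 : a ^ 2 ≤ b1 * b2 := by nlinarith
    have k1 : (0 : ℝ) ≤ (cc g n l1 : ℝ) := Nat.cast_nonneg _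
    have k2 : (0 : ℝ) ≤ (cc g n l2 : ℝ) := Nat.cast_nonneg _
    have p1 : a ^ 2 * (cc g n l1 : ℝ) ≤ phi g n l1 := by
      unfold phi
      exact mul_le_mul_of_nonneg_right q1 k1
    have p2 : a ^ 2 * (cc g n l2 : ℝ) ≤ phi g n l2 := by
      unfold phi
      exact mul_le_mul_of_nonneg_right q2 k2
    have p0 : phi g n (l1 ++ l2) = a ^ 2 * (cc g n (l1 ++ l2) : ℝ) := rfl
    by_cases hc : cc g n (l1 ++ l2) = cc g n l1 ∧ cc g n (l1 ++ l2) = cc g n l2
    · have s1 : sgl g n (l1 ++ l2) = sgl g n l1 :=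
        sg_eq_of_altc_eq (setA_sub_left g n h1) (setB_sub_left g n h1)
          (disj g n h1 o1.1) h.2.2 hc.1
      have s2 : sgl g n (l1 ++ l2) = sgl g n l2 :=
        sg_eq_of_altc_eq (setA_sub_right g n h2) (setB_sub_right g n h2)
          (disj g n h2 o2.1) h.2.2 hc.2
      have s3 : psi g n l1 * psi g n l2 = b1 * b2 := by
        unfold psi
        rw [← s1, ← s2]
        have := sg_sq (setA g n (l1 ++ l2)) (setB g n (l1 ++ l2))
        have e : sgl g n (l1 ++ l2) * sgl g n (l1 ++ l2) = 1 := this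
        calc mu g n l1 * sgl g n (l1 ++ l2) * (mu g n l2 * sgl g n (l1 ++ l2))
            = mu g n l1 * mu g n l2 * (sgl g n (l1 ++ l2) * sgl g n (l1 ++ l2)) := by ring
          _ = b1 * b2 := by rw [e, mul_one]
      rw [s3, p0]
      rw [← hc.1] at p1
      rw [← hc.2] at p2
      linarith
    · have hsum : 2 * cc g n (l1 ++ l2) + 1 ≤ cc g n l1 + cc g n l2 := by
        by_contra hlt
        apply hc
        constructor <;> omega
      have hsum' : 2 * (cc g n (l1 ++ l2) : ℝ) + 1 ≤ (cc g n l1 : ℝ) + (cc g n l2 : ℝ) := by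
        exact_mod_cast hsum
      have hp := prod_nonneg g n l1 l2
      have hmul := mul_le_mul_of_nonneg_left hsum' (sq_nonneg a)
      rw [p0]
      nlinarith
  · have e0 : mu g n (l1 ++ l2) = 0 := mu_of_not_ok g n h
    have e1 : phi g n (l1 ++ l2) = 0 := by
      unfold phi
      rw [e0]
      ring
    rw [e0, e1]
    have := prod_nonneg g n l1 l2
    have := phi_nonneg g n l1
    have := phi_nonneg g n l2
    nlinarith

end Pt

section Ex

variable {S M : Type} [Fintype S] [Fintype M] (C : MChain S M) (g : M → ℕ → ℝ) (n : ℕ)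

lemma split_ne {m : ℕ} (hm : 1 ≤ m) {l : List M} (hl : l.length = m + m) :
    l.take m ≠ [] ∧ l.drop m ≠ [] := by
  constructor
  · intro h
    have := congrArg List.length h
    rw [List.length_take, hl] at this
    simp at this
    omega
  · intro h
    have := congrArg List.length h
    rw [List.length_drop, hl] at this
    simp at this
    omega

/-- the recursion for the expectations -/
lemma rec_E (hg : ∀ m k, g (C.inv m) k = - g m k) (m : ℕ) (hm : 1 ≤ m) :
    C.E (m + m) (phi g n) ≤ C.E m (phi g n) - C.E (m + m) (fun l => mu g n l ^ 2) / 2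
      + C.E m (fun l => mu g n l ^ 2) / 4 := by
  have h1 : C.E (m + m) (fun l => phi g n l + (1 / 2) * mu g n l ^ 2) ≤
      C.E (m + m) (fun l => ((1 / 2) * phi g n (l.take m) + (1 / 2) * phi g n (l.drop m)) +
        ((1 / 4) * (mu g n (l.take m) * mu g n (l.drop m)) +
          (1 / 4) * (psi g n (l.take m) * psi g n (l.drop m)))) := by
    apply E_mono
    intro l hl
    obtain ⟨n1, n2⟩ := split_ne hm hl
    have := pointwise g n n1 n2
    rw [List.take_append_drop] at this
    linarith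
  rw [E_add, E_add, E_add, E_add, E_const_mul, E_const_mul, E_const_mul, E_const_mul,
    E_const_mul, E_take C m m (phi g n), E_drop C m m (phi g n)] at h1
  have h2 := E_anti_le C m (psi g n) (psi_rev g n C.inv hg)
  have h3 := E_prod_le C m (mu g n)
  linarith

lemma Q_mono (m : ℕ) (hm : 1 ≤ m) :
    C.E (m + m) (fun l => mu g n l ^ 2) ≤ C.E m (fun l => mu g n l ^ 2) := by
  rw [← E_take C m m (fun l => mu g n l ^ 2)]
  apply E_mono
  intro l hl
  obtain ⟨n1, n2⟩ := split_ne hm hl
  have := mu_le_left g n (l1 := l.take m) (l2 := l.drop m) n1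
  rw [List.take_append_drop] at this
  exact pow_le_pow_left₀ (mu_nonneg g n l) this 2

end Ex

end Vale.Agent.P125.BV.W89
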