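import Vale.Agent.P125.BV.Iid

set_option linter.unusedSectionVars false
set_option linter.unusedVariables false

/-!
# P125, (BV): the potential recursion, abstract form

`mu l` is a nonnegative weight of a window `l` (a list of marks), `cc l` a natural number (the
alternation count of the window), `sg l` a sign.  Under the monotonicity and rigidity hypotheses
below, `Φ m = E_m [mu ^ 2 * cc]` drops by a definite amount at every doubling of the window.
-/

namespace Vale.Agent.P125.BV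

open scoped BigOperators
open Vale.Agent.P125.Dich

variable {S M : Type} [Fintype S] [Fintype M] (C : MChain S M)

/-- the iid step with the oddness of the sign required only where the weight does not vanish -/
lemma iid_step_w (m : ℕ) (mu sg : List M → ℝ) (h0 : ∀ l, 0 ≤ mu l)
    (hmu : ∀ l, mu ((l.map C.inv).reverse) = mu l)
    (hsg1 : ∀ l, sg l = 1 ∨ sg l = -1)
    (hsg : ∀ l, mu l ≠ 0 → sg ((l.map C.inv).reverse) = - sg l) :
    C.E (m + m) (fun l => mu (l.take m) * mu (l.drop m) *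
      (if sg (l.take m) = sg (l.drop m) then 1 else 0)) ≤ (1 / 2) * C.E m (fun l => mu l ^ 2) := by
  have h1 : ∀ l : List M, mu (l.take m) * mu (l.drop m) *
      (if sg (l.take m) = sg (l.drop m) then (1 : ℝ) else 0) =
      (1 / 2) * (mu (l.take m) * mu (l.drop m)) +
        (1 / 2) * ((mu (l.take m) * sg (l.take m)) * (mu (l.drop m) * sg (l.drop m))) := by
    intro l
    rcases hsg1 (l.take m) with h | h <;> rcases hsg1 (l.drop m) with h' | h' <;>
      rw [h, h'] <;> norm_num <;> ring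
  have h2 : C.E (m + m) (fun l => mu (l.take m) * mu (l.drop m) *
      (if sg (l.take m) = sg (l.drop m) then 1 else 0)) =
      (1 / 2) * C.E (m + m) (fun l => mu (l.take m) * mu (l.drop m)) +
      (1 / 2) * C.E (m + m) (fun l => (mu (l.take m) * sg (l.take m)) *
        (mu (l.drop m) * sg (l.drop m))) := by
    rw [← E_const_mul, ← E_const_mul, ← E_add]
    apply E_congr
    intro l _
    exact h1 l
  have h3 := E_anti_le C m (fun l => mu l * sg l) (by
    intro l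
    rw [hmu]
    by_cases hl : mu l = 0
    · rw [hl]
      ring
    · rw [hsg l hl]
      ring)
  have h4 := E_prod_le C m mu
  rw [h2]
  linarith

/-- the pointwise inequality behind the recursion -/
lemma pointwise_step (a a1 a2 : ℝ) (c c1 c2 : ℕ) (ind : ℝ)
    (ha : 0 ≤ a) (h1 : a ≤ a1) (h2 : a ≤ a2) (hind0 : 0 ≤ ind)
    (hc1 : a ≠ 0 → c ≤ c1) (hc2 : a ≠ 0 → c ≤ c2)
    (hind : a ≠ 0 → c = c1 → c = c2 → ind = 1) :
    a ^ 2 * c ≤ (1 / 2) * (a1 ^ 2 * c1) + (1 / 2) * (a2 ^ 2 * c2) - (1 / 2) * a ^ 2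
      + (1 / 2) * (a1 * a2 * ind) := by
  have ha1 : 0 ≤ a1 := le_trans ha h1
  have ha2 : 0 ≤ a2 := le_trans ha h2
  have hc1' : (0 : ℝ) ≤ (c1 : ℝ) := Nat.cast_nonneg c1
  have hc2' : (0 : ℝ) ≤ (c2 : ℝ) := Nat.cast_nonneg c2
  have hsq1 : a ^ 2 ≤ a1 ^ 2 := by nlinarith
  have hsq2 : a ^ 2 ≤ a2 ^ 2 := by nlinarith
  have hprod : a ^ 2 ≤ a1 * a2 := by nlinarith
  have hp0 : 0 ≤ a1 * a2 := mul_nonneg ha1 ha2
  by_cases h : a = 0
  · subst h
    have e1 : 0 ≤ a1 ^ 2 * (c1 : ℝ) := by positivity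
    have e2 : 0 ≤ a2 ^ 2 * (c2 : ℝ) := by positivity
    have e3 : 0 ≤ a1 * a2 * ind := mul_nonneg hp0 hind0
    nlinarith
  · have k1 := hc1 h
    have k2 := hc2 h
    have e1 : a ^ 2 * (c1 : ℝ) ≤ a1 ^ 2 * (c1 : ℝ) := mul_le_mul_of_nonneg_right hsq1 hc1'
    have e2 : a ^ 2 * (c2 : ℝ) ≤ a2 ^ 2 * (c2 : ℝ) := mul_le_mul_of_nonneg_right hsq2 hc2'
    have hsq0 : 0 ≤ a ^ 2 := sq_nonneg a
    by_cases hcc : c = c1 ∧ c = c2
    · have hi := hind h hcc.1 hcc.2
      rw [hi]
      have f1 : (c : ℝ) = (c1 : ℝ) := by exact_mod_cast hcc.1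
      have f2 : (c : ℝ) = (c2 : ℝ) := by exact_mod_cast hcc.2
      have : a ^ 2 * (c : ℝ) = (1 / 2) * (a ^ 2 * (c1 : ℝ)) + (1 / 2) * (a ^ 2 * (c2 : ℝ)) := by
        rw [← f1, ← f2]
        ring
      nlinarith
    · have hlt : 2 * c + 1 ≤ c1 + c2 := by
        by_contra hcon
        apply hcc
        constructor <;> omega
      have hlt' : 2 * (c : ℝ) + 1 ≤ (c1 : ℝ) + (c2 : ℝ) := by exact_mod_cast hlt
      have e3 : 0 ≤ a1 * a2 * ind := mul_nonneg hp0 hind0
      have e4 : a ^ 2 * (2 * (c : ℝ) + 1) ≤ a ^ 2 * ((c1 : ℝ) + (c2 : ℝ)) :=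
        mul_le_mul_of_nonneg_left hlt' hsq0
      nlinarith

/-- hypotheses on the window functionals -/
structure Pot (C : MChain S M) (mu sg : List M → ℝ) (cc : List M → ℕ) : Prop where
  mu_nonneg : ∀ l, 0 ≤ mu l
  mu_rev : ∀ l, mu ((l.map C.inv).reverse) = mu l
  sg_pm : ∀ l, sg l = 1 ∨ sg l = -1
  sg_rev : ∀ l, mu l ≠ 0 → sg ((l.map C.inv).reverse) = - sg l
  mu_left : ∀ l1 l2, mu (l1 ++ l2) ≤ mu l1
  mu_right : ∀ l1 l2, mu (l1 ++ l2) ≤ mu l2
  cc_left : ∀ l1 l2, mu (l1 ++ l2) ≠ 0 → cc (l1 ++ l2) ≤ cc l1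
  cc_right : ∀ l1 l2, mu (l1 ++ l2) ≠ 0 → cc (l1 ++ l2) ≤ cc l2
  sg_left : ∀ l1 l2, mu (l1 ++ l2) ≠ 0 → cc (l1 ++ l2) = cc l1 → sg (l1 ++ l2) = sg l1
  sg_right : ∀ l1 l2, mu (l1 ++ l2) ≠ 0 → cc (l1 ++ l2) = cc l2 → sg (l1 ++ l2) = sg l2

variable {C} {mu sg : List M → ℝ} {cc : List M → ℕ}

/-- `Q` decreases under doubling -/
lemma Pot.Q_anti (P : Pot C mu sg cc) (m : ℕ) :
    C.E (m + m) (fun l => mu l ^ 2) ≤ C.E m (fun l => mu l ^ 2) := by
  rw [← E_take C m m (fun l => mu l ^ 2)]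
  apply E_mono
  intro l _
  have h1 := P.mu_left (l.take m) (l.drop m)
  rw [List.take_append_drop] at h1
  have h0 := P.mu_nonneg l
  nlinarith

/-- the recursion `Φ (2 m) ≤ Φ m - Q (2 m) / 2 + Q m / 4` -/
lemma Pot.rec_step (P : Pot C mu sg cc) (m : ℕ) :
    C.E (m + m) (fun l => mu l ^ 2 * cc l) ≤
      C.E m (fun l => mu l ^ 2 * cc l) - C.E (m + m) (fun l => mu l ^ 2) / 2
        + C.E m (fun l => mu l ^ 2) / 4 := by
  have hpt : ∀ l : List M, mu l ^ 2 * cc l + (1 / 2) * mu l ^ 2 ≤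
      ((1 / 2) * (mu (l.take m) ^ 2 * cc (l.take m)) +
        (1 / 2) * (mu (l.drop m) ^ 2 * cc (l.drop m))) +
        (1 / 2) * (mu (l.take m) * mu (l.drop m) *
          (if sg (l.take m) = sg (l.drop m) then 1 else 0)) := by
    intro l
    have e : l.take m ++ l.drop m = l := List.take_append_drop m l
    have h1 := P.mu_left (l.take m) (l.drop m)
    have h2 := P.mu_right (l.take m) (l.drop m)
    have h3 := P.cc_left (l.take m) (l.drop m)
    have h4 := P.cc_right (l.take m) (l.drop m)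
    have h5 := P.sg_left (l.take m) (l.drop m)
    have h6 := P.sg_right (l.take m) (l.drop m)
    rw [e] at h1 h2 h3 h4 h5 h6
    have key := pointwise_step (mu l) (mu (l.take m)) (mu (l.drop m)) (cc l) (cc (l.take m))
      (cc (l.drop m)) (if sg (l.take m) = sg (l.drop m) then 1 else 0) (P.mu_nonneg l) h1 h2
      (by split_ifs <;> norm_num) h3 h4 (by
        intro hne hc1 hc2
        rw [if_pos]
        rw [← h5 hne hc1, ← h6 hne hc2])
    linarith
  have hE := E_mono C (m + m) _ _ (fun l _ => hpt l)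
  rw [E_add, E_add, E_add, E_const_mul, E_const_mul, E_const_mul, E_const_mul,
    E_take C m m (fun l => mu l ^ 2 * cc l), E_drop C m m (fun l => mu l ^ 2 * cc l)] at hE
  have hi := iid_step_w C m mu sg P.mu_nonneg P.mu_rev P.sg_pm P.sg_rev
  linarith

/-- telescoping over the dyadic scales -/
lemma Pot.potential (P : Pot C mu sg cc) (L : ℕ) :
    ((L : ℝ) + 1) * C.E (2 ^ L) (fun l => mu l ^ 2) ≤
      4 * C.E 1 (fun l => mu l ^ 2 * cc l) + C.E 1 (fun l => mu l ^ 2) := by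
  have hPhi : ∀ m, 0 ≤ C.E m (fun l => mu l ^ 2 * cc l) := by
    intro m
    apply E_nonneg
    intro l _
    positivity
  -- stronger statement carrying the potential
  have key : ∀ L : ℕ, ((L : ℝ) + 1) * C.E (2 ^ L) (fun l => mu l ^ 2) +
      4 * C.E (2 ^ L) (fun l => mu l ^ 2 * cc l) ≤
      4 * C.E 1 (fun l => mu l ^ 2 * cc l) + C.E 1 (fun l => mu l ^ 2) := by
    intro L
    induction L with
    | zero =>
      simp only [pow_zero, Nat.cast_zero, zero_add, one_mul]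
      linarith
    | succ L ih =>
      have e : 2 ^ (L + 1) = 2 ^ L + 2 ^ L := by ring
      have h1 := P.rec_step (2 ^ L)
      have h2 := P.Q_anti (2 ^ L)
      rw [← e] at h1 h2
      have hL : (0 : ℝ) ≤ (L : ℝ) := Nat.cast_nonneg L
      push_cast
      nlinarith
  have := key L
  have := hPhi (2 ^ L)
  linarith

end Vale.Agent.P125.BV
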