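import Mathlib

/-!
# Runs of a Boolean word (combinatorial lemma for the alternation potential)

`runs l` is the number of maximal constant blocks of the word `l`.
A subword has at most as many runs, and if it has as many runs (and is nonempty)
it starts with the same letter.
-/

namespace Vale.Agent.P125.BV

/-- number of maximal constant runs of a Boolean word -/
def runs : List Bool → ℕ
  | [] => 0
  | [_] => 1
  | a :: b :: l => (if a = b then 0 else 1) + runs (b :: l)

@[simp] theorem runs_nil : runs [] = 0 := rfl
@[simp] theorem runs_singleton (a : Bool) : runs [a] = 1 := rfl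
theorem runs_cons_cons (a b : Bool) (l : List Bool) :
    runs (a :: b :: l) = (if a = b then 0 else 1) + runs (b :: l) := rfl

theorem runs_cons_pos (a : Bool) (l : List Bool) : 1 ≤ runs (a :: l) := by
  induction l generalizing a with
  | nil => simp
  | cons b l ih => rw [runs_cons_cons]; have := ih b; omega

theorem runs_pos {l : List Bool} (h : l ≠ []) : 1 ≤ runs l := by
  cases l with
  | nil => exact absurd rfl h
  | cons a l => exact runs_cons_pos a l

theorem runs_le_cons (a : Bool) (l : List Bool) : runs l ≤ runs (a :: l) := by
  cases l with
  | nil => simp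
  | cons b l => rw [runs_cons_cons]; omega

theorem runs_cons_le (a : Bool) (l : List Bool) : runs (a :: l) ≤ runs l + 1 := by
  cases l with
  | nil => simp
  | cons b l => rw [runs_cons_cons]; split_ifs <;> omega

/-- if prepending a letter does not change the number of runs, it is the first letter -/
theorem head_of_runs_cons_eq {a : Bool} {l : List Bool} (h : runs (a :: l) = runs l) :
    l.head? = some a := by
  cases l with
  | nil => simp at h
  | cons b l =>
    rw [runs_cons_cons] at h
    by_cases hab : a = b
    · simp [hab]
    · simp [hab] at h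

/-- main lemma: monotonicity of `runs` under subwords, with the equality case -/
theorem runs_sublist_aux {l' l : List Bool} (h : l'.Sublist l) :
    runs l' ≤ runs l ∧ (l' ≠ [] → runs l' = runs l → l'.head? = l.head?) := by
  induction h with
  | slnil => simp
  | @cons l₁ l₂ a h ih =>
    obtain ⟨ih1, ih2⟩ := ih
    refine ⟨ih1.trans (runs_le_cons a l₂), fun hne heq => ?_⟩
    have h1 : runs l₂ ≤ runs (a :: l₂) := runs_le_cons a l₂
    have h2 : runs l₁ = runs l₂ := by omega
    have h3 : runs (a :: l₂) = runs l₂ := by omega
    rw [ih2 hne h2, head_of_runs_cons_eq h3]; rfl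
  | @cons_cons l₁ l₂ a h ih =>
    obtain ⟨ih1, ih2⟩ := ih
    refine ⟨?_, fun _ _ => rfl⟩
    cases l₁ with
    | nil => simpa using runs_cons_pos a l₂
    | cons b l₁ =>
      cases l₂ with
      | nil => simp at h
      | cons c l₂ =>
        rw [runs_cons_cons, runs_cons_cons]
        rcases Nat.lt_or_ge (runs (b :: l₁)) (runs (c :: l₂)) with hlt | hge
        · split_ifs <;> omega
        · have heq : runs (b :: l₁) = runs (c :: l₂) := by omega
          have := ih2 (by simp) heq
          simp at this
          subst this
          omega

theorem runs_le_of_sublist {l' l : List Bool} (h : l'.Sublist l) : runs l' ≤ runs l :=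
  (runs_sublist_aux h).1

theorem head_eq_of_sublist_of_runs_eq {l' l : List Bool} (h : l'.Sublist l) (hne : l' ≠ [])
    (heq : runs l' = runs l) : l'.head? = l.head? :=
  (runs_sublist_aux h).2 hne heq

/-- flipping all letters does not change the number of runs -/
theorem runs_map_not (l : List Bool) : runs (l.map (!·)) = runs l := by
  induction l with
  | nil => rfl
  | cons a l ih =>
    cases l with
    | nil => rfl
    | cons b l =>
      simp only [List.map_cons] at ih ⊢
      rw [runs_cons_cons, runs_cons_cons, ih]
      cases a <;> cases b <;> simp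

theorem head?_map_not (l : List Bool) : (l.map (!·)).head? = l.head?.map (!·) := by
  cases l <;> rfl


/-! ## The word of a pair of sets of positions -/

section word
variable {α : Type*}

open Classical in
/-- the letter at a position: `true` on `A`, `false` on `B` (outside `A`), nothing elsewhere -/
noncomputable def letter (A B : α → Prop) (k : α) : Option Bool :=
  if A k then some true else if B k then some false else none

/-- read the positions of the list `L` from left to right and record the letters -/
noncomputable def word (A B : α → Prop) (L : List α) : List Bool := L.filterMap (letter A B)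

/-- the alternation number of `(A, B)` along `L` -/
noncomputable def alt (A B : α → Prop) (L : List α) : ℕ := runs (word A B L)

/-- the first letter of `(A, B)` along `L` (`none` if no position of `L` is in `A ∪ B`) -/
noncomputable def firstLetter (A B : α → Prop) (L : List α) : Option Bool := (word A B L).head?

theorem word_nil (A B : α → Prop) : word A B [] = [] := rfl

theorem word_cons (A B : α → Prop) (k : α) (L : List α) :
    word A B (k :: L) = (match letter A B k with
      | none => word A B L
      | some b => b :: word A B L) := by
  unfold word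
  rw [List.filterMap_cons]
  cases letter A B k <;> rfl

theorem word_sublist {A B A' B' : α → Prop} (hA : ∀ k, A' k → A k) (hB : ∀ k, B' k → B k)
    (hd : ∀ k, ¬ (A k ∧ B k)) (L : List α) : (word A' B' L).Sublist (word A B L) := by
  induction L with
  | nil => exact List.Sublist.slnil
  | cons k L ih =>
    rw [word_cons, word_cons]
    unfold letter
    by_cases h1 : A' k
    · have h2 : A k := hA k h1
      simp only [h1, h2, if_true]
      exact ih.cons_cons true
    · by_cases h3 : B' k
      · have h4 : B k := hB k h3
        have h5 : ¬ A k := fun h => hd k ⟨h, h4⟩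
        simp only [h1, h3, h4, h5, if_true, if_false]
        exact ih.cons_cons false
      · simp only [h1, h3, if_false]
        by_cases h6 : A k
        · simp only [h6, if_true]; exact ih.cons true
        · by_cases h7 : B k
          · simp only [h6, h7, if_true, if_false]; exact ih.cons false
          · simp only [h6, h7, if_false]; exact ih

theorem word_swap {A B : α → Prop} (hd : ∀ k, ¬ (A k ∧ B k)) (L : List α) :
    word B A L = (word A B L).map (!·) := by
  induction L with
  | nil => rfl
  | cons k L ih =>
    rw [word_cons, word_cons]
    unfold letter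
    by_cases h1 : A k
    · have h2 : ¬ B k := fun h => hd k ⟨h1, h⟩
      simp [h1, h2, ih]
    · by_cases h2 : B k
      · simp [h1, h2, ih]
      · simp [h1, h2, ih]

theorem word_ne_nil {A B : α → Prop} {L : List α} {k : α} (hk : k ∈ L) (h : A k ∨ B k) :
    word A B L ≠ [] := by
  intro h0
  unfold word at h0
  rw [List.filterMap_eq_nil_iff] at h0
  have := h0 k hk
  unfold letter at this
  by_cases h1 : A k
  · simp [h1] at this
  · have h2 : B k := h.resolve_left h1
    simp [h1, h2] at this

theorem alt_swap {A B : α → Prop} (hd : ∀ k, ¬ (A k ∧ B k)) (L : List α) :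
    alt B A L = alt A B L := by
  unfold alt; rw [word_swap hd, runs_map_not]

theorem firstLetter_swap {A B : α → Prop} (hd : ∀ k, ¬ (A k ∧ B k)) (L : List α) :
    firstLetter B A L = (firstLetter A B L).map (!·) := by
  unfold firstLetter; rw [word_swap hd, head?_map_not]

theorem alt_mono {A B A' B' : α → Prop} (hA : ∀ k, A' k → A k) (hB : ∀ k, B' k → B k)
    (hd : ∀ k, ¬ (A k ∧ B k)) (L : List α) : alt A' B' L ≤ alt A B L :=
  runs_le_of_sublist (word_sublist hA hB hd L)

theorem firstLetter_eq_of_alt_eq {A B A' B' : α → Prop} (hA : ∀ k, A' k → A k)
    (hB : ∀ k, B' k → B k) (hd : ∀ k, ¬ (A k ∧ B k)) {L : List α} {k : α} (hk : k ∈ L)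
    (hk' : A' k ∨ B' k) (heq : alt A' B' L = alt A B L) :
    firstLetter A' B' L = firstLetter A B L :=
  head_eq_of_sublist_of_runs_eq (word_sublist hA hB hd L) (word_ne_nil hk hk') heq

theorem alt_pos {A B : α → Prop} {L : List α} {k : α} (hk : k ∈ L) (h : A k ∨ B k) :
    1 ≤ alt A B L := runs_pos (word_ne_nil hk h)

/-- **Doubling step, integer form.**  If `(A', B')` is contained in `(A₁, B₁)` and in `(A₂, B₂)`,
is nonempty along `L`, and the first letters of `(A₁, B₁)` and `(A₂, B₂)` differ, then
`2 alt' + 1 ≤ alt₁ + alt₂`. -/
theorem two_alt_add_one_le {A' B' A₁ B₁ A₂ B₂ : α → Prop}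
    (hA₁ : ∀ k, A' k → A₁ k) (hB₁ : ∀ k, B' k → B₁ k) (hd₁ : ∀ k, ¬ (A₁ k ∧ B₁ k))
    (hA₂ : ∀ k, A' k → A₂ k) (hB₂ : ∀ k, B' k → B₂ k) (hd₂ : ∀ k, ¬ (A₂ k ∧ B₂ k))
    {L : List α} {k : α} (hk : k ∈ L) (hk' : A' k ∨ B' k)
    (hne : firstLetter A₁ B₁ L ≠ firstLetter A₂ B₂ L) :
    2 * alt A' B' L + 1 ≤ alt A₁ B₁ L + alt A₂ B₂ L := by
  have h1 := alt_mono hA₁ hB₁ hd₁ L
  have h2 := alt_mono hA₂ hB₂ hd₂ L
  by_contra hcon
  have e1 : alt A' B' L = alt A₁ B₁ L := by omega
  have e2 : alt A' B' L = alt A₂ B₂ L := by omega
  exact hne ((firstLetter_eq_of_alt_eq hA₁ hB₁ hd₁ hk hk' e1).symm.trans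
    (firstLetter_eq_of_alt_eq hA₂ hB₂ hd₂ hk hk' e2))

end word


/-! ## Every alternation costs variation -/

section variation
variable {α : Type*}

/-- variation of `G` along the list of positions `L` -/
def lvar (G : α → ℝ) : List α → ℝ
  | [] => 0
  | [_] => 0
  | x :: y :: l => |G y - G x| + lvar G (y :: l)

theorem lvar_cons_cons (G : α → ℝ) (x y : α) (l : List α) :
    lvar G (x :: y :: l) = |G y - G x| + lvar G (y :: l) := rfl

theorem lvar_nonneg (G : α → ℝ) (l : List α) : 0 ≤ lvar G l := by
  induction l with
  | nil => exact le_refl _
  | cons x l ih =>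
    cases l with
    | nil => exact le_refl _
    | cons y l => rw [lvar_cons_cons]; have := abs_nonneg (G y - G x); linarith

theorem lvar_le_cons (G : α → ℝ) (x : α) (l : List α) : lvar G l ≤ lvar G (x :: l) := by
  cases l with
  | nil => exact le_refl _
  | cons y l => rw [lvar_cons_cons]; have := abs_nonneg (G y - G x); linarith

theorem lvar_cons_le_insert (G : α → ℝ) (a b : α) (l : List α) :
    lvar G (a :: l) ≤ |G b - G a| + lvar G (b :: l) := by
  cases l with
  | nil =>
    have h0 : lvar G [a] = 0 := rfl
    have h1 : lvar G [b] = 0 := rfl
    rw [h0, h1, add_zero]; exact abs_nonneg (G b - G a)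
  | cons y l =>
    rw [lvar_cons_cons, lvar_cons_cons]
    have : |G y - G a| ≤ |G b - G a| + |G y - G b| := by
      have := abs_add_le (G b - G a) (G y - G b)
      simpa using this
    linarith

theorem lvar_cons_sublist (G : α → ℝ) {l₁ l₂ : List α} (h : l₁.Sublist l₂) (a : α) :
    lvar G (a :: l₁) ≤ lvar G (a :: l₂) := by
  induction h generalizing a with
  | slnil => exact le_refl _
  | @cons l₁ l₂ b h ih =>
    rw [lvar_cons_cons]
    exact (lvar_cons_le_insert G a b l₁).trans (by have := ih b; linarith)
  | @cons_cons l₁ l₂ b h ih =>
    rw [lvar_cons_cons, lvar_cons_cons]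
    have := ih b; linarith

theorem lvar_sublist (G : α → ℝ) {l₁ l₂ : List α} (h : l₁.Sublist l₂) :
    lvar G l₁ ≤ lvar G l₂ := by
  induction h with
  | slnil => exact le_refl _
  | @cons l₁ l₂ b h ih => exact ih.trans (lvar_le_cons G b l₂)
  | @cons_cons l₁ l₂ b h ih => exact lvar_cons_sublist G h b

/-- auxiliary form, with the last letter read before `L` remembered at position `x` -/
theorem runs_word_cons_le_lvar {A B : α → Prop} {G : α → ℝ} {a b : ℝ}
    (hA : ∀ k, A k → a ≤ G k) (hB : ∀ k, B k → G k ≤ b) (L : List α) (x : α) (c : Bool)
    (hx : letter A B x = some c) :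
    ((runs (c :: word A B L) : ℝ) - 1) * (a - b) ≤ lvar G (x :: L) := by
  induction L generalizing x c with
  | nil => simp [word_nil, lvar]
  | cons y L ih =>
    rw [word_cons]
    cases hy : letter A B y with
    | none =>
      simp only
      have h1 := ih x c hx
      exact h1.trans (lvar_cons_sublist G (List.sublist_cons_self y L) x)
    | some e =>
      simp only
      have h1 := ih y e hy
      rw [runs_cons_cons, lvar_cons_cons]
      by_cases hce : c = e
      · simp only [hce, if_true]
        have := abs_nonneg (G y - G x)
        push_cast
        linarith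
      · simp only [hce, if_false]
        have key : a - b ≤ |G y - G x| := by
          unfold letter at hx hy
          by_cases hAx : A x
          · simp only [hAx, if_true, Option.some.injEq] at hx
            by_cases hAy : A y
            · simp only [hAy, if_true, Option.some.injEq] at hy
              exact absurd (hx.symm.trans hy) hce
            · by_cases hBy : B y
              · have h2 := hA x hAx
                have h3 := hB y hBy
                rw [abs_sub_comm]
                exact le_trans (by linarith) (le_abs_self _)
              · simp [hAy, hBy] at hy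
          · by_cases hBx : B x
            · simp only [hAx, hBx, if_true, if_false, Option.some.injEq] at hx
              by_cases hAy : A y
              · have h2 := hB x hBx
                have h3 := hA y hAy
                exact le_trans (by linarith) (le_abs_self _)
              · by_cases hBy : B y
                · simp only [hAy, hBy, if_true, if_false, Option.some.injEq] at hy
                  exact absurd (hx.symm.trans hy) hce
                · simp [hAy, hBy] at hy
            · simp [hAx, hBx] at hx
        push_cast
        linarith

/-- **Every alternation costs `a - b`.**  If `G ≥ a` on `A` and `G ≤ b` on `B` (`b ≤ a`), then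
`(alt A B L - 1) (a - b) ≤` variation of `G` along `L`. -/
theorem alt_sub_one_mul_le_lvar {A B : α → Prop} {G : α → ℝ} {a b : ℝ} (hab : b ≤ a)
    (hA : ∀ k, A k → a ≤ G k) (hB : ∀ k, B k → G k ≤ b) (L : List α) :
    ((alt A B L : ℝ) - 1) * (a - b) ≤ lvar G L := by
  unfold alt
  induction L with
  | nil =>
    simp only [word_nil, runs_nil, lvar]
    push_cast
    nlinarith
  | cons x L ih =>
    rw [word_cons]
    cases hx : letter A B x with
    | none => simp only; exact ih.trans (lvar_le_cons G x L)
    | some c => simp only; exact runs_word_cons_le_lvar hA hB L x c hx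

/-- variation along `s, s+1, …, s+n` -/
theorem lvar_range' (G : ℕ → ℝ) (s n : ℕ) :
    lvar G (List.range' s (n + 1)) = ∑ k ∈ Finset.range n, |G (s + k + 1) - G (s + k)| := by
  induction n generalizing s with
  | zero => simp [List.range', lvar]
  | succ n ih =>
    have h1 : List.range' s (n + 1 + 1) = s :: (s + 1) :: List.range' (s + 1 + 1) n := by
      simp [List.range'_succ]
    have h2 : List.range' (s + 1) (n + 1) = (s + 1) :: List.range' (s + 1 + 1) n := by
      simp [List.range'_succ]
    rw [h1, lvar_cons_cons, ← h2, ih (s + 1), Finset.sum_range_succ']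
    have : ∀ k, s + 1 + k = s + (k + 1) := fun k => by omega
    simp only [this, add_zero]
    ring

/-- variation along `0, 1, …, n` -/
theorem lvar_range (G : ℕ → ℝ) (n : ℕ) :
    lvar G (List.range (n + 1)) = ∑ k ∈ Finset.range n, |G (k + 1) - G k| := by
  rw [List.range_eq_range', lvar_range']
  simp

end variation

end Vale.Agent.P125.BV
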