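import Mathlib

/-!
# P125 (BV): the scalar parts of the potential argument (board 485)

Definition-agnostic real-number lemmas: telescoping of the potential, the combination giving (BV),
the one-step improvement of the ballistic constant and its iteration.
-/

namespace Vale.Agent.P125.BV

/-- Telescoping: index `j` stands for windows of length `2 ^ j`. -/
theorem telescope (Phi Q : ℕ → ℝ) (L : ℕ) (hPhi : ∀ j, 0 ≤ Phi j) (hQ : ∀ j, Q (j + 1) ≤ Q j)
    (hrec : ∀ j, j < L → Phi (j + 1) ≤ Phi j - Q (j + 1) / 2 + Q j / 4) :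
    ((L : ℝ) + 1) * Q L ≤ 4 * Phi 0 + Q 0 := by
  have key : ∀ l, l ≤ L → 4 * Phi l + ((l : ℝ) + 1) * Q l ≤ 4 * Phi 0 + Q 0 := by
    intro l
    induction l with
    | zero => intro _; simp
    | succ l ih =>
      intro hl
      have h1 := ih (by omega)
      have h2 := hrec l (by omega)
      have h3 := hQ l
      have h4 : (0 : ℝ) ≤ (l : ℝ) := Nat.cast_nonneg l
      have h5 : (l : ℝ) * Q (l + 1) ≤ (l : ℝ) * Q l := mul_le_mul_of_nonneg_left h3 h4
      push_cast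
      nlinarith
  have h := key L le_rfl
  have h0 := hPhi L
  linarith

/-- The combination of the deficit bound and of the bound on `Q_M`. -/
theorem bv_combine (ET2 EN2 ENV QM M : ℝ) (L : ℕ) (hM : 0 ≤ M)
    (h1 : M / 16 * (EN2 - 4 * QM) ≤ M ^ 2 * EN2 - ET2)
    (h2 : ((L : ℝ) + 1) * QM ≤ 5 * EN2 + 4 * ENV) :
    ET2 ≤ M ^ 2 * EN2 - M / 16 * (EN2 - 4 * ((5 * EN2 + 4 * ENV) / ((L : ℝ) + 1))) := by
  have hL : (0 : ℝ) < (L : ℝ) + 1 := by positivity
  have h3 : QM ≤ (5 * EN2 + 4 * ENV) / ((L : ℝ) + 1) := by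
    rw [le_div_iff₀ hL]
    linarith
  have h4 : M / 16 * (EN2 - 4 * ((5 * EN2 + 4 * ENV) / ((L : ℝ) + 1)))
      ≤ M / 16 * (EN2 - 4 * QM) :=
    mul_le_mul_of_nonneg_left (by linarith) (by positivity)
  linarith

/-- One step of the improvement of the ballistic constant (no square roots, no suprema).
`W` stands for `t ^ 2 * U`. -/
theorem step_scalar (ET2 EN2 EV2 ENV M W a c : ℝ) (L : ℕ) (hM : 1 ≤ M) (hW : 0 ≤ W) (hc : 0 < c)
    (hca : c ^ 2 ≤ a) (hEN2 : EN2 ≤ a * W) (hEV0 : 0 ≤ EV2) (hEV2 : EV2 ≤ W)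
    (hCS : ENV ^ 2 ≤ EN2 * EV2)
    (hL : 32 * (5 / 4 + 1 / c) ≤ (L : ℝ) + 1)
    (hBV : ET2 ≤ M ^ 2 * EN2 - M / 16 * (EN2 - 4 * ((5 * EN2 + 4 * ENV) / ((L : ℝ) + 1)))) :
    ET2 ≤ a * (1 - 1 / (32 * M)) * (M ^ 2 * W) := by
  have hLpos : (0 : ℝ) < (L : ℝ) + 1 := by positivity
  have ha : 0 < a := lt_of_lt_of_le (by positivity) hca
  have hMpos : 0 < M := by linarith
  -- bound on the mixed term
  have hB0 : 0 ≤ a / c * W := by positivity
  have hsq : ENV ^ 2 ≤ (a / c * W) ^ 2 := by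
    have h1 : EN2 * EV2 ≤ a * W * W := mul_le_mul hEN2 hEV2 hEV0 (by positivity)
    have h2 : a * W * W ≤ (a / c * W) ^ 2 := by
      have h3 : a ≤ (a / c) ^ 2 := by
        rw [div_pow, le_div_iff₀ (by positivity)]
        nlinarith
      have h4 : 0 ≤ W * W := mul_nonneg hW hW
      calc a * W * W = a * (W * W) := by ring
        _ ≤ (a / c) ^ 2 * (W * W) := mul_le_mul_of_nonneg_right h3 h4
        _ = (a / c * W) ^ 2 := by ring
    linarith
  have hENV : ENV ≤ a / c * W := by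
    by_contra hcon
    have h5 : a / c * W < ENV := not_le.1 hcon
    nlinarith
  -- the small parameter
  obtain ⟨d, hd⟩ : ∃ d : ℝ, d = 1 / ((L : ℝ) + 1) := ⟨_, rfl⟩
  have hd0 : 0 < d := by rw [hd]; positivity
  have hdL : (5 / 4 + 1 / c) * d ≤ 1 / 32 := by
    rw [hd, mul_one_div, div_le_iff₀ hLpos]
    linarith
  have e1 : M ^ 2 * EN2 - M / 16 * (EN2 - 4 * ((5 * EN2 + 4 * ENV) / ((L : ℝ) + 1)))
      = EN2 * (M ^ 2 - M / 16 + 5 / 4 * M * d) + M * d * ENV := by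
    rw [hd]
    field_simp
    ring
  have hcoef : 0 ≤ M ^ 2 - M / 16 + 5 / 4 * M * d := by
    have : 0 ≤ 5 / 4 * M * d := by positivity
    nlinarith
  have h6 : EN2 * (M ^ 2 - M / 16 + 5 / 4 * M * d) ≤ a * W * (M ^ 2 - M / 16 + 5 / 4 * M * d) :=
    mul_le_mul_of_nonneg_right hEN2 hcoef
  have h7 : M * d * ENV ≤ M * d * (a / c * W) :=
    mul_le_mul_of_nonneg_left hENV (by positivity)
  have e2 : a * W * (M ^ 2 - M / 16 + 5 / 4 * M * d) + M * d * (a / c * W)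
      = a * W * (M ^ 2 - M / 16 + M * ((5 / 4 + 1 / c) * d)) := by
    field_simp
    ring
  have h8 : a * W * (M ^ 2 - M / 16 + M * ((5 / 4 + 1 / c) * d))
      ≤ a * W * (M ^ 2 - M / 16 + M * (1 / 32)) := by
    apply mul_le_mul_of_nonneg_left _ (by positivity)
    have := mul_le_mul_of_nonneg_left hdL hMpos.le
    linarith
  have e3 : a * W * (M ^ 2 - M / 16 + M * (1 / 32)) = a * (1 - 1 / (32 * M)) * (M ^ 2 * W) := by
    field_simp
    ring
  linarith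

/-- Iteration: the ballistic constant tends to zero. -/
theorem iterate (B : ℕ → ℝ → Prop) (h1 : B 1 1)
    (hmono : ∀ t a a', a ≤ a' → B t a → B t a')
    (hstep : ∀ c : ℝ, 0 < c → ∃ M : ℕ, 1 ≤ M ∧ ∀ t a, 1 ≤ t → c ^ 2 ≤ a → B t a →
      B (M * t) (a * (1 - 1 / (32 * (M : ℝ))))) :
    ∀ ε : ℝ, 0 < ε → ∃ t, 1 ≤ t ∧ B t ε := by
  intro ε hε
  obtain ⟨c, hc⟩ : ∃ c : ℝ, c = min ε 1 := ⟨_, rfl⟩
  have hc0 : 0 < c := by rw [hc]; exact lt_min hε one_pos
  have hc1 : c ≤ 1 := by rw [hc]; exact min_le_right _ _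
  have hcε : c ≤ ε := by rw [hc]; exact min_le_left _ _
  have hc2 : c ^ 2 ≤ ε := by nlinarith
  obtain ⟨M, hM, hst⟩ := hstep c hc0
  have hMR : (1 : ℝ) ≤ (M : ℝ) := by exact_mod_cast hM
  obtain ⟨θ, hθ⟩ : ∃ θ : ℝ, θ = 1 - 1 / (32 * (M : ℝ)) := ⟨_, rfl⟩
  have hfrac0 : 0 < 1 / (32 * (M : ℝ)) := by positivity
  have hfrac1 : 1 / (32 * (M : ℝ)) ≤ 1 / 32 := by
    apply div_le_div_of_nonneg_left (by norm_num) (by norm_num)
    linarith
  have hθ0 : 0 ≤ θ := by rw [hθ]; linarith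
  have hθ1 : θ < 1 := by rw [hθ]; linarith
  have key : ∀ j : ℕ, ∃ t, 1 ≤ t ∧ B t (max ε (θ ^ j)) := by
    intro j
    induction j with
    | zero => exact ⟨1, le_rfl, hmono 1 1 _ (by simp) h1⟩
    | succ j ih =>
      obtain ⟨t, ht, hB⟩ := ih
      rcases le_or_gt (θ ^ j) ε with hle | hgt
      · refine ⟨t, ht, hmono t _ _ ?_ hB⟩
        rw [max_eq_left hle]
        exact le_max_left _ _
      · rw [max_eq_right hgt.le] at hB
        have h2 := hst t (θ ^ j) ht (by linarith) hB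
        refine ⟨M * t, Nat.one_le_iff_ne_zero.2 (Nat.mul_ne_zero (by omega) (by omega)),
          hmono _ _ _ ?_ h2⟩
        rw [← hθ, ← pow_succ]
        exact le_max_right _ _
  obtain ⟨j, hj⟩ := exists_pow_lt_of_lt_one hε hθ1
  obtain ⟨t, ht, hB⟩ := key j
  rw [max_eq_left hj.le] at hB
  exact ⟨t, ht, hB⟩

end Vale.Agent.P125.BV
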