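import Vale.Agent.P125.BV.Potential
import Vale.Agent.P125.BV.Deficit
import Vale.Agent.P125.Alpha.AltVar
import Vale.Agent.P125.Char.Conv_A

set_option linter.unusedSectionVars false
set_option linter.unusedVariables false

/-!
# P125, (BV): windows (concrete weight, complexity, sign) and the assembly of (BV)

Abstract data: a profile `g : M → ℕ → ℝ` (positions `k ≤ n`), a size `N : M → ℝ` with
`|g m k| ≤ N m`, both compatible with the inversion of marks.
-/

namespace Vale.Agent.P125.BV.W59

open scoped BigOperators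
open Vale.Agent.P125.Dich Vale.Agent.P125.Alpha

/-- least entry of a list of reals (`0` for the empty list) -/
noncomputable def mnL (a : List ℝ) : ℝ :=
  if h : 0 < a.length then a.minimum_of_length_pos h else 0

/-- largest entry of a list of reals (`0` for the empty list) -/
noncomputable def mxL (a : List ℝ) : ℝ :=
  if h : 0 < a.length then a.maximum_of_length_pos h else 0

lemma mnL_mem {a : List ℝ} (h : a ≠ []) : mnL a ∈ a := by
  have h' : 0 < a.length := List.length_pos_iff.2 h
  unfold mnL
  rw [dif_pos h']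
  exact List.minimum_of_length_pos_mem h'

lemma mxL_mem {a : List ℝ} (h : a ≠ []) : mxL a ∈ a := by
  have h' : 0 < a.length := List.length_pos_iff.2 h
  unfold mxL
  rw [dif_pos h']
  exact List.maximum_of_length_pos_mem h'

lemma mnL_le {a : List ℝ} {x : ℝ} (hx : x ∈ a) : mnL a ≤ x := by
  have h' : 0 < a.length := List.length_pos_of_mem hx
  unfold mnL
  rw [dif_pos h']
  exact List.minimum_of_length_pos_le_of_mem hx h'

lemma le_mxL {a : List ℝ} {x : ℝ} (hx : x ∈ a) : x ≤ mxL a := by
  have h' : 0 < a.length := List.length_pos_of_mem hx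
  unfold mxL
  rw [dif_pos h']
  exact List.le_maximum_of_length_pos_of_mem hx h'

lemma mnL_eq_of_mem_iff {a b : List ℝ} (h : ∀ x, x ∈ a ↔ x ∈ b) : mnL a = mnL b := by
  by_cases ha : a = []
  · have hb : b = [] := by
      apply List.eq_nil_iff_forall_not_mem.2
      intro x hx
      have := (h x).2 hx
      rw [ha] at this
      exact absurd this (List.not_mem_nil)
    rw [ha, hb]
  · have hb : b ≠ [] := by
      intro hb
      have := (h _).1 (mnL_mem ha)
      rw [hb] at this
      exact absurd this (List.not_mem_nil)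
    apply le_antisymm
    · exact mnL_le ((h _).2 (mnL_mem hb))
    · exact mnL_le ((h _).1 (mnL_mem ha))

lemma mxL_eq_of_mem_iff {a b : List ℝ} (h : ∀ x, x ∈ a ↔ x ∈ b) : mxL a = mxL b := by
  by_cases ha : a = []
  · have hb : b = [] := by
      apply List.eq_nil_iff_forall_not_mem.2
      intro x hx
      have := (h x).2 hx
      rw [ha] at this
      exact absurd this (List.not_mem_nil)
    rw [ha, hb]
  · have hb : b ≠ [] := by
      intro hb
      have := (h _).1 (mxL_mem ha)
      rw [hb] at this
      exact absurd this (List.not_mem_nil)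
    apply le_antisymm
    · exact le_mxL ((h _).1 (mxL_mem ha))
    · exact le_mxL ((h _).2 (mxL_mem hb))

section Win

variable {M : Type} (inv : M → M) (n : ℕ) (g : M → ℕ → ℝ) (N : M → ℝ)

/-- deficiency of the window `l` at position `k`, upper side -/
def dA (l : List M) (k : ℕ) : ℝ := (l.map (fun m => N m - g m k)).sum

/-- deficiency of the window `l` at position `k`, lower side -/
def dB (l : List M) (k : ℕ) : ℝ := (l.map (fun m => N m + g m k)).sum

/-- least size in the window -/
noncomputable def mn (l : List M) : ℝ := mnL (l.map N)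

/-- largest size in the window -/
noncomputable def mx (l : List M) : ℝ := mxL (l.map N)

/-- common top set of the window -/
noncomputable def setA (l : List M) : Finset ℕ :=
  (Finset.range (n + 1)).filter (fun k => dA g N l k ≤ mn N l / 4)

/-- common bottom set of the window -/
noncomputable def setB (l : List M) : Finset ℕ :=
  (Finset.range (n + 1)).filter (fun k => dB g N l k ≤ mn N l / 4)

/-- good windows -/
def ok (l : List M) : Prop :=
  0 < mn N l ∧ mx N l ≤ 2 * mn N l ∧ (setA n g N l ∪ setB n g N l).Nonempty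

open Classical in
/-- weight of a window -/
noncomputable def mu (l : List M) : ℝ := if ok n g N l then mn N l else 0

/-- complexity of a window -/
noncomputable def cc (l : List M) : ℕ := altLen (setA n g N l) (setB n g N l)

/-- sign of a window -/
noncomputable def sg (l : List M) : ℝ := ((altSig (setA n g N l) (setB n g N l) : ℤ) : ℝ)

lemma dA_append (l1 l2 : List M) (k : ℕ) : dA g N (l1 ++ l2) k = dA g N l1 k + dA g N l2 k := by
  simp [dA, List.map_append, List.sum_append]

lemma dB_append (l1 l2 : List M) (k : ℕ) : dB g N (l1 ++ l2) k = dB g N l1 k + dB g N l2 k := by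
  simp [dB, List.map_append, List.sum_append]

variable (hb : ∀ m k, k ≤ n → |g m k| ≤ N m)
include hb

lemma N_nonneg (m : M) : 0 ≤ N m := le_trans (abs_nonneg _) (hb m 0 (Nat.zero_le _))

lemma dA_nonneg (l : List M) {k : ℕ} (hk : k ≤ n) : 0 ≤ dA g N l k := by
  apply List.sum_nonneg
  intro x hx
  obtain ⟨m, _, rfl⟩ := List.mem_map.1 hx
  have := le_trans (le_abs_self _) (hb m k hk)
  linarith

lemma dB_nonneg (l : List M) {k : ℕ} (hk : k ≤ n) : 0 ≤ dB g N l k := by
  apply List.sum_nonneg
  intro x hx
  obtain ⟨m, _, rfl⟩ := List.mem_map.1 hx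
  have := le_trans (neg_le_abs _) (hb m k hk)
  linarith

omit hb in
lemma dA_add_dB (l : List M) (k : ℕ) : dA g N l k + dB g N l k = 2 * (l.map N).sum := by
  induction l with
  | nil => simp [dA, dB]
  | cons m l ih =>
    simp only [dA, dB, List.map_cons, List.sum_cons] at ih ⊢
    linarith

lemma mn_le_sum {l : List M} (hl : l ≠ []) : mn N l ≤ (l.map N).sum := by
  have h1 : l.map N ≠ [] := by simpa using hl
  apply List.single_le_sum _ _ (mnL_mem h1)
  intro x hx
  obtain ⟨m, _, rfl⟩ := List.mem_map.1 hx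
  exact N_nonneg n g N hb m

omit hb in
lemma mn_append_left {l1 : List M} (l2 : List M) (h1 : l1 ≠ []) : mn N (l1 ++ l2) ≤ mn N l1 := by
  have h : l1.map N ≠ [] := by simpa using h1
  apply mnL_le
  rw [List.map_append]
  exact List.mem_append_left _ (mnL_mem h)

omit hb in
lemma mn_append_right (l1 : List M) {l2 : List M} (h2 : l2 ≠ []) : mn N (l1 ++ l2) ≤ mn N l2 := by
  have h : l2.map N ≠ [] := by simpa using h2
  apply mnL_le
  rw [List.map_append]
  exact List.mem_append_right _ (mnL_mem h)

omit hb in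
lemma mx_append_left {l1 : List M} (l2 : List M) (h1 : l1 ≠ []) : mx N l1 ≤ mx N (l1 ++ l2) := by
  have h : l1.map N ≠ [] := by simpa using h1
  apply le_mxL
  rw [List.map_append]
  exact List.mem_append_left _ (mxL_mem h)

omit hb in
lemma mx_append_right (l1 : List M) {l2 : List M} (h2 : l2 ≠ []) : mx N l2 ≤ mx N (l1 ++ l2) := by
  have h : l2.map N ≠ [] := by simpa using h2
  apply le_mxL
  rw [List.map_append]
  exact List.mem_append_right _ (mxL_mem h)

lemma setA_left {l1 : List M} (l2 : List M) (h1 : l1 ≠ []) :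
    setA n g N (l1 ++ l2) ⊆ setA n g N l1 := by
  intro k hk
  simp only [setA, Finset.mem_filter, Finset.mem_range] at hk ⊢
  refine ⟨hk.1, ?_⟩
  have a1 := dA_nonneg n g N hb l2 (Nat.lt_succ_iff.1 hk.1)
  have a2 := mn_append_left N l2 h1
  rw [dA_append] at hk
  linarith [hk.2]

lemma setA_right (l1 : List M) {l2 : List M} (h2 : l2 ≠ []) :
    setA n g N (l1 ++ l2) ⊆ setA n g N l2 := by
  intro k hk
  simp only [setA, Finset.mem_filter, Finset.mem_range] at hk ⊢
  refine ⟨hk.1, ?_⟩
  have a1 := dA_nonneg n g N hb l1 (Nat.lt_succ_iff.1 hk.1)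
  have a2 := mn_append_right N l1 h2
  rw [dA_append] at hk
  linarith [hk.2]

lemma setB_left {l1 : List M} (l2 : List M) (h1 : l1 ≠ []) :
    setB n g N (l1 ++ l2) ⊆ setB n g N l1 := by
  intro k hk
  simp only [setB, Finset.mem_filter, Finset.mem_range] at hk ⊢
  refine ⟨hk.1, ?_⟩
  have a1 := dB_nonneg n g N hb l2 (Nat.lt_succ_iff.1 hk.1)
  have a2 := mn_append_left N l2 h1
  rw [dB_append] at hk
  linarith [hk.2]

lemma setB_right (l1 : List M) {l2 : List M} (h2 : l2 ≠ []) :
    setB n g N (l1 ++ l2) ⊆ setB n g N l2 := by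
  intro k hk
  simp only [setB, Finset.mem_filter, Finset.mem_range] at hk ⊢
  refine ⟨hk.1, ?_⟩
  have a1 := dB_nonneg n g N hb l1 (Nat.lt_succ_iff.1 hk.1)
  have a2 := mn_append_right N l1 h2
  rw [dB_append] at hk
  linarith [hk.2]

lemma ok_left {l1 : List M} (l2 : List M) (h1 : l1 ≠ []) (h : ok n g N (l1 ++ l2)) :
    ok n g N l1 := by
  obtain ⟨a, b, c⟩ := h
  have a2 := mn_append_left N l2 h1
  have a3 := mx_append_left N l2 h1
  refine ⟨by linarith, by linarith, ?_⟩
  exact c.mono (Finset.union_subset_union (setA_left n g N hb l2 h1) (setB_left n g N hb l2 h1))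

lemma ok_right (l1 : List M) {l2 : List M} (h2 : l2 ≠ []) (h : ok n g N (l1 ++ l2)) :
    ok n g N l2 := by
  obtain ⟨a, b, c⟩ := h
  have a2 := mn_append_right N l1 h2
  have a3 := mx_append_right N l1 h2
  refine ⟨by linarith, by linarith, ?_⟩
  exact c.mono (Finset.union_subset_union (setA_right n g N hb l1 h2) (setB_right n g N hb l1 h2))

lemma disj {l : List M} (hl : l ≠ []) (h : 0 < mn N l) :
    Disjoint (setA n g N l) (setB n g N l) := by
  rw [Finset.disjoint_left]
  intro k hA hB
  simp only [setA, setB, Finset.mem_filter, Finset.mem_range] at hA hB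
  have a1 := dA_add_dB g N l k
  have a2 := mn_le_sum n g N hb hl
  linarith [hA.2, hB.2]

omit hb in
lemma ne_nil_of_mn_pos {l : List M} (h : 0 < mn N l) : l ≠ [] := by
  intro hl
  rw [hl] at h
  simp [mn, mnL] at h

omit hb in
lemma mu_pos_iff {l : List M} (h : 0 < mu n g N l) : ok n g N l := by
  by_contra hc
  unfold mu at h
  rw [if_neg hc] at h
  exact lt_irrefl _ h

omit hb in
lemma mu_nonneg (l : List M) : 0 ≤ mu n g N l := by
  unfold mu
  split_ifs with h
  · exact h.1.le
  · exact le_refl _

variable (hg : ∀ m k, g (inv m) k = - g m k) (hN : ∀ m, N (inv m) = N m)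
include hg hN

omit hb in
lemma dA_rev (l : List M) (k : ℕ) : dA g N ((l.map inv).reverse) k = dB g N l k := by
  unfold dA dB
  rw [List.map_reverse, List.sum_reverse, List.map_map]
  congr 1
  apply List.map_congr_left
  intro m _
  simp only [Function.comp, hg, hN]
  ring

omit hb in
lemma dB_rev (l : List M) (k : ℕ) : dB g N ((l.map inv).reverse) k = dA g N l k := by
  unfold dA dB
  rw [List.map_reverse, List.sum_reverse, List.map_map]
  congr 1
  apply List.map_congr_left
  intro m _
  simp only [Function.comp, hg, hN]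
  ring

omit hb hg in
lemma mapN_rev (l : List M) : ((l.map inv).reverse).map N = (l.map N).reverse := by
  rw [List.map_reverse, List.map_map]
  congr 1
  apply List.map_congr_left
  intro m _
  simp only [Function.comp, hN]

omit hb hg in
lemma mn_rev (l : List M) : mn N ((l.map inv).reverse) = mn N l := by
  unfold mn
  rw [mapN_rev inv N hN]
  apply mnL_eq_of_mem_iff
  intro x
  exact List.mem_reverse

omit hb hg in
lemma mx_rev (l : List M) : mx N ((l.map inv).reverse) = mx N l := by
  unfold mx
  rw [mapN_rev inv N hN]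
  apply mxL_eq_of_mem_iff
  intro x
  exact List.mem_reverse

omit hb in
lemma setA_rev (l : List M) : setA n g N ((l.map inv).reverse) = setB n g N l := by
  unfold setA setB
  simp only [dA_rev inv g N hg hN, mn_rev inv N hN]

omit hb in
lemma setB_rev (l : List M) : setB n g N ((l.map inv).reverse) = setA n g N l := by
  unfold setA setB
  simp only [dB_rev inv g N hg hN, mn_rev inv N hN]

omit hb in
lemma ok_rev (l : List M) : ok n g N ((l.map inv).reverse) ↔ ok n g N l := by
  unfold ok
  rw [setA_rev inv n g N hg hN, setB_rev inv n g N hg hN, mn_rev inv N hN, mx_rev inv N hN,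
    Finset.union_comm]

omit hb in
lemma mu_rev (l : List M) : mu n g N ((l.map inv).reverse) = mu n g N l := by
  unfold mu
  rw [mn_rev inv N hN]
  by_cases h : ok n g N l
  · rw [if_pos h, if_pos ((ok_rev inv n g N hg hN l).2 h)]
  · rw [if_neg h, if_neg (fun h' => h ((ok_rev inv n g N hg hN l).1 h'))]

end Win

section PotInst

variable {S M : Type} [Fintype S] [Fintype M] (C : MChain S M)
  (n : ℕ) (g : M → ℕ → ℝ) (N : M → ℝ)
  (hb : ∀ m k, k ≤ n → |g m k| ≤ N m)
  (hg : ∀ m k, g (C.inv m) k = - g m k) (hN : ∀ m, N (C.inv m) = N m)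
include hb hg hN

/-- the concrete triple satisfies the hypotheses of the potential recursion -/
theorem pot : Pot C (mu n g N) (cc n g N) (sg n g N) where
  mu_nonneg := mu_nonneg n g N
  mu_left := by
    intro l1 l2 h1 h2
    by_cases h : ok n g N (l1 ++ l2)
    · have h' := ok_left n g N hb l2 h1 h
      unfold mu
      rw [if_pos h, if_pos h']
      exact mn_append_left N l2 h1
    · have : mu n g N (l1 ++ l2) = 0 := by
        unfold mu
        rw [if_neg h]
      rw [this]
      exact mu_nonneg n g N l1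
  mu_right := by
    intro l1 l2 h1 h2
    by_cases h : ok n g N (l1 ++ l2)
    · have h' := ok_right n g N hb l1 h2 h
      unfold mu
      rw [if_pos h, if_pos h']
      exact mn_append_right N l1 h2
    · have : mu n g N (l1 ++ l2) = 0 := by
        unfold mu
        rw [if_neg h]
      rw [this]
      exact mu_nonneg n g N l2
  c_left := by
    intro l1 l2 h1 h2 _
    exact altLen_mono (setA_left n g N hb l2 h1) (setB_left n g N hb l2 h1)
  c_right := by
    intro l1 l2 h1 h2 _
    exact altLen_mono (setA_right n g N hb l1 h2) (setB_right n g N hb l1 h2)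
  sg_left := by
    intro l1 l2 h1 h2 h0 hc
    have h := mu_pos_iff n g N h0
    have h' := ok_left n g N hb l2 h1 h
    unfold sg
    rw [altSig_eq_of_altLen_eq (setA_left n g N hb l2 h1) (setB_left n g N hb l2 h1)
      (disj n g N hb h1 h'.1) h.2.2 hc]
  sg_right := by
    intro l1 l2 h1 h2 h0 hc
    have h := mu_pos_iff n g N h0
    have h' := ok_right n g N hb l1 h2 h
    unfold sg
    rw [altSig_eq_of_altLen_eq (setA_right n g N hb l1 h2) (setB_right n g N hb l1 h2)
      (disj n g N hb h2 h'.1) h.2.2 hc]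
  mu_rev := mu_rev C.inv n g N hg hN
  sg_pm := by
    intro l
    unfold sg
    rcases altSig_eq_or (setA n g N l) (setB n g N l) with h | h
    · left
      rw [h]
      norm_num
    · right
      rw [h]
      norm_num
  sg_rev := by
    intro l hl
    have h0 : 0 < mu n g N l := lt_of_le_of_ne (mu_nonneg n g N l) (Ne.symm hl)
    have h := mu_pos_iff n g N h0
    unfold sg
    rw [setA_rev C.inv n g N hg hN, setB_rev C.inv n g N hg hN,
      altSig_swap (disj n g N hb (ne_nil_of_mn_pos N h.1) h.1) h.2.2]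
    push_cast
    ring

omit hb hg hN [Fintype M] in
lemma dA_eq (l : List M) (k : ℕ) :
    dA g N l k = (l.map N).sum - (l.map (fun m => g m k)).sum := by
  induction l with
  | nil => simp [dA]
  | cons m l ih =>
    simp only [dA, List.map_cons, List.sum_cons] at ih ⊢
    linarith

omit hb hg hN [Fintype M] in
lemma dB_eq (l : List M) (k : ℕ) :
    dB g N l k = (l.map N).sum + (l.map (fun m => g m k)).sum := by
  induction l with
  | nil => simp [dB]
  | cons m l ih =>
    simp only [dB, List.map_cons, List.sum_cons] at ih ⊢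
    linarith

omit hg hN [Fintype M] in
/-- single marks: the complexity is controlled by the variation -/
lemma base_pointwise (V : M → ℝ)
    (hV : ∀ m, ∑ i ∈ Finset.range n, |g m (i + 1) - g m i| ≤ V m) (m : M) :
    mu n g N [m] ^ 2 * (cc n g N [m] : ℝ) ≤ N m ^ 2 + N m * V m := by
  have hN0 := N_nonneg n g N hb m
  have hV0 : 0 ≤ V m := le_trans (Finset.sum_nonneg (fun i _ => abs_nonneg _)) (hV m)
  have hmn : mn N [m] = N m := by
    have h1 : mn N [m] ∈ [m].map N := mnL_mem (by simp)
    simpa using h1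
  by_cases h : ok n g N [m]
  · have hmu : mu n g N [m] = N m := by
      unfold mu
      rw [if_pos h, hmn]
    have hpos : 0 < N m := by
      have := h.1
      rwa [hmn] at this
    have hvar := altLen_var (setA n g N [m]) (setB n g N [m]) id strictMono_id n
      (by
        intro x hx
        rcases Finset.mem_union.1 hx with hx | hx
        · simp only [setA, Finset.mem_filter, Finset.mem_range] at hx
          exact Nat.lt_succ_iff.1 hx.1
        · simp only [setB, Finset.mem_filter, Finset.mem_range] at hx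
          exact Nat.lt_succ_iff.1 hx.1)
      (g m) (3 * N m / 4)
      (by
        intro x hx
        simp only [setA, Finset.mem_filter, Finset.mem_range, dA, List.map_cons, List.map_nil,
          List.sum_cons, List.sum_nil, hmn] at hx
        simp only [id]
        linarith [hx.2])
      (by
        intro x hx
        simp only [setB, Finset.mem_filter, Finset.mem_range, dB, List.map_cons, List.map_nil,
          List.sum_cons, List.sum_nil, hmn] at hx
        simp only [id]
        linarith [hx.2])
      h.2.2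
    have h2 : ((cc n g N [m] : ℝ) - 1) * (2 * (3 * N m / 4)) ≤ V m := le_trans hvar (hV m)
    rw [hmu]
    have h3 : N m * (((cc n g N [m] : ℝ) - 1) * (2 * (3 * N m / 4))) ≤ N m * V m :=
      mul_le_mul_of_nonneg_left h2 hN0
    have h4 : 0 ≤ N m * V m := mul_nonneg hN0 hV0
    nlinarith
  · have hmu : mu n g N [m] = 0 := by
      unfold mu
      rw [if_neg h]
    rw [hmu]
    have h4 : 0 ≤ N m * V m := mul_nonneg hN0 hV0
    nlinarith [sq_nonneg (N m)]

omit hg hN [Fintype M] in
/-- pointwise deficit along a path -/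
lemma path_pointwise (T : List M → ℝ) (hT0 : ∀ l, 0 ≤ T l)
    (hT : ∀ l, ∃ k, k ≤ n ∧ T l = |(l.map (fun m => g m k)).sum|)
    (l : List M) (hl : l ≠ []) :
    T l ^ 2 ≤ (l.length : ℝ) * (l.map (fun m => N m ^ 2)).sum
      - (1 / 16) * ((l.map (fun m => N m ^ 2)).sum - 4 * (l.length : ℝ) * mu n g N l ^ 2) := by
  classical
  obtain ⟨k, hk, hTk⟩ := hT l
  have hne : l.map N ≠ [] := by simpa using hl
  have hA := dA_nonneg n g N hb l hk
  have hB := dB_nonneg n g N hb l hk
  rw [dA_eq] at hA
  rw [dB_eq] at hB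
  have hTle : T l ≤ (l.map N).sum := by
    rw [hTk, abs_le]
    constructor <;> linarith
  have hd := deficit_pointwise (l.map N)
    (by
      intro x hx
      obtain ⟨m, _, rfl⟩ := List.mem_map.1 hx
      exact N_nonneg n g N hb m)
    (mn N l) (mx N l) (T l) (mnL_mem hne) (mxL_mem hne) (fun x hx => mnL_le hx)
    (fun x hx => le_mxL hx) (hT0 l) hTle
  have hmap : ((l.map N).map (fun x => x ^ 2)).sum = (l.map (fun m => N m ^ 2)).sum := by
    rw [List.map_map]
    rfl
  rw [hmap, List.length_map] at hd
  have hite : mn N l ^ 2 *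
      (if (0 < mn N l ∧ mx N l ≤ 2 * mn N l ∧ (l.map N).sum - T l ≤ mn N l / 4) then (1 : ℝ) else 0)
      ≤ mu n g N l ^ 2 := by
    split_ifs with hc
    · have hok : ok n g N l := by
        refine ⟨hc.1, hc.2.1, k, ?_⟩
        rcases le_total 0 ((l.map (fun m => g m k)).sum) with h0 | h0
        · apply Finset.mem_union_left
          simp only [setA, Finset.mem_filter, Finset.mem_range]
          refine ⟨Nat.lt_succ_iff.2 hk, ?_⟩
          rw [dA_eq]
          rw [hTk, abs_of_nonneg h0] at hc
          exact hc.2.2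
        · apply Finset.mem_union_right
          simp only [setB, Finset.mem_filter, Finset.mem_range]
          refine ⟨Nat.lt_succ_iff.2 hk, ?_⟩
          rw [dB_eq]
          rw [hTk, abs_of_nonpos h0] at hc
          linarith [hc.2.2]
      unfold mu
      rw [if_pos hok, mul_one]
    · rw [mul_zero]
      exact sq_nonneg _
  have hlen : (0 : ℝ) ≤ (l.length : ℝ) := Nat.cast_nonneg _
  have := mul_le_mul_of_nonneg_left hite hlen
  linarith

/-- **(BV), abstract form.** -/
theorem BV_abs (V : M → ℝ)
    (hV : ∀ m, ∑ i ∈ Finset.range n, |g m (i + 1) - g m i| ≤ V m)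
    (T : List M → ℝ) (hT0 : ∀ l, 0 ≤ T l)
    (hT : ∀ l, ∃ k, k ≤ n ∧ T l = |(l.map (fun m => g m k)).sum|) (L : ℕ) :
    C.E (2 ^ L) (fun l => T l ^ 2) ≤
      ((2 : ℝ) ^ L) ^ 2 * C.E 1 (fun l => (l.map (fun m => N m ^ 2)).sum)
      - ((2 : ℝ) ^ L / 16) * (C.E 1 (fun l => (l.map (fun m => N m ^ 2)).sum)
        - 4 * (5 * C.E 1 (fun l => (l.map (fun m => N m ^ 2)).sum)
          + 4 * C.E 1 (fun l => (l.map (fun m => N m * V m)).sum)) / ((L : ℝ) + 1)) := by
  set EN := C.E 1 (fun l => (l.map (fun m => N m ^ 2)).sum) with hEN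
  set ENV := C.E 1 (fun l => (l.map (fun m => N m * V m)).sum) with hENV
  have H := pot C n g N hb hg hN
  have hQ := Qm_pow_le C H L
  -- base
  have hPhi1 : Phim C (mu n g N) (cc n g N) 1 ≤ EN + ENV := by
    rw [hEN, hENV, ← E_add]
    unfold Phim
    apply E_mono
    intro l hl
    obtain ⟨m, rfl⟩ := List.length_eq_one_iff.1 hl
    simpa using base_pointwise n g N hb V hV m
  have hQ1 : Qm C (mu n g N) 1 ≤ EN := by
    rw [hEN]
    unfold Qm
    apply E_mono
    intro l hl
    obtain ⟨m, rfl⟩ := List.length_eq_one_iff.1 hl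
    have hmn : mn N [m] = N m := by
      have h1 : mn N [m] ∈ [m].map N := mnL_mem (by simp)
      simpa using h1
    have hN0 := N_nonneg n g N hb m
    have : mu n g N [m] ≤ N m := by
      unfold mu
      split_ifs
      · exact hmn.le
      · exact hN0
    simpa using pow_le_pow_left₀ (mu_nonneg n g N [m]) this 2
  have hL1 : (0 : ℝ) < (L : ℝ) + 1 := by positivity
  have hQM : Qm C (mu n g N) (2 ^ L) ≤ (5 * EN + 4 * ENV) / ((L : ℝ) + 1) := by
    rw [le_div_iff₀ hL1]
    linarith
  -- deficit
  have hM : ((2 ^ L : ℕ) : ℝ) = (2 : ℝ) ^ L := by push_cast; ring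
  have h1 : C.E (2 ^ L) (fun l => T l ^ 2) ≤ C.E (2 ^ L) (fun l =>
      ((2 : ℝ) ^ L - 1 / 16) * (l.map (fun m => N m ^ 2)).sum
        + ((2 : ℝ) ^ L / 4) * mu n g N l ^ 2) := by
    apply E_mono
    intro l hl
    have hne : l ≠ [] := by
      intro h0
      rw [h0] at hl
      have : 0 < 2 ^ L := Nat.two_pow_pos L
      simp at hl
      omega
    have h2 := path_pointwise n g N hb T hT0 hT l hne
    rw [hl, hM] at h2
    linarith
  rw [E_add, E_const_mul, E_const_mul, Vale.Agent.P125.Char.E_sum_marks, hM] at h1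
  have h3 : C.E (2 ^ L) (fun l => mu n g N l ^ 2) = Qm C (mu n g N) (2 ^ L) := rfl
  rw [h3, ← hEN] at h1
  have hp : (0 : ℝ) < (2 : ℝ) ^ L := by positivity
  have h4 := mul_le_mul_of_nonneg_left hQM (by positivity : (0 : ℝ) ≤ (2 : ℝ) ^ L / 4)
  have e : ((2 : ℝ) ^ L / 16) * (EN - 4 * (5 * EN + 4 * ENV) / ((L : ℝ) + 1))
      = ((2 : ℝ) ^ L / 16) * EN - ((2 : ℝ) ^ L / 4) * ((5 * EN + 4 * ENV) / ((L : ℝ) + 1)) := by
    ring
  rw [e]
  nlinarith

end PotInst

section Concrete

/-- initial sums of a vector: `pre v k` is the sum of the first `k` coordinates -/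
def pre {n : ℕ} (v : Fin n → ℝ) (k : ℕ) : ℝ := ∑ i : Fin n, if i.val < k then v i else 0

/-- the summing norm: largest absolute value of an initial sum -/
noncomputable def nJ {n : ℕ} (v : Fin n → ℝ) : ℝ :=
  (Finset.range (n + 1)).sup' ⟨0, by simp⟩ (fun k => |pre v k|)

/-- the `ℓ₁` norm -/
def n1 {n : ℕ} (v : Fin n → ℝ) : ℝ := ∑ i : Fin n, |v i|

variable {n : ℕ}

lemma pre_le_nJ (v : Fin n → ℝ) {k : ℕ} (hk : k ≤ n) : |pre v k| ≤ nJ v :=
  Finset.le_sup' (fun k => |pre v k|) (Finset.mem_range.2 (Nat.lt_succ_iff.2 hk))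

lemma nJ_nonneg (v : Fin n → ℝ) : 0 ≤ nJ v :=
  le_trans (abs_nonneg _) (pre_le_nJ v (Nat.zero_le n))

lemma pre_neg (v : Fin n → ℝ) (k : ℕ) : pre (-v) k = - pre v k := by
  unfold pre
  rw [← Finset.sum_neg_distrib]
  apply Finset.sum_congr rfl
  intro i _
  split_ifs <;> simp

lemma pre_add (u v : Fin n → ℝ) (k : ℕ) : pre (u + v) k = pre u k + pre v k := by
  unfold pre
  rw [← Finset.sum_add_distrib]
  apply Finset.sum_congr rfl
  intro i _
  split_ifs <;> simp

lemma pre_zero (k : ℕ) : pre (0 : Fin n → ℝ) k = 0 := by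
  unfold pre
  apply Finset.sum_eq_zero
  intro i _
  split_ifs <;> simp

lemma nJ_neg (v : Fin n → ℝ) : nJ (-v) = nJ v := by
  unfold nJ
  simp only [pre_neg, abs_neg]

lemma exists_nJ (v : Fin n → ℝ) : ∃ k, k ≤ n ∧ nJ v = |pre v k| := by
  obtain ⟨k, hk, h⟩ := Finset.exists_mem_eq_sup' (s := Finset.range (n + 1)) ⟨0, by simp⟩
    (fun k => |pre v k|)
  exact ⟨k, Nat.lt_succ_iff.1 (Finset.mem_range.1 hk), h⟩

lemma pre_succ_sub (v : Fin n → ℝ) (i : Fin n) : pre v (i.val + 1) - pre v i.val = v i := by
  unfold pre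
  rw [← Finset.sum_sub_distrib, Finset.sum_eq_single i]
  · simp
  · intro j _ hj
    have hj' : j.val ≠ i.val := fun h => hj (Fin.ext h)
    by_cases h1 : j.val < i.val
    · rw [if_pos (by omega), if_pos h1, sub_self]
    · rw [if_neg (by omega), if_neg h1, sub_self]
  · intro h
    exact absurd (Finset.mem_univ i) h

lemma var_pre (v : Fin n → ℝ) :
    ∑ i ∈ Finset.range n, |pre v (i + 1) - pre v i| = n1 v := by
  unfold n1
  rw [← Fin.sum_univ_eq_sum_range (fun i => |pre v (i + 1) - pre v i|) n]
  apply Finset.sum_congr rfl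
  intro i _
  rw [pre_succ_sub]

lemma pre_sm {M : Type} (w : M → Fin n → ℝ) (l : List M) (k : ℕ) :
    pre (sm w l) k = (l.map (fun m => pre (w m) k)).sum := by
  induction l with
  | nil => simp [sm, pre_zero]
  | cons m l ih =>
    have e : sm w (m :: l) = w m + sm w l := by simp [sm]
    rw [e, pre_add, ih]
    simp

/-- **Theorem (BV)** for marked stationary reversible chains and antisymmetric mark functions with
values in `ℝⁿ`. -/
theorem bv_main {S M : Type} [Fintype S] [Fintype M] (C : MChain S M) (n : ℕ) (w : M → Fin n → ℝ)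
    (hw : ∀ m, w (C.inv m) = - w m) (L : ℕ) :
    C.E (2 ^ L) (fun l => nJ (sm w l) ^ 2) ≤
      ((2 : ℝ) ^ L) ^ 2 * C.E 1 (fun l => nJ (sm w l) ^ 2)
      - ((2 : ℝ) ^ L / 16) * (C.E 1 (fun l => nJ (sm w l) ^ 2)
        - 4 * (5 * C.E 1 (fun l => nJ (sm w l) ^ 2)
          + 4 * C.E 1 (fun l => nJ (sm w l) * n1 (sm w l))) / ((L : ℝ) + 1)) := by
  have h := BV_abs C n (fun m k => pre (w m) k) (fun m => nJ (w m))
    (fun m k hk => pre_le_nJ (w m) hk)
    (fun m k => by rw [hw, pre_neg])
    (fun m => by rw [hw, nJ_neg])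
    (fun m => n1 (w m)) (fun m => (var_pre (w m)).le)
    (fun l => nJ (sm w l)) (fun l => nJ_nonneg _)
    (fun l => by
      obtain ⟨k, hk, h⟩ := exists_nJ (sm w l)
      exact ⟨k, hk, by rw [h, pre_sm]⟩) L
  have e1 : C.E 1 (fun l => (l.map (fun m => nJ (w m) ^ 2)).sum)
      = C.E 1 (fun l => nJ (sm w l) ^ 2) := by
    apply E_congr
    intro l hl
    obtain ⟨m, rfl⟩ := List.length_eq_one_iff.1 hl
    simp [sm]
  have e2 : C.E 1 (fun l => (l.map (fun m => nJ (w m) * n1 (w m))).sum)
      = C.E 1 (fun l => nJ (sm w l) * n1 (sm w l)) := by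
    apply E_congr
    intro l hl
    obtain ⟨m, rfl⟩ := List.length_eq_one_iff.1 hl
    simp [sm]
  rw [e1, e2] at h
  exact h

end Concrete

end Vale.Agent.P125.BV.W59
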