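import Vale.Agent.P125.BV.Alt

set_option linter.unusedSectionVars false
set_option linter.unusedVariables false

/-!
# P125, (BV): windows

`g m k` is the `k`-th cumulative sum of the label of the mark `m`, the positions are `k ≤ n`.
For a window (a list of marks) `l` we define the least and the largest size `mnL`, `mxL` of its
marks, the sets `setA`, `setB` of the positions where all marks of the window are almost maximal
(almost minimal), the alternation count `cc` and the first letter `sgl`.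
-/

namespace Vale.Agent.P125.BV.W89

open scoped BigOperators

variable {M : Type}

/-- largest absolute value at the positions `k ≤ n` -/
noncomputable def Jn (n : ℕ) (h : ℕ → ℝ) : ℝ :=
  (Finset.range (n + 1)).sup' ⟨0, Finset.mem_range.2 (Nat.succ_pos n)⟩ (fun k => |h k|)

lemma abs_le_Jn (n : ℕ) (h : ℕ → ℝ) {k : ℕ} (hk : k ≤ n) : |h k| ≤ Jn n h :=
  Finset.le_sup' (fun k => |h k|) (Finset.mem_range.2 (Nat.lt_succ_of_le hk))

lemma Jn_nonneg (n : ℕ) (h : ℕ → ℝ) : 0 ≤ Jn n h :=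
  (abs_nonneg _).trans (abs_le_Jn n h (Nat.zero_le n))

lemma exists_Jn (n : ℕ) (h : ℕ → ℝ) : ∃ k, k ≤ n ∧ |h k| = Jn n h := by
  obtain ⟨k, hk, he⟩ := Finset.exists_mem_eq_sup' (s := Finset.range (n + 1))
    ⟨0, Finset.mem_range.2 (Nat.succ_pos n)⟩ (fun k => |h k|)
  exact ⟨k, Nat.lt_succ_iff.1 (Finset.mem_range.1 hk), he.symm⟩

lemma Jn_le (n : ℕ) (h : ℕ → ℝ) (a : ℝ) (ha : ∀ k, k ≤ n → |h k| ≤ a) : Jn n h ≤ a := by
  obtain ⟨k, hk, he⟩ := exists_Jn n h
  rw [← he]
  exact ha k hk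

lemma Jn_neg (n : ℕ) (h h' : ℕ → ℝ) (hh : ∀ k, h' k = - h k) : Jn n h' = Jn n h := by
  unfold Jn
  congr 1
  funext k
  rw [hh, abs_neg]

/-- least value of `N` on a list -/
noncomputable def mnL (N : M → ℝ) (l : List M) : ℝ := sInf (N '' {m | m ∈ l})

/-- largest value of `N` on a list -/
noncomputable def mxL (N : M → ℝ) (l : List M) : ℝ := sSup (N '' {m | m ∈ l})

lemma fin_img (N : M → ℝ) (l : List M) : (N '' {m | m ∈ l}).Finite :=
  (List.finite_toSet l).image N

lemma mnL_le (N : M → ℝ) {l : List M} {m : M} (hm : m ∈ l) : mnL N l ≤ N m :=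
  csInf_le (fin_img N l).bddBelow ⟨m, hm, rfl⟩

lemma le_mxL (N : M → ℝ) {l : List M} {m : M} (hm : m ∈ l) : N m ≤ mxL N l :=
  le_csSup (fin_img N l).bddAbove ⟨m, hm, rfl⟩

lemma mnL_mem (N : M → ℝ) {l : List M} (hl : l ≠ []) : ∃ m ∈ l, N m = mnL N l := by
  obtain ⟨m0, hm0⟩ := List.exists_mem_of_ne_nil l hl
  have h : (N '' {m | m ∈ l}).Nonempty := ⟨N m0, m0, hm0, rfl⟩
  obtain ⟨m, hm, he⟩ := h.csInf_mem (fin_img N l)
  exact ⟨m, hm, he⟩

lemma mxL_mem (N : M → ℝ) {l : List M} (hl : l ≠ []) : ∃ m ∈ l, N m = mxL N l := by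
  obtain ⟨m0, hm0⟩ := List.exists_mem_of_ne_nil l hl
  have h : (N '' {m | m ∈ l}).Nonempty := ⟨N m0, m0, hm0, rfl⟩
  obtain ⟨m, hm, he⟩ := h.csSup_mem (fin_img N l)
  exact ⟨m, hm, he⟩

lemma mnL_mono (N : M → ℝ) {l l' : List M} (hl : l ≠ []) (h : ∀ m ∈ l, m ∈ l') :
    mnL N l' ≤ mnL N l := by
  obtain ⟨m, hm, he⟩ := mnL_mem N hl
  rw [← he]
  exact mnL_le N (h m hm)

lemma mxL_mono (N : M → ℝ) {l l' : List M} (hl : l ≠ []) (h : ∀ m ∈ l, m ∈ l') :
    mxL N l ≤ mxL N l' := by
  obtain ⟨m, hm, he⟩ := mxL_mem N hl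
  rw [← he]
  exact le_mxL N (h m hm)

lemma mnL_singleton (N : M → ℝ) (m : M) : mnL N [m] = N m := by
  obtain ⟨m', hm', he⟩ := mnL_mem N (l := [m]) (by simp)
  rw [← he, List.mem_singleton.1 hm']

/-- invariance under reversal -/
lemma img_rev (N : M → ℝ) (inv : M → M) (hN : ∀ m, N (inv m) = N m) (l : List M) :
    N '' {m | m ∈ (l.map inv).reverse} = N '' {m | m ∈ l} := by
  ext x
  constructor
  · rintro ⟨m, hm, rfl⟩
    have hm' : m ∈ l.map inv := List.mem_reverse.1 hm
    obtain ⟨m', hm'', rfl⟩ := List.mem_map.1 hm'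
    exact ⟨m', hm'', (hN m').symm⟩
  · rintro ⟨m, hm, rfl⟩
    exact ⟨inv m, List.mem_reverse.2 (List.mem_map.2 ⟨m, hm, rfl⟩), hN m⟩

lemma mnL_rev (N : M → ℝ) (inv : M → M) (hN : ∀ m, N (inv m) = N m) (l : List M) :
    mnL N ((l.map inv).reverse) = mnL N l := by
  unfold mnL
  rw [img_rev N inv hN l]

lemma mxL_rev (N : M → ℝ) (inv : M → M) (hN : ∀ m, N (inv m) = N m) (l : List M) :
    mxL N ((l.map inv).reverse) = mxL N l := by
  unfold mxL
  rw [img_rev N inv hN l]

lemma sum_map_rev (F : M → ℝ) (inv : M → M) (l : List M) :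
    (((l.map inv).reverse).map F).sum = (l.map (fun m => F (inv m))).sum := by
  rw [List.map_reverse, List.sum_reverse, List.map_map]
  rfl

section Win

variable (g : M → ℕ → ℝ) (n : ℕ)

/-- the size of a mark -/
noncomputable def Nn (m : M) : ℝ := Jn n (g m)

/-- the variation of a mark -/
noncomputable def Vn (m : M) : ℝ := ∑ j ∈ Finset.range n, |g m (j + 1) - g m j|

/-- the size of the sum of a window -/
noncomputable def Tn (l : List M) : ℝ := Jn n (fun k => (l.map (fun m => g m k)).sum)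

noncomputable def mn (l : List M) : ℝ := mnL (Nn g n) l

noncomputable def mx (l : List M) : ℝ := mxL (Nn g n) l

open Classical in
noncomputable def setA (l : List M) : Finset ℕ :=
  (Finset.range (n + 1)).filter (fun k => (l.map (fun m => Nn g n m - g m k)).sum ≤ mn g n l / 4)

open Classical in
noncomputable def setB (l : List M) : Finset ℕ :=
  (Finset.range (n + 1)).filter (fun k => (l.map (fun m => Nn g n m + g m k)).sum ≤ mn g n l / 4)

def ok (l : List M) : Prop :=
  0 < mn g n l ∧ mx g n l ≤ 2 * mn g n l ∧ (setA g n l ∪ setB g n l).Nonempty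

open Classical in
noncomputable def mu (l : List M) : ℝ := if ok g n l then mn g n l else 0

noncomputable def cc (l : List M) : ℕ := altc (setA g n l) (setB g n l)

noncomputable def sgl (l : List M) : ℝ := sg (setA g n l) (setB g n l)

noncomputable def phi (l : List M) : ℝ := mu g n l ^ 2 * (cc g n l : ℝ)

noncomputable def psi (l : List M) : ℝ := mu g n l * sgl g n l

lemma Nn_nonneg (m : M) : 0 ≤ Nn g n m := Jn_nonneg n _

lemma sub_nonneg' {k : ℕ} (hk : k ≤ n) (m : M) : 0 ≤ Nn g n m - g m k := by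
  have := abs_le_Jn n (g m) hk
  have h2 := le_abs_self (g m k)
  unfold Nn
  linarith

lemma add_nonneg' {k : ℕ} (hk : k ≤ n) (m : M) : 0 ≤ Nn g n m + g m k := by
  have := abs_le_Jn n (g m) hk
  have h2 := neg_abs_le (g m k)
  unfold Nn
  linarith

lemma mem_setA {l : List M} {k : ℕ} : k ∈ setA g n l ↔
    k ≤ n ∧ (l.map (fun m => Nn g n m - g m k)).sum ≤ mn g n l / 4 := by
  unfold setA
  rw [Finset.mem_filter, Finset.mem_range, Nat.lt_succ_iff]

lemma mem_setB {l : List M} {k : ℕ} : k ∈ setB g n l ↔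
    k ≤ n ∧ (l.map (fun m => Nn g n m + g m k)).sum ≤ mn g n l / 4 := by
  unfold setB
  rw [Finset.mem_filter, Finset.mem_range, Nat.lt_succ_iff]

lemma sum_nonneg_of (F : M → ℝ) (hF : ∀ m, 0 ≤ F m) (l : List M) : 0 ≤ (l.map F).sum := by
  apply List.sum_nonneg
  intro x hx
  obtain ⟨m, _, rfl⟩ := List.mem_map.1 hx
  exact hF m

lemma mu_nonneg (l : List M) : 0 ≤ mu g n l := by
  unfold mu
  split_ifs with h
  · exact h.1.le
  · exact le_rfl

lemma phi_nonneg (l : List M) : 0 ≤ phi g n l := by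
  unfold phi
  positivity

/-- fact (a), left part -/
lemma setA_sub_left {l1 l2 : List M} (h1 : l1 ≠ []) : setA g n (l1 ++ l2) ⊆ setA g n l1 := by
  intro k hk
  rw [mem_setA] at hk ⊢
  refine ⟨hk.1, ?_⟩
  have h := hk.2
  rw [List.map_append, List.sum_append] at h
  have h2 := sum_nonneg_of (fun m => Nn g n m - g m k) (sub_nonneg' g n hk.1) l2
  have h3 : mn g n (l1 ++ l2) ≤ mn g n l1 :=
    mnL_mono _ h1 (fun m hm => List.mem_append_left _ hm)
  linarith

lemma setA_sub_right {l1 l2 : List M} (h1 : l2 ≠ []) : setA g n (l1 ++ l2) ⊆ setA g n l2 := by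
  intro k hk
  rw [mem_setA] at hk ⊢
  refine ⟨hk.1, ?_⟩
  have h := hk.2
  rw [List.map_append, List.sum_append] at h
  have h2 := sum_nonneg_of (fun m => Nn g n m - g m k) (sub_nonneg' g n hk.1) l1
  have h3 : mn g n (l1 ++ l2) ≤ mn g n l2 :=
    mnL_mono _ h1 (fun m hm => List.mem_append_right _ hm)
  linarith

lemma setB_sub_left {l1 l2 : List M} (h1 : l1 ≠ []) : setB g n (l1 ++ l2) ⊆ setB g n l1 := by
  intro k hk
  rw [mem_setB] at hk ⊢
  refine ⟨hk.1, ?_⟩
  have h := hk.2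
  rw [List.map_append, List.sum_append] at h
  have h2 := sum_nonneg_of (fun m => Nn g n m + g m k) (add_nonneg' g n hk.1) l2
  have h3 : mn g n (l1 ++ l2) ≤ mn g n l1 :=
    mnL_mono _ h1 (fun m hm => List.mem_append_left _ hm)
  linarith

lemma setB_sub_right {l1 l2 : List M} (h1 : l2 ≠ []) : setB g n (l1 ++ l2) ⊆ setB g n l2 := by
  intro k hk
  rw [mem_setB] at hk ⊢
  refine ⟨hk.1, ?_⟩
  have h := hk.2
  rw [List.map_append, List.sum_append] at h
  have h2 := sum_nonneg_of (fun m => Nn g n m + g m k) (add_nonneg' g n hk.1) l1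
  have h3 : mn g n (l1 ++ l2) ≤ mn g n l2 :=
    mnL_mono _ h1 (fun m hm => List.mem_append_right _ hm)
  linarith

lemma ok_left {l1 l2 : List M} (h1 : l1 ≠ []) (h : ok g n (l1 ++ l2)) : ok g n l1 := by
  obtain ⟨a, b, c⟩ := h
  have h3 : mn g n (l1 ++ l2) ≤ mn g n l1 :=
    mnL_mono _ h1 (fun m hm => List.mem_append_left _ hm)
  have h4 : mx g n l1 ≤ mx g n (l1 ++ l2) :=
    mxL_mono _ h1 (fun m hm => List.mem_append_left _ hm)
  refine ⟨by linarith, by linarith, ?_⟩
  exact c.mono (Finset.union_subset_union (setA_sub_left g n h1) (setB_sub_left g n h1))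

lemma ok_right {l1 l2 : List M} (h1 : l2 ≠ []) (h : ok g n (l1 ++ l2)) : ok g n l2 := by
  obtain ⟨a, b, c⟩ := h
  have h3 : mn g n (l1 ++ l2) ≤ mn g n l2 :=
    mnL_mono _ h1 (fun m hm => List.mem_append_right _ hm)
  have h4 : mx g n l2 ≤ mx g n (l1 ++ l2) :=
    mxL_mono _ h1 (fun m hm => List.mem_append_right _ hm)
  refine ⟨by linarith, by linarith, ?_⟩
  exact c.mono (Finset.union_subset_union (setA_sub_right g n h1) (setB_sub_right g n h1))

/-- the sum of the sizes is at least the least size -/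
lemma mn_le_sum {l : List M} (hl : l ≠ []) : mn g n l ≤ (l.map (Nn g n)).sum := by
  obtain ⟨m, hm, he⟩ := mnL_mem (Nn g n) hl
  unfold mn
  rw [← he]
  exact List.single_le_sum (by
    intro x hx
    obtain ⟨m', _, rfl⟩ := List.mem_map.1 hx
    exact Nn_nonneg g n m') _ (List.mem_map.2 ⟨m, hm, rfl⟩)

lemma sum_sub (l : List M) (k : ℕ) : (l.map (fun m => Nn g n m - g m k)).sum
    = (l.map (Nn g n)).sum - (l.map (fun m => g m k)).sum := by
  induction l with
  | nil => simp
  | cons m l ih =>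
    simp only [List.map_cons, List.sum_cons, ih]
    ring

lemma sum_add (l : List M) (k : ℕ) : (l.map (fun m => Nn g n m + g m k)).sum
    = (l.map (Nn g n)).sum + (l.map (fun m => g m k)).sum := by
  induction l with
  | nil => simp
  | cons m l ih =>
    simp only [List.map_cons, List.sum_cons, ih]
    ring

/-- fact (b) -/
lemma disj {l : List M} (hl : l ≠ []) (h : 0 < mn g n l) :
    Disjoint (setA g n l) (setB g n l) := by
  rw [Finset.disjoint_left]
  intro k hA hB
  rw [mem_setA, sum_sub] at hA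
  rw [mem_setB, sum_add] at hB
  have := mn_le_sum g n hl
  linarith [hA.2, hB.2]

end Win

end Vale.Agent.P125.BV.W89
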