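import Vale.Agent.P125.BV.Alt
import Vale.Agent.P125.BV.Pot4

set_option linter.unusedSectionVars false
set_option linter.unusedVariables false

/-!
# P125, (BV): the concrete windows

A mark `m` carries a profile `g m : ℕ → ℝ` (the running sums of its vector, positions `k ≤ n`) and a
size `Nn m` with `|g m k| ≤ Nn m`.  For a window `l` (a nonempty list of marks) we define the sets of
the common tops and of the common bottoms, the alternation number and the first letter, and we
check the hypotheses of the abstract potential recursion.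
-/

namespace Vale.Agent.P125.BV4

open scoped BigOperators
open Vale.Agent.P125.Dich Vale.Agent.P125.BV

/-- minimum of a list of reals (`0` for the empty list) -/
noncomputable def mnL (L : List ℝ) : ℝ :=
  if h : L.toFinset.Nonempty then L.toFinset.min' h else 0

/-- maximum of a list of reals (`0` for the empty list) -/
noncomputable def mxL (L : List ℝ) : ℝ :=
  if h : L.toFinset.Nonempty then L.toFinset.max' h else 0

lemma toFinset_ne {L : List ℝ} (h : L ≠ []) : L.toFinset.Nonempty := by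
  rw [List.toFinset_nonempty_iff]
  exact h

lemma mnL_nil : mnL [] = 0 := by
  unfold mnL
  rw [dif_neg]
  simp

lemma mnL_mem {L : List ℝ} (h : L ≠ []) : mnL L ∈ L := by
  unfold mnL
  rw [dif_pos (toFinset_ne h)]
  exact List.mem_toFinset.1 (Finset.min'_mem _ _)

lemma mnL_le {L : List ℝ} {x : ℝ} (hx : x ∈ L) : mnL L ≤ x := by
  unfold mnL
  rw [dif_pos (toFinset_ne (List.ne_nil_of_mem hx))]
  exact Finset.min'_le _ _ (List.mem_toFinset.2 hx)

lemma mxL_mem {L : List ℝ} (h : L ≠ []) : mxL L ∈ L := by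
  unfold mxL
  rw [dif_pos (toFinset_ne h)]
  exact List.mem_toFinset.1 (Finset.max'_mem _ _)

lemma le_mxL {L : List ℝ} {x : ℝ} (hx : x ∈ L) : x ≤ mxL L := by
  unfold mxL
  rw [dif_pos (toFinset_ne (List.ne_nil_of_mem hx))]
  exact Finset.le_max' _ _ (List.mem_toFinset.2 hx)

lemma mnL_reverse (L : List ℝ) : mnL L.reverse = mnL L := by
  unfold mnL
  rw [List.toFinset_reverse]

lemma mxL_reverse (L : List ℝ) : mxL L.reverse = mxL L := by
  unfold mxL
  rw [List.toFinset_reverse]

variable {S M : Type} [Fintype S] [Fintype M]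

section defs

variable (g : M → ℕ → ℝ) (Nn : M → ℝ) (n : ℕ)

noncomputable def mn (l : List M) : ℝ := mnL (l.map Nn)

noncomputable def mx (l : List M) : ℝ := mxL (l.map Nn)

/-- the deficiency of the position `k` as a common top of the window -/
def dfA (l : List M) (k : ℕ) : ℝ := (l.map fun m => Nn m - g m k).sum

/-- the deficiency of the position `k` as a common bottom of the window -/
def dfB (l : List M) (k : ℕ) : ℝ := (l.map fun m => Nn m + g m k).sum

open Classical in
noncomputable def setA (l : List M) : Finset ℕ :=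
  (Finset.range (n + 1)).filter fun k => dfA g Nn l k ≤ mn Nn l / 4

open Classical in
noncomputable def setB (l : List M) : Finset ℕ :=
  (Finset.range (n + 1)).filter fun k => dfB g Nn l k ≤ mn Nn l / 4

def ok (l : List M) : Prop :=
  0 < mn Nn l ∧ mx Nn l ≤ 2 * mn Nn l ∧ (setA g Nn n l ∪ setB g Nn n l).Nonempty

open Classical in
noncomputable def mu (l : List M) : ℝ := if ok g Nn n l then mn Nn l else 0

noncomputable def cc (l : List M) : ℕ := altc (setA g Nn n l) (setB g Nn n l)

noncomputable def sgn (l : List M) : ℝ := sg (setA g Nn n l) (setB g Nn n l)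

/-- total variation of the profile of a mark -/
def Vv (m : M) : ℝ := ∑ j ∈ Finset.range n, |g m (j + 1) - g m j|

end defs

/-- the hypotheses on the profiles -/
structure Prof (C : MChain S M) (g : M → ℕ → ℝ) (Nn : M → ℝ) (n : ℕ) : Prop where
  g_inv : ∀ m k, g (C.inv m) k = - g m k
  N_inv : ∀ m, Nn (C.inv m) = Nn m
  g_le : ∀ m k, k ≤ n → |g m k| ≤ Nn m

variable {C : MChain S M} {g : M → ℕ → ℝ} {Nn : M → ℝ} {n : ℕ}

lemma Prof.N_nonneg (hP : Prof C g Nn n) (m : M) : 0 ≤ Nn m :=
  le_trans (abs_nonneg _) (hP.g_le m 0 (Nat.zero_le n))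

lemma dfA_append (l1 l2 : List M) (k : ℕ) :
    dfA g Nn (l1 ++ l2) k = dfA g Nn l1 k + dfA g Nn l2 k := by
  simp [dfA]

lemma dfB_append (l1 l2 : List M) (k : ℕ) :
    dfB g Nn (l1 ++ l2) k = dfB g Nn l1 k + dfB g Nn l2 k := by
  simp [dfB]

lemma dfA_nonneg (hP : Prof C g Nn n) (l : List M) {k : ℕ} (hk : k ≤ n) : 0 ≤ dfA g Nn l k := by
  apply List.sum_nonneg
  intro x hx
  obtain ⟨m, _, rfl⟩ := List.mem_map.1 hx
  have := abs_le.1 (hP.g_le m k hk)
  linarith [this.2]

lemma dfB_nonneg (hP : Prof C g Nn n) (l : List M) {k : ℕ} (hk : k ≤ n) : 0 ≤ dfB g Nn l k := by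
  apply List.sum_nonneg
  intro x hx
  obtain ⟨m, _, rfl⟩ := List.mem_map.1 hx
  have := abs_le.1 (hP.g_le m k hk)
  linarith [this.1]

lemma dfA_eq (l : List M) (k : ℕ) :
    dfA g Nn l k = (l.map Nn).sum - (l.map fun m => g m k).sum := by
  induction l with
  | nil => simp [dfA]
  | cons a t ih =>
    simp only [dfA, List.map_cons, List.sum_cons] at ih ⊢
    linarith

lemma dfB_eq (l : List M) (k : ℕ) :
    dfB g Nn l k = (l.map Nn).sum + (l.map fun m => g m k).sum := by
  induction l with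
  | nil => simp [dfB]
  | cons a t ih =>
    simp only [dfB, List.map_cons, List.sum_cons] at ih ⊢
    linarith

lemma map_rv (C : MChain S M) (F : M → ℝ) (l : List M) :
    ((l.map C.inv).reverse).map F = (l.map fun m => F (C.inv m)).reverse := by
  rw [List.map_reverse, List.map_map]
  rfl

lemma dfA_rv (hP : Prof C g Nn n) (l : List M) (k : ℕ) :
    dfA g Nn ((l.map C.inv).reverse) k = dfB g Nn l k := by
  unfold dfA dfB
  rw [map_rv, List.sum_reverse]
  congr 1
  apply List.map_congr_left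
  intro m _
  rw [hP.g_inv, hP.N_inv]
  ring

lemma dfB_rv (hP : Prof C g Nn n) (l : List M) (k : ℕ) :
    dfB g Nn ((l.map C.inv).reverse) k = dfA g Nn l k := by
  unfold dfA dfB
  rw [map_rv, List.sum_reverse]
  congr 1
  apply List.map_congr_left
  intro m _
  rw [hP.g_inv, hP.N_inv]
  ring

lemma mn_rv (hP : Prof C g Nn n) (l : List M) : mn Nn ((l.map C.inv).reverse) = mn Nn l := by
  unfold mn
  rw [map_rv, mnL_reverse]
  have : (fun m => Nn (C.inv m)) = Nn := funext hP.N_inv
  rw [this]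

lemma mx_rv (hP : Prof C g Nn n) (l : List M) : mx Nn ((l.map C.inv).reverse) = mx Nn l := by
  unfold mx
  rw [map_rv, mxL_reverse]
  have : (fun m => Nn (C.inv m)) = Nn := funext hP.N_inv
  rw [this]

lemma setA_rv (hP : Prof C g Nn n) (l : List M) :
    setA g Nn n ((l.map C.inv).reverse) = setB g Nn n l := by
  unfold setA setB
  apply Finset.filter_congr
  intro k _
  rw [dfA_rv hP, mn_rv hP]

lemma setB_rv (hP : Prof C g Nn n) (l : List M) :
    setB g Nn n ((l.map C.inv).reverse) = setA g Nn n l := by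
  unfold setA setB
  apply Finset.filter_congr
  intro k _
  rw [dfB_rv hP, mn_rv hP]

lemma ok_rv (hP : Prof C g Nn n) (l : List M) :
    ok g Nn n ((l.map C.inv).reverse) ↔ ok g Nn n l := by
  unfold ok
  rw [mn_rv hP, mx_rv hP, setA_rv hP, setB_rv hP, Finset.union_comm]

lemma mu_rv (hP : Prof C g Nn n) (l : List M) :
    mu g Nn n ((l.map C.inv).reverse) = mu g Nn n l := by
  unfold mu
  by_cases h : ok g Nn n l
  · rw [if_pos h, if_pos ((ok_rv hP l).2 h), mn_rv hP]
  · rw [if_neg h, if_neg (fun h' => h ((ok_rv hP l).1 h'))]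

lemma ne_nil_of_mn_pos {l : List M} (h : 0 < mn Nn l) : l ≠ [] := by
  rintro rfl
  unfold mn at h
  rw [List.map_nil, mnL_nil] at h
  exact lt_irrefl _ h

lemma map_ne_nil {l : List M} (h : l ≠ []) : l.map Nn ≠ [] := by
  intro h'
  exact h (List.map_eq_nil_iff.1 h')

lemma mn_le_sum (hP : Prof C g Nn n) {l : List M} (h : l ≠ []) : mn Nn l ≤ (l.map Nn).sum := by
  apply List.single_le_sum _ _ (mnL_mem (map_ne_nil h))
  intro x hx
  obtain ⟨m, _, rfl⟩ := List.mem_map.1 hx
  exact hP.N_nonneg m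

lemma disj (hP : Prof C g Nn n) {l : List M} (h0 : 0 < mn Nn l) :
    Disjoint (setA g Nn n l) (setB g Nn n l) := by
  rw [Finset.disjoint_left]
  intro k hA hB
  have hA' := (Finset.mem_filter.1 hA).2
  have hB' := (Finset.mem_filter.1 hB).2
  rw [dfA_eq] at hA'
  rw [dfB_eq] at hB'
  have := mn_le_sum hP (ne_nil_of_mn_pos h0)
  linarith

lemma mn_append_left {l1 : List M} (l2 : List M) (h1 : l1 ≠ []) :
    mn Nn (l1 ++ l2) ≤ mn Nn l1 := by
  unfold mn
  apply mnL_le
  rw [List.map_append]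
  exact List.mem_append_left _ (mnL_mem (map_ne_nil h1))

lemma mn_append_right (l1 : List M) {l2 : List M} (h2 : l2 ≠ []) :
    mn Nn (l1 ++ l2) ≤ mn Nn l2 := by
  unfold mn
  apply mnL_le
  rw [List.map_append]
  exact List.mem_append_right _ (mnL_mem (map_ne_nil h2))

lemma mx_append_left {l1 : List M} (l2 : List M) (h1 : l1 ≠ []) :
    mx Nn l1 ≤ mx Nn (l1 ++ l2) := by
  unfold mx
  apply le_mxL
  rw [List.map_append]
  exact List.mem_append_left _ (mxL_mem (map_ne_nil h1))

lemma mx_append_right (l1 : List M) {l2 : List M} (h2 : l2 ≠ []) :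
    mx Nn l2 ≤ mx Nn (l1 ++ l2) := by
  unfold mx
  apply le_mxL
  rw [List.map_append]
  exact List.mem_append_right _ (mxL_mem (map_ne_nil h2))

lemma setA_left (hP : Prof C g Nn n) {l1 : List M} (l2 : List M) (h1 : l1 ≠ []) :
    setA g Nn n (l1 ++ l2) ⊆ setA g Nn n l1 := by
  intro k hk
  obtain ⟨hk1, hk2⟩ := Finset.mem_filter.1 hk
  have hkn : k ≤ n := Nat.lt_succ_iff.1 (Finset.mem_range.1 hk1)
  refine Finset.mem_filter.2 ⟨hk1, ?_⟩
  rw [dfA_append] at hk2
  have e1 := dfA_nonneg hP l2 hkn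
  have e2 := mn_append_left (Nn := Nn) l2 h1
  linarith

lemma setA_right (hP : Prof C g Nn n) (l1 : List M) {l2 : List M} (h2 : l2 ≠ []) :
    setA g Nn n (l1 ++ l2) ⊆ setA g Nn n l2 := by
  intro k hk
  obtain ⟨hk1, hk2⟩ := Finset.mem_filter.1 hk
  have hkn : k ≤ n := Nat.lt_succ_iff.1 (Finset.mem_range.1 hk1)
  refine Finset.mem_filter.2 ⟨hk1, ?_⟩
  rw [dfA_append] at hk2
  have e1 := dfA_nonneg hP l1 hkn
  have e2 := mn_append_right (Nn := Nn) l1 h2
  linarith

lemma setB_left (hP : Prof C g Nn n) {l1 : List M} (l2 : List M) (h1 : l1 ≠ []) :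
    setB g Nn n (l1 ++ l2) ⊆ setB g Nn n l1 := by
  intro k hk
  obtain ⟨hk1, hk2⟩ := Finset.mem_filter.1 hk
  have hkn : k ≤ n := Nat.lt_succ_iff.1 (Finset.mem_range.1 hk1)
  refine Finset.mem_filter.2 ⟨hk1, ?_⟩
  rw [dfB_append] at hk2
  have e1 := dfB_nonneg hP l2 hkn
  have e2 := mn_append_left (Nn := Nn) l2 h1
  linarith

lemma setB_right (hP : Prof C g Nn n) (l1 : List M) {l2 : List M} (h2 : l2 ≠ []) :
    setB g Nn n (l1 ++ l2) ⊆ setB g Nn n l2 := by
  intro k hk
  obtain ⟨hk1, hk2⟩ := Finset.mem_filter.1 hk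
  have hkn : k ≤ n := Nat.lt_succ_iff.1 (Finset.mem_range.1 hk1)
  refine Finset.mem_filter.2 ⟨hk1, ?_⟩
  rw [dfB_append] at hk2
  have e1 := dfB_nonneg hP l1 hkn
  have e2 := mn_append_right (Nn := Nn) l1 h2
  linarith

lemma ok_left (hP : Prof C g Nn n) {l1 : List M} (l2 : List M) (h1 : l1 ≠ [])
    (h : ok g Nn n (l1 ++ l2)) : ok g Nn n l1 := by
  obtain ⟨a, b, c⟩ := h
  have e1 := mn_append_left (Nn := Nn) l2 h1
  have e2 := mx_append_left (Nn := Nn) l2 h1
  refine ⟨by linarith, by linarith, ?_⟩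
  exact c.mono (Finset.union_subset_union (setA_left hP l2 h1) (setB_left hP l2 h1))

lemma ok_right (hP : Prof C g Nn n) (l1 : List M) {l2 : List M} (h2 : l2 ≠ [])
    (h : ok g Nn n (l1 ++ l2)) : ok g Nn n l2 := by
  obtain ⟨a, b, c⟩ := h
  have e1 := mn_append_right (Nn := Nn) l1 h2
  have e2 := mx_append_right (Nn := Nn) l1 h2
  refine ⟨by linarith, by linarith, ?_⟩
  exact c.mono (Finset.union_subset_union (setA_right hP l1 h2) (setB_right hP l1 h2))

lemma ok_of_mu_ne {l : List M} (h : mu g Nn n l ≠ 0) : ok g Nn n l := by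
  by_contra h'
  apply h
  unfold mu
  rw [if_neg h']

lemma mu_nonneg (l : List M) : 0 ≤ mu g Nn n l := by
  unfold mu
  split_ifs with h
  · exact h.1.le
  · exact le_rfl

/-- the concrete windows satisfy the hypotheses of the potential recursion -/
theorem pot (hP : Prof C g Nn n) : Pot C (mu g Nn n) (sgn g Nn n) (cc g Nn n) where
  mu_nonneg := mu_nonneg
  mu_rev := mu_rv hP
  sg_pm := fun l => sg_eq_or _ _
  sg_rev := by
    intro l hl
    have h := ok_of_mu_ne hl
    unfold sgn
    rw [setA_rv hP, setB_rv hP]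
    exact sg_swap (disj hP h.1) h.2.2
  mu_left := by
    intro l1 l2 h1 _
    by_cases h : ok g Nn n (l1 ++ l2)
    · have h' := ok_left hP l2 h1 h
      unfold mu
      rw [if_pos h, if_pos h']
      exact mn_append_left l2 h1
    · have : mu g Nn n (l1 ++ l2) = 0 := by
        unfold mu
        rw [if_neg h]
      rw [this]
      exact mu_nonneg l1
  mu_right := by
    intro l1 l2 _ h2
    by_cases h : ok g Nn n (l1 ++ l2)
    · have h' := ok_right hP l1 h2 h
      unfold mu
      rw [if_pos h, if_pos h']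
      exact mn_append_right l1 h2
    · have : mu g Nn n (l1 ++ l2) = 0 := by
        unfold mu
        rw [if_neg h]
      rw [this]
      exact mu_nonneg l2
  cc_left := fun l1 l2 h1 _ _ => altc_mono (setA_left hP l2 h1) (setB_left hP l2 h1)
  cc_right := fun l1 l2 _ h2 _ => altc_mono (setA_right hP l1 h2) (setB_right hP l1 h2)
  sg_left := by
    intro l1 l2 h1 _ hne hc
    have h := ok_of_mu_ne hne
    have h' := ok_left hP l2 h1 h
    exact sg_eq_of_altc_eq (setA_left hP l2 h1) (setB_left hP l2 h1) (disj hP h'.1) h.2.2 hc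
  sg_right := by
    intro l1 l2 _ h2 hne hc
    have h := ok_of_mu_ne hne
    have h' := ok_right hP l1 h2 h
    exact sg_eq_of_altc_eq (setA_right hP l1 h2) (setB_right hP l1 h2) (disj hP h'.1) h.2.2 hc

lemma mn_single (m : M) : mn Nn [m] = Nn m := by
  have := mnL_mem (L := [Nn m]) (by simp)
  unfold mn
  simpa using this

lemma Vv_nonneg (m : M) : 0 ≤ Vv g n m := Finset.sum_nonneg fun _ _ => abs_nonneg _

lemma mu_sq_single (hP : Prof C g Nn n) (m : M) : mu g Nn n [m] ^ 2 ≤ Nn m ^ 2 := by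
  unfold mu
  split_ifs with h
  · rw [mn_single]
  · have := sq_nonneg (Nn m)
    simpa using this

lemma mu_sq_cc_single (hP : Prof C g Nn n) (m : M) :
    mu g Nn n [m] ^ 2 * (cc g Nn n [m] : ℝ) ≤ Nn m ^ 2 + Nn m * Vv g n m := by
  have hN := hP.N_nonneg m
  have hV := Vv_nonneg (g := g) (n := n) m
  unfold mu
  split_ifs with h
  · rw [mn_single]
    have hpos : 0 < Nn m := by
      have := h.1
      rwa [mn_single] at this
    have hvar := altc_var (g m) (3 / 4 * Nn m) (by positivity) n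
      (A := setA g Nn n [m]) (B := setB g Nn n [m])
      (by
        intro x hx
        obtain ⟨hx1, hx2⟩ := Finset.mem_filter.1 hx
        refine ⟨Nat.lt_succ_iff.1 (Finset.mem_range.1 hx1), ?_⟩
        rw [mn_single] at hx2
        simp only [dfA, List.map_cons, List.map_nil, List.sum_cons, List.sum_nil] at hx2
        linarith)
      (by
        intro x hx
        obtain ⟨hx1, hx2⟩ := Finset.mem_filter.1 hx
        refine ⟨Nat.lt_succ_iff.1 (Finset.mem_range.1 hx1), ?_⟩
        rw [mn_single] at hx2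
        simp only [dfB, List.map_cons, List.map_nil, List.sum_cons, List.sum_nil] at hx2
        linarith)
    change ((cc g Nn n [m] : ℝ) - 1) * (2 * (3 / 4 * Nn m)) ≤ Vv g n m at hvar
    have key : Nn m * ((cc g Nn n [m] : ℝ) - 1) ≤ Vv g n m := by
      rcases le_total 0 ((cc g Nn n [m] : ℝ) - 1) with hc | hc
      · nlinarith [mul_nonneg hN hc]
      · nlinarith [mul_nonneg hN (sub_nonneg.2 (sub_nonpos.1 hc))]
    nlinarith [mul_le_mul_of_nonneg_left key hN]
  · have : 0 ≤ Nn m ^ 2 + Nn m * Vv g n m := by positivity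
    simpa using this

end Vale.Agent.P125.BV4
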